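import Vale.Agent.Lib.P340.Defs

/-!
Substitution algebra for de Bruijn terms.
-/

namespace Vale.Agent.Lib.P340
namespace Tm

variable {S : Type}

@[simp] theorem upr_zero (ξ : ℕ → ℕ) : upr ξ 0 = 0 := rfl
@[simp] theorem upr_succ (ξ : ℕ → ℕ) (i : ℕ) : upr ξ (i + 1) = ξ i + 1 := rfl
@[simp] theorem ups_zero (σ : ℕ → Tm S) : ups σ 0 = var 0 := rfl
@[simp] theorem ups_succ (σ : ℕ → Tm S) (i : ℕ) : ups σ (i + 1) = shift (σ i) := rfl
@[simp] theorem inst_zero (N : Tm S) : inst N 0 = N := rfl
@[simp] theorem inst_succ (N : Tm S) (i : ℕ) : inst N (i + 1) = var i := rfl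

@[simp] theorem rename_var (ξ : ℕ → ℕ) (i : ℕ) : rename ξ (var i : Tm S) = var (ξ i) := rfl
@[simp] theorem rename_sort (ξ : ℕ → ℕ) (s : S) : rename ξ (sort s) = sort s := rfl
@[simp] theorem rename_app (ξ : ℕ → ℕ) (a b : Tm S) :
    rename ξ (app a b) = app (rename ξ a) (rename ξ b) := rfl
@[simp] theorem rename_lam (ξ : ℕ → ℕ) (a b : Tm S) :
    rename ξ (lam a b) = lam (rename ξ a) (rename (upr ξ) b) := rfl
@[simp] theorem rename_pi (ξ : ℕ → ℕ) (a b : Tm S) :
    rename ξ (pi a b) = pi (rename ξ a) (rename (upr ξ) b) := rfl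

@[simp] theorem subst_var' (σ : ℕ → Tm S) (i : ℕ) : subst σ (var i) = σ i := rfl
@[simp] theorem subst_sort (σ : ℕ → Tm S) (s : S) : subst σ (sort s) = sort s := rfl
@[simp] theorem subst_app (σ : ℕ → Tm S) (a b : Tm S) :
    subst σ (app a b) = app (subst σ a) (subst σ b) := rfl
@[simp] theorem subst_lam (σ : ℕ → Tm S) (a b : Tm S) :
    subst σ (lam a b) = lam (subst σ a) (subst (ups σ) b) := rfl
@[simp] theorem subst_pi (σ : ℕ → Tm S) (a b : Tm S) :
    subst σ (pi a b) = pi (subst σ a) (subst (ups σ) b) := rfl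

theorem shift_def (t : Tm S) : shift t = rename Nat.succ t := rfl

theorem upr_id : upr (id : ℕ → ℕ) = id := by
  funext i; cases i <;> rfl

theorem rename_id (t : Tm S) : rename id t = t := by
  induction t with
  | var i => rfl
  | sort s => rfl
  | app a b iha ihb => simp [iha, ihb]
  | lam A b ihA ihb => simp [upr_id, ihA, ihb]
  | pi A b ihA ihb => simp [upr_id, ihA, ihb]

theorem upr_comp (ξ ζ : ℕ → ℕ) : upr (ξ ∘ ζ) = upr ξ ∘ upr ζ := by
  funext i; cases i <;> rfl

theorem rename_rename (ξ ζ : ℕ → ℕ) (t : Tm S) :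
    rename ξ (rename ζ t) = rename (ξ ∘ ζ) t := by
  induction t generalizing ξ ζ with
  | var i => rfl
  | sort s => rfl
  | app a b iha ihb => simp [iha, ihb]
  | lam A b ihA ihb => simp [upr_comp, ihA, ihb]
  | pi A b ihA ihb => simp [upr_comp, ihA, ihb]

theorem ups_var : ups (var : ℕ → Tm S) = var := by
  funext i; cases i <;> rfl

theorem subst_var (t : Tm S) : subst var t = t := by
  induction t with
  | var i => rfl
  | sort s => rfl
  | app a b iha ihb => simp [iha, ihb]
  | lam A b ihA ihb => simp [ups_var, ihA, ihb]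
  | pi A b ihA ihb => simp [ups_var, ihA, ihb]

theorem ups_comp_upr (σ : ℕ → Tm S) (ξ : ℕ → ℕ) : ups (σ ∘ ξ) = ups σ ∘ upr ξ := by
  funext i; cases i <;> rfl

theorem subst_rename (σ : ℕ → Tm S) (ξ : ℕ → ℕ) (t : Tm S) :
    subst σ (rename ξ t) = subst (σ ∘ ξ) t := by
  induction t generalizing σ ξ with
  | var i => rfl
  | sort s => rfl
  | app a b iha ihb => simp [iha, ihb]
  | lam A b ihA ihb => simp [ups_comp_upr, ihA, ihb]
  | pi A b ihA ihb => simp [ups_comp_upr, ihA, ihb]

theorem rename_shift (ξ : ℕ → ℕ) (t : Tm S) : rename (upr ξ) (shift t) = shift (rename ξ t) := by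
  simp only [shift, rename_rename]
  congr 1

theorem ups_rename_comp (ξ : ℕ → ℕ) (σ : ℕ → Tm S) :
    ups (rename ξ ∘ σ) = rename (upr ξ) ∘ ups σ := by
  funext i
  cases i with
  | zero => rfl
  | succ i => simp [rename_shift]

theorem rename_subst (ξ : ℕ → ℕ) (σ : ℕ → Tm S) (t : Tm S) :
    rename ξ (subst σ t) = subst (rename ξ ∘ σ) t := by
  induction t generalizing ξ σ with
  | var i => rfl
  | sort s => rfl
  | app a b iha ihb => simp [iha, ihb]
  | lam A b ihA ihb => simp [ups_rename_comp, ihA, ihb]
  | pi A b ihA ihb => simp [ups_rename_comp, ihA, ihb]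

theorem subst_shift (σ : ℕ → Tm S) (t : Tm S) : subst (ups σ) (shift t) = shift (subst σ t) := by
  simp only [shift, subst_rename, rename_subst]
  congr 1

theorem ups_subst_comp (σ τ : ℕ → Tm S) :
    ups (subst σ ∘ τ) = subst (ups σ) ∘ ups τ := by
  funext i
  cases i with
  | zero => rfl
  | succ i => simp [subst_shift]

theorem subst_subst (σ τ : ℕ → Tm S) (t : Tm S) :
    subst σ (subst τ t) = subst (subst σ ∘ τ) t := by
  induction t generalizing σ τ with
  | var i => rfl
  | sort s => rfl
  | app a b iha ihb => simp [iha, ihb]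
  | lam A b ihA ihb => simp [ups_subst_comp, ihA, ihb]
  | pi A b ihA ihb => simp [ups_subst_comp, ihA, ihb]

theorem rename_eq_subst (ξ : ℕ → ℕ) (t : Tm S) : rename ξ t = subst (fun i => var (ξ i)) t := by
  induction t generalizing ξ with
  | var i => rfl
  | sort s => rfl
  | app a b iha ihb => simp [iha, ihb]
  | lam A b ihA ihb =>
    simp only [rename_lam, subst_lam, ihA, ihb]
    congr 2
    funext i; cases i <;> rfl
  | pi A b ihA ihb =>
    simp only [rename_pi, subst_pi, ihA, ihb]
    congr 2
    funext i; cases i <;> rfl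

@[simp] theorem open_shift (t N : Tm S) : open_ (shift t) N = t := by
  unfold open_ shift
  rw [subst_rename]
  show subst (fun i => var i) t = t
  exact subst_var t

@[simp] theorem subst_inst_shift (N t : Tm S) : subst (inst N) (shift t) = t := open_shift t N

theorem open_var_zero (N : Tm S) : open_ (var 0) N = N := rfl

theorem rename_open (ξ : ℕ → ℕ) (b N : Tm S) :
    rename ξ (open_ b N) = open_ (rename (upr ξ) b) (rename ξ N) := by
  unfold open_
  rw [rename_subst, subst_rename]
  congr 1
  funext i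
  cases i <;> rfl

theorem subst_open (σ : ℕ → Tm S) (b N : Tm S) :
    subst σ (open_ b N) = open_ (subst (ups σ) b) (subst σ N) := by
  unfold open_
  rw [subst_subst, subst_subst]
  congr 1
  funext i
  cases i with
  | zero => rfl
  | succ i => simp

theorem shift_open (b N : Tm S) :
    shift (open_ b N) = open_ (rename (upr Nat.succ) b) (shift N) := rename_open _ b N

/-- Free occurrence of the variable `x`. -/
def Occurs : ℕ → Tm S → Prop
  | x, var i => i = x
  | _, sort _ => False
  | x, app a b => Occurs x a ∨ Occurs x b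
  | x, lam A b => Occurs x A ∨ Occurs (x + 1) b
  | x, pi A b => Occurs x A ∨ Occurs (x + 1) b

@[simp] theorem occurs_var (x i : ℕ) : Occurs x (var i : Tm S) ↔ i = x := Iff.rfl
@[simp] theorem occurs_sort (x : ℕ) (s : S) : Occurs x (sort s) ↔ False := Iff.rfl
@[simp] theorem occurs_app (x : ℕ) (a b : Tm S) :
    Occurs x (app a b) ↔ Occurs x a ∨ Occurs x b := Iff.rfl
@[simp] theorem occurs_lam (x : ℕ) (a b : Tm S) :
    Occurs x (lam a b) ↔ Occurs x a ∨ Occurs (x + 1) b := Iff.rfl
@[simp] theorem occurs_pi (x : ℕ) (a b : Tm S) :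
    Occurs x (pi a b) ↔ Occurs x a ∨ Occurs (x + 1) b := Iff.rfl

theorem subst_congr_occurs {σ τ : ℕ → Tm S} (t : Tm S) (h : ∀ x, Occurs x t → σ x = τ x) :
    subst σ t = subst τ t := by
  induction t generalizing σ τ with
  | var i => exact h i rfl
  | sort s => rfl
  | app a b iha ihb =>
    simp only [subst_app]
    rw [iha (fun x hx => h x (Or.inl hx)), ihb (fun x hx => h x (Or.inr hx))]
  | lam A b ihA ihb =>
    simp only [subst_lam]
    rw [ihA (fun x hx => h x (Or.inl hx)), ihb]
    intro x hx
    cases x with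
    | zero => rfl
    | succ x =>
      simp only [ups_succ]
      rw [h x (Or.inr hx)]
  | pi A b ihA ihb =>
    simp only [subst_pi]
    rw [ihA (fun x hx => h x (Or.inl hx)), ihb]
    intro x hx
    cases x with
    | zero => rfl
    | succ x =>
      simp only [ups_succ]
      rw [h x (Or.inr hx)]

/-- A term in which variable `0` does not occur is a weakening. -/
theorem eq_shift_of_not_occurs {t : Tm S} (d : Tm S) (h : ¬ Occurs 0 t) :
    t = shift (open_ t d) := by
  unfold shift open_
  rw [rename_subst]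
  conv_lhs => rw [← subst_var t]
  apply subst_congr_occurs
  intro x hx
  cases x with
  | zero => exact absurd hx h
  | succ x => rfl

theorem not_occurs_zero_shift (t : Tm S) : ¬ Occurs 0 (shift t) := by
  suffices H : ∀ (ξ : ℕ → ℕ) (x : ℕ), (∀ i, ξ i ≠ x) → ¬ Occurs x (rename ξ t) from
    H _ _ (fun i => Nat.succ_ne_zero i)
  induction t with
  | var i => intro ξ x h hx; exact h i hx
  | sort s => intro ξ x h hx; exact hx
  | app a b iha ihb =>
    intro ξ x h hx
    rcases hx with hx | hx
    · exact iha ξ x h hx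
    · exact ihb ξ x h hx
  | lam A b ihA ihb =>
    intro ξ x h hx
    rcases hx with hx | hx
    · exact ihA ξ x h hx
    · refine ihb (upr ξ) (x + 1) ?_ hx
      intro i
      cases i with
      | zero => simp
      | succ i => simpa using h i
  | pi A b ihA ihb =>
    intro ξ x h hx
    rcases hx with hx | hx
    · exact ihA ξ x h hx
    · refine ihb (upr ξ) (x + 1) ?_ hx
      intro i
      cases i with
      | zero => simp
      | succ i => simpa using h i

theorem occurs_rename {ξ : ℕ → ℕ} {x : ℕ} {t : Tm S} (h : Occurs x t) :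
    Occurs (ξ x) (rename ξ t) := by
  induction t generalizing ξ x with
  | var i => simp only [occurs_var] at h; subst h; rfl
  | sort s => exact h
  | app a b iha ihb =>
    rcases h with h | h
    · exact Or.inl (iha h)
    · exact Or.inr (ihb h)
  | lam A b ihA ihb =>
    rcases h with h | h
    · exact Or.inl (ihA h)
    · exact Or.inr (ihb (ξ := upr ξ) h)
  | pi A b ihA ihb =>
    rcases h with h | h
    · exact Or.inl (ihA h)
    · exact Or.inr (ihb (ξ := upr ξ) h)

theorem occurs_shift {x : ℕ} {t : Tm S} (h : Occurs x t) : Occurs (x + 1) (shift t) :=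
  occurs_rename (ξ := Nat.succ) h

/-- Occurrences of `y` in `σ x`, for `x` occurring in `t`, survive in `subst σ t`. -/
theorem occurs_subst {σ : ℕ → Tm S} {x y : ℕ} {t : Tm S} (h : Occurs x t) (hy : Occurs y (σ x)) :
    Occurs y (subst σ t) := by
  induction t generalizing σ x y with
  | var i => simp only [occurs_var] at h; subst h; exact hy
  | sort s => exact h
  | app a b iha ihb =>
    rcases h with h | h
    · exact Or.inl (iha h hy)
    · exact Or.inr (ihb h hy)
  | lam A b ihA ihb =>
    rcases h with h | h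
    · exact Or.inl (ihA h hy)
    · exact Or.inr (ihb (σ := ups σ) h (occurs_shift hy))
  | pi A b ihA ihb =>
    rcases h with h | h
    · exact Or.inl (ihA h hy)
    · exact Or.inr (ihb (σ := ups σ) h (occurs_shift hy))

/-- Substitution keeps the variable `0` of a body. -/
theorem occurs_zero_ups {σ : ℕ → Tm S} {t : Tm S} (h : Occurs 0 t) :
    Occurs 0 (subst (ups σ) t) :=
  occurs_subst (x := 0) h rfl

end Tm
end Vale.Agent.Lib.P340
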