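import Vale.Agent.Lib.P340.Rank

/-!
A conservation theorem: weakly normalizing terms without erasing redexes below a given tier are
strongly normalizing, provided all terms of higher tier are.
-/

namespace Vale.Agent.Lib.P340
namespace Tm

variable {S : Type}

/-- Terms whose head is not an abstraction. -/
def Neutral : Tm S → Prop
  | var _ => True
  | sort _ => True
  | pi _ _ => True
  | lam _ _ => False
  | app a _ => Neutral a

theorem Neutral.no_hs {a u : Tm S} (h : Neutral a) : ¬ HS a u := by
  induction a generalizing u with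
  | var i => intro hs; cases hs
  | sort s => intro hs; cases hs
  | pi A B _ _ => intro hs; cases hs
  | lam A B _ _ => exact h.elim
  | app c d ih _ =>
    intro hs
    cases hs with
    | beta => exact h
    | app _ hs => exact ih h hs

theorem Neutral.no_hs_app {a b u : Tm S} (h : Neutral a) : ¬ HS (app a b) u := by
  intro hs
  cases hs with
  | beta => exact h
  | app _ hs => exact h.no_hs hs

/-- Weak normalization, presented through head expansion. -/
inductive WN1 : Tm S → Prop
  | var (i : ℕ) : WN1 (var i)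
  | sort (s : S) : WN1 (sort s)
  | neu {a b : Tm S} : Neutral a → WN1 a → WN1 b → WN1 (app a b)
  | lam {A b : Tm S} : WN1 A → WN1 b → WN1 (lam A b)
  | pi {A b : Tm S} : WN1 A → WN1 b → WN1 (pi A b)
  | head {t t' : Tm S} : HS t t' → WN1 t' → WN1 t

theorem normal_appl {a b : Tm S} (h : Normal (app a b)) : Normal a :=
  fun x hx => h _ (Step.appL b hx)

theorem normal_appr {a b : Tm S} (h : Normal (app a b)) : Normal b :=
  fun x hx => h _ (Step.appR a hx)

theorem normal_app_neutral {a b : Tm S} (h : Normal (app a b)) : Neutral a := by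
  induction a generalizing b with
  | var i => trivial
  | sort s => trivial
  | pi A B _ _ => trivial
  | lam A B _ _ => exact h _ (Step.beta _ _ _)
  | app c d ih _ => exact ih (normal_appl h)

theorem WN1.of_normal {t : Tm S} (h : Normal t) : WN1 t := by
  induction t with
  | var i => exact WN1.var i
  | sort s => exact WN1.sort s
  | app a b iha ihb =>
    exact WN1.neu (normal_app_neutral h) (iha (normal_appl h)) (ihb (normal_appr h))
  | lam A b ihA ihb =>
    exact WN1.lam (ihA (fun x hx => h _ (Step.lamA b hx))) (ihb (fun x hx => h _ (Step.lamB A hx)))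
  | pi A b ihA ihb =>
    exact WN1.pi (ihA (fun x hx => h _ (Step.piA b hx))) (ihb (fun x hx => h _ (Step.piB A hx)))

/-- Internal parallel reduction. -/
inductive IPar : Tm S → Tm S → Prop
  | var (i : ℕ) : IPar (var i) (var i)
  | sort (s : S) : IPar (sort s) (sort s)
  | app {a a' b b' : Tm S} : IPar a a' → Par b b' → IPar (app a b) (app a' b')
  | lam {A A' b b' : Tm S} : Par A A' → Par b b' → IPar (lam A b) (lam A' b')
  | pi {A A' b b' : Tm S} : Par A A' → Par b b' → IPar (pi A b) (pi A' b')

theorem IPar.par {a b : Tm S} (h : IPar a b) : Par a b := by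
  induction h with
  | var i => exact Par.var i
  | sort s => exact Par.sort s
  | app _ h ih => exact Par.app ih h
  | lam h h' => exact Par.lam h h'
  | pi h h' => exact Par.pi h h'

/-- Many head steps. -/
abbrev HSteps : Tm S → Tm S → Prop := Relation.ReflTransGen HS

theorem HSteps.appL {a a' : Tm S} (b : Tm S) (h : HSteps a a') : HSteps (app a b) (app a' b) := by
  induction h with
  | refl => exact Relation.ReflTransGen.refl
  | tail _ h ih => exact ih.tail (HS.app b h)

theorem HSteps.subst (σ : ℕ → Tm S) {a b : Tm S} (h : HSteps a b) :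
    HSteps (Tm.subst σ a) (Tm.subst σ b) := by
  induction h with
  | refl => exact Relation.ReflTransGen.refl
  | tail _ h ih => exact ih.tail (HS.subst σ h)

theorem IPar.subst_lemma {σ τ : ℕ → Tm S} {P P' : Tm S} (h : IPar P P')
    (hp : ∀ x, Par (σ x) (τ x)) (hu : ∀ x, ∃ u, HSteps (σ x) u ∧ IPar u (τ x)) :
    ∃ u, HSteps (subst σ P) u ∧ IPar u (subst τ P') := by
  have up : ∀ x, Par (ups σ x) (ups τ x) := by
    intro x
    cases x with
    | zero => exact Par.var 0
    | succ x => exact Par.rename _ (hp x)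
  induction h with
  | var i => exact hu i
  | sort s => exact ⟨_, Relation.ReflTransGen.refl, IPar.sort s⟩
  | app _ hb ih =>
    obtain ⟨u, h1, h2⟩ := ih
    exact ⟨_, HSteps.appL _ h1, IPar.app h2 (Par.subst hb hp)⟩
  | lam hA hb =>
    exact ⟨_, Relation.ReflTransGen.refl, IPar.lam (Par.subst hA hp) (Par.subst hb up)⟩
  | pi hA hb =>
    exact ⟨_, Relation.ReflTransGen.refl, IPar.pi (Par.subst hA hp) (Par.subst hb up)⟩

/-- Standardization of parallel reduction. -/
theorem Par.standard {s t : Tm S} (h : Par s t) : ∃ u, HSteps s u ∧ IPar u t := by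
  induction h with
  | var i => exact ⟨_, Relation.ReflTransGen.refl, IPar.var i⟩
  | sort s => exact ⟨_, Relation.ReflTransGen.refl, IPar.sort s⟩
  | app _ hb iha _ =>
    obtain ⟨u, h1, h2⟩ := iha
    exact ⟨_, HSteps.appL _ h1, IPar.app h2 hb⟩
  | lam hA hb _ _ => exact ⟨_, Relation.ReflTransGen.refl, IPar.lam hA hb⟩
  | pi hA hb _ _ => exact ⟨_, Relation.ReflTransGen.refl, IPar.pi hA hb⟩
  | @beta A b b' N N' _ hN ihb ihN =>
    obtain ⟨u, h1, h2⟩ := ihb
    obtain ⟨v, h3, h4⟩ := ihN
    obtain ⟨w, h5, h6⟩ := IPar.subst_lemma (σ := inst N) (τ := inst N') h2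
      (by
        intro x
        cases x with
        | zero => exact hN
        | succ x => exact Par.var x)
      (by
        intro x
        cases x with
        | zero => exact ⟨v, h3, h4⟩
        | succ x => exact ⟨_, Relation.ReflTransGen.refl, IPar.var x⟩)
    refine ⟨w, ?_, h6⟩
    exact Relation.ReflTransGen.head (HS.beta A b N)
      (Relation.ReflTransGen.trans (HSteps.subst _ h1) h5)

theorem IPar.neutral {a b : Tm S} (h : IPar a b) (hb : Neutral b) : Neutral a := by
  induction h with
  | var i => trivial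
  | sort s => trivial
  | app _ _ ih => exact ih hb
  | lam _ _ => exact hb
  | pi _ _ => trivial

theorem IPar.hs {u t t' : Tm S} (h : IPar u t) (hs : HS t t') : ∃ u', HS u u' ∧ Par u' t' := by
  induction hs generalizing u with
  | beta A M N =>
    cases h with
    | app h1 h2 =>
      cases h1 with
      | lam h3 h4 => exact ⟨_, HS.beta _ _ _, Par.open_ h4 h2⟩
  | app b _ ih =>
    cases h with
    | app h1 h2 =>
      obtain ⟨u', h3, h4⟩ := ih h1
      exact ⟨_, HS.app _ h3, Par.app h4 h2⟩

theorem WN1.of_hsteps {s u : Tm S} (h : HSteps s u) (hu : WN1 u) : WN1 s := by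
  induction h using Relation.ReflTransGen.head_induction_on with
  | refl => exact hu
  | head h _ ih => exact WN1.head h ih

theorem WN1.par_expand {t : Tm S} (h : WN1 t) : ∀ {s : Tm S}, Par s t → WN1 s := by
  induction h with
  | var i =>
    intro s hs
    obtain ⟨u, h1, h2⟩ := hs.standard
    cases h2
    exact WN1.of_hsteps h1 (WN1.var i)
  | sort i =>
    intro s hs
    obtain ⟨u, h1, h2⟩ := hs.standard
    cases h2
    exact WN1.of_hsteps h1 (WN1.sort i)
  | neu hN _ _ iha ihb =>
    intro s hs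
    obtain ⟨u, h1, h2⟩ := hs.standard
    cases h2 with
    | app h3 h4 =>
      exact WN1.of_hsteps h1 (WN1.neu (h3.neutral hN) (iha h3.par) (ihb h4))
  | lam _ _ iha ihb =>
    intro s hs
    obtain ⟨u, h1, h2⟩ := hs.standard
    cases h2 with
    | lam h3 h4 => exact WN1.of_hsteps h1 (WN1.lam (iha h3) (ihb h4))
  | pi _ _ iha ihb =>
    intro s hs
    obtain ⟨u, h1, h2⟩ := hs.standard
    cases h2 with
    | pi h3 h4 => exact WN1.of_hsteps h1 (WN1.pi (iha h3) (ihb h4))
  | head hst _ ih =>
    intro s hs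
    obtain ⟨u, h1, h2⟩ := hs.standard
    obtain ⟨u', h3, h4⟩ := h2.hs hst
    exact WN1.of_hsteps h1 (WN1.head h3 (ih h4))

theorem WN1.of_WN {t : Tm S} (h : WN t) : WN1 t := by
  obtain ⟨n, h1, h2⟩ := h
  induction h1 using Relation.ReflTransGen.head_induction_on with
  | refl => exact WN1.of_normal h2
  | head h _ ih => exact ih.par_expand (Par.of_step h)

theorem HRedex.sn_open {t t' A M N : Tm S} (h : HRedex t A M N) (hs : HS t t') (ht : SN t') :
    SN (open_ M N) := by
  induction h generalizing t' with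
  | here A M N =>
    cases hs with
    | beta => exact ht
    | app _ h => cases h
  | there b h ih =>
    cases hs with
    | beta => cases h
    | app _ h' => exact ih h' ht.appl

theorem HRedex.sn_of {t A M N : Tm S} (h : HRedex t A M N) (ht : SN t) : SN A ∧ SN N := by
  induction h with
  | here A M N => exact ⟨ht.appl.lamA, ht.appr⟩
  | there b _ ih => exact ih ht.appl

end Tm

open Tm

variable {n : ℕ} {R : Fin n → Fin n → Prop}

/-- The terms without tier `j` erasing abstractions. -/
inductive Good (R : Fin n → Fin n → Prop) (j : ℕ) : List (Tm (Fin n)) → Tm (Fin n) → Prop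
  | up {Γ : List (Tm (Fin n))} {t : Tm (Fin n)} : UpTy R (j + 1) Γ t → Good R j Γ t
  | var {Γ : List (Tm (Fin n))} (i : ℕ) : Good R j Γ (var i)
  | sort {Γ : List (Tm (Fin n))} (s : Fin n) : Good R j Γ (sort s)
  | app {Γ : List (Tm (Fin n))} {a b : Tm (Fin n)} :
      Good R j Γ a → Good R j Γ b → Good R j Γ (app a b)
  | lam {Γ : List (Tm (Fin n))} {A b : Tm (Fin n)} {i : Fin n} :
      Ty R Γ A (sort i) → j ≤ i.val → (i.val = j → Occurs 0 b) → Good R j (A :: Γ) b →
      Good R j Γ (lam A b)
  | pi {Γ : List (Tm (Fin n))} {A B : Tm (Fin n)} :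
      Good R j Γ A → Good R j (A :: Γ) B → Good R j Γ (pi A B)

theorem Good.rename {j : ℕ} {Γ Δ : List (Tm (Fin n))} {t : Tm (Fin n)} {ξ : ℕ → ℕ}
    (h : Good R j Γ t) (hξ : RenOK ξ Γ Δ) : Good R j Δ (rename ξ t) := by
  induction h generalizing ξ Δ with
  | up h => exact Good.up (h.rename hξ)
  | var i => exact Good.var _
  | sort s => exact Good.sort _
  | app _ _ iha ihb => exact Good.app (iha hξ) (ihb hξ)
  | @lam Γ A b i hA hj hoc _ ih =>
    refine Good.lam (hA.rename hξ) hj ?_ (ih (hξ.up _))
    intro hi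
    exact occurs_rename (ξ := upr ξ) (hoc hi)
  | pi _ _ ihA ihB => exact Good.pi (ihA hξ) (ihB (hξ.up _))

theorem Good.shift {j : ℕ} {Γ : List (Tm (Fin n))} {t : Tm (Fin n)} (h : Good R j Γ t)
    (A : Tm (Fin n)) : Good R j (A :: Γ) (shift t) := h.rename (RenOK.succ Γ A)

theorem Good.subst {j : ℕ} {Γ Δ : List (Tm (Fin n))} {t : Tm (Fin n)} {σ : ℕ → Tm (Fin n)}
    (h : Good R j Γ t) (hσ : SubOK R σ Γ Δ) (hg : ∀ x, Good R j Δ (σ x)) :
    Good R j Δ (subst σ t) := by
  induction h generalizing σ Δ with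
  | up h => exact Good.up (h.subst hσ)
  | var i => exact hg i
  | sort s => exact Good.sort _
  | app _ _ iha ihb => exact Good.app (iha hσ hg) (ihb hσ hg)
  | @lam Γ A b i hA hj hoc _ ih =>
    refine Good.lam (hA.subst hσ) hj ?_ (ih (hσ.up _) ?_)
    · intro hi
      exact occurs_zero_ups (hoc hi)
    · intro x
      cases x with
      | zero => exact Good.var 0
      | succ x => exact (hg x).shift _
  | pi _ _ ihA ihB =>
    refine Good.pi (ihA hσ hg) (ihB (hσ.up _) ?_)
    intro x
    cases x with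
    | zero => exact Good.var 0
    | succ x => exact (hg x).shift _

/-- An upper head gives an upper application. -/
theorem UpTy.of_app {k : ℕ} {Γ : List (Tm (Fin n))} {a b T : Tm (Fin n)} (hw : Wf R Γ)
    (h : UpTy R k Γ a) (ht : Ty R Γ (app a b) T) : UpTy R k Γ (app a b) := by
  obtain ⟨ρ, hρ⟩ := Fit.exists hw
  have := h.le_rk hw hρ
  exact UpTy.of_rk hw hρ ht (by simpa using this)

theorem Good.hs {j : ℕ} {Γ : List (Tm (Fin n))} {t t' T : Tm (Fin n)} (hw : Wf R Γ)
    (hs : HS t t') (ht : Ty R Γ t T) (hg : Good R j Γ t) : Good R j Γ t' := by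
  induction hs generalizing T with
  | beta A M N =>
    cases hg with
    | up h => exact Good.up (h.step hw (Step.beta _ _ _))
    | app h1 h2 =>
      cases h1 with
      | up h => exact Good.up ((h.of_app hw ht).step hw (Step.beta _ _ _))
      | lam hA _ _ hM =>
        obtain ⟨A₁, B₁, h3, h4, _⟩ := gen_app ht
        obtain ⟨B₂, s, _, _, h7⟩ := gen_lam h3
        have hN : Ty R Γ N A := Ty.conv h4 hA (Conv.symm' (Conv.pi_inj h7).1)
        refine hM.subst (instOK hN) ?_
        intro x
        cases x with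
        | zero => exact h2
        | succ x => exact Good.var x
  | app b h ih =>
    cases hg with
    | up h' => exact Good.up (h'.step hw (Step.appL _ h.step))
    | app h1 h2 =>
      obtain ⟨A₁, B₁, h3, _, _⟩ := gen_app ht
      exact Good.app (ih h3 h1) h2

/-- All terms of tier at least `k` are strongly normalizing. -/
def PP (R : Fin n → Fin n → Prop) (k : ℕ) : Prop :=
  ∀ Γ t, Wf R Γ → UpTy R k Γ t → SN t

theorem redex_sn {j : ℕ} (hP : PP R (j + 1)) {Γ : List (Tm (Fin n))} {t A M N T : Tm (Fin n)}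
    (hw : Wf R Γ) (h : HRedex t A M N) (ht : Ty R Γ t T) (hg : Good R j Γ t) :
    SN A ∧ (SN N ∨ Occurs 0 M) := by
  induction h generalizing T with
  | here A M N =>
    have fromSN : SN (app (lam A M) N) → SN A ∧ (SN N ∨ Occurs 0 M) :=
      fun h => ⟨h.appl.lamA, Or.inl h.appr⟩
    cases hg with
    | up h => exact fromSN (hP _ _ hw h)
    | app h1 _ =>
      cases h1 with
      | up h => exact fromSN (hP _ _ hw (h.of_app hw ht))
      | @lam _ _ _ i hA hj hoc _ =>
        have hSA : SN A := hP _ _ hw ⟨_, i, hA, Or.inr ⟨rfl, by omega⟩⟩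
        refine ⟨hSA, ?_⟩
        by_cases hi : i.val = j
        · exact Or.inr (hoc hi)
        · left
          obtain ⟨A₁, B₁, h3, h4, _⟩ := gen_app ht
          obtain ⟨B₂, s, _, _, h7⟩ := gen_lam h3
          have hN : Ty R Γ N A := Ty.conv h4 hA (Conv.symm' (Conv.pi_inj h7).1)
          exact hP _ _ hw ⟨_, i, hN, Or.inl ⟨hA, by omega⟩⟩
  | there b h ih =>
    obtain ⟨A₁, B₁, h3, _, _⟩ := gen_app ht
    cases hg with
    | up h' =>
      have := h.sn_of (hP _ _ hw h').appl
      exact ⟨this.1, Or.inl this.2⟩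
    | app h1 _ => exact ih h3 h1

/-- The conservation theorem. -/
theorem conservation {j : ℕ} (hP : PP R (j + 1)) {t : Tm (Fin n)} (h : WN1 t) :
    ∀ {Γ : List (Tm (Fin n))} {T : Tm (Fin n)}, Wf R Γ → Ty R Γ t T → Good R j Γ t → SN t := by
  induction h with
  | var i => intro Γ T _ _ _; exact SN.var i
  | sort s => intro Γ T _ _ _; exact SN.sort s
  | neu hn _ _ iha ihb =>
    intro Γ T hw ht hg
    cases hg with
    | up h => exact hP _ _ hw h
    | app h1 h2 =>
      obtain ⟨A₁, B₁, h3, h4, _⟩ := gen_app ht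
      exact SN.app_of (iha hw h3 h1) (ihb hw h4 h2) (fun u hu => (hn.no_hs_app hu).elim)
  | lam _ _ _ ihb =>
    intro Γ T hw ht hg
    cases hg with
    | up h => exact hP _ _ hw h
    | @lam _ _ _ i hA hj _ hb =>
      obtain ⟨B, s, h1, _, _⟩ := gen_lam ht
      exact SN.lam (hP _ _ hw ⟨_, i, hA, Or.inr ⟨rfl, by omega⟩⟩)
        (ihb (Wf.cons hw hA) h1 hb)
  | pi _ _ ihA ihb =>
    intro Γ T hw ht hg
    cases hg with
    | up h => exact hP _ _ hw h
    | pi h1 h2 =>
      obtain ⟨a, b, hA, hB, _, _⟩ := gen_pi ht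
      exact SN.pi (ihA hw hA h1) (ihb (Wf.cons hw hA) hB h2)
  | head hs _ ih =>
    intro Γ T hw ht hg
    have ht' := ih hw (ht.step hw hs.step) (Good.hs hw hs ht hg)
    refine SN.of_HS hs ht' ?_
    intro A M N hr
    obtain ⟨h1, h2⟩ := redex_sn hP hw hr ht hg
    refine ⟨h1, ?_⟩
    rcases h2 with h2 | h2
    · exact h2
    · exact SN.of_occurs (σ := inst N) h2 (hr.sn_open hs ht')

/-- If the tier `j` has no product over itself, terms of tier at least `j` are good. -/
theorem good_of_no_rule (hR : ∀ i j, R i j → j ≤ i) {j : ℕ} (hj : ∀ i : Fin n, i.val = j → ¬ R i i)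
    (t : Tm (Fin n)) : ∀ {Γ : List (Tm (Fin n))}, Wf R Γ → UpTy R j Γ t → Good R j Γ t := by
  induction t with
  | var i => intro Γ _ _; exact Good.var i
  | sort s => intro Γ _ _; exact Good.sort s
  | app M N ihM ihN =>
    intro Γ hw hu
    obtain ⟨ρ, hρ⟩ := Fit.exists hw
    have hr := hu.le_rk hw hρ
    obtain ⟨T, e, h0, _⟩ := hu
    obtain ⟨A, B, h1, h2, _⟩ := gen_app h0
    obtain ⟨a, b, hA, _, hab, hP⟩ := h1.pi_parts hw
    have hle := Fin.le_def.1 (hR _ _ hab)
    simp only [rk_app] at hr
    have h3 := rk_term hw hρ h1 hP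
    have h4 := rk_term hw hρ h2 hA
    exact Good.app (ihM hw (UpTy.of_rk hw hρ h1 hr))
      (ihN hw (UpTy.of_rk hw hρ h2 (by omega)))
  | lam A P _ ihP =>
    intro Γ hw hu
    obtain ⟨ρ, hρ⟩ := Fit.exists hw
    have hr := hu.le_rk hw hρ
    obtain ⟨T, e, h0, _⟩ := hu
    obtain ⟨B, s, h1, h2, _⟩ := gen_lam h0
    obtain ⟨a, b, hA, hB, hab, _⟩ := gen_pi h2
    have hle := Fin.le_def.1 (hR _ _ hab)
    have hra := rk_type hw hρ hA
    have hr' : rk ρ A - 1 = a.val + 1 := by omega
    simp only [rk_lam, hr'] at hr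
    have hw' := Wf.cons hw hA
    have hρ' := Fit.cons hw hρ hA
    have h3 := rk_term hw' hρ' h1 hB
    refine Good.lam hA (by omega) ?_ (ihP hw' (UpTy.of_rk hw' hρ' h1 hr))
    intro hi
    exfalso
    have hab' : a = b := Fin.ext (by omega)
    rw [← hab'] at hab
    exact hj a hi hab
  | pi A C ihA ihC =>
    intro Γ hw hu
    obtain ⟨ρ, hρ⟩ := Fit.exists hw
    have hr := hu.le_rk hw hρ
    obtain ⟨T, e, h0, _⟩ := hu
    obtain ⟨a, b, hA, hC, hab, _⟩ := gen_pi h0
    have hle := Fin.le_def.1 (hR _ _ hab)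
    have hra := rk_type hw hρ hA
    have hr' : rk ρ A - 1 = a.val + 1 := by omega
    simp only [rk_pi, hr'] at hr
    have hw' := Wf.cons hw hA
    have hρ' := Fit.cons hw hρ hA
    have h3 := rk_type hw' hρ' hC
    exact Good.pi (ihA hw (UpTy.of_rk hw hρ hA (by omega)))
      (ihC hw' (UpTy.of_rk hw' hρ' hC hr))

/-- The identity route: if tier `j` has no product over itself, then weak normalization of the
system and strong normalization of the higher tiers give strong normalization of tier `j`. -/
theorem route_identity (hWN : WeaklyNormalizing (tiered n R)) (hR : ∀ i j, R i j → j ≤ i)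
    {j : ℕ} (hj : ∀ i : Fin n, i.val = j → ¬ R i i) (hP : PP R (j + 1)) : PP R j := by
  intro Γ t hw hu
  have hg := good_of_no_rule hR hj t hw hu
  obtain ⟨T, e, h0, _⟩ := hu
  exact conservation hP (WN1.of_WN (hWN t (legal_of_ty h0 hw))) hw h0 hg

end Vale.Agent.Lib.P340
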