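import Vale.Agent.Lib.P340.Conservation

/-!
The type translation of the continuation passing transform at a tier `j`.
-/

namespace Vale.Agent.Lib.P340
open Tm

variable {n : ℕ}

/-- Negation with respect to the answer type `b`. -/
def neg (b X : Tm (Fin n)) : Tm (Fin n) := pi X (shift b)

/-- Double negation. -/
def neg2 (b X : Tm (Fin n)) : Tm (Fin n) := neg b (neg b X)

theorem rename_neg (ξ : ℕ → ℕ) (b X : Tm (Fin n)) :
    rename ξ (neg b X) = neg (rename ξ b) (rename ξ X) := by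
  simp [neg, rename_shift]

theorem rename_neg2 (ξ : ℕ → ℕ) (b X : Tm (Fin n)) :
    rename ξ (neg2 b X) = neg2 (rename ξ b) (rename ξ X) := by
  simp [neg2, rename_neg]

theorem subst_neg (σ : ℕ → Tm (Fin n)) (b X : Tm (Fin n)) :
    subst σ (neg b X) = neg (subst σ b) (subst σ X) := by
  simp [neg, subst_shift]

theorem subst_neg2 (σ : ℕ → Tm (Fin n)) (b X : Tm (Fin n)) :
    subst σ (neg2 b X) = neg2 (subst σ b) (subst σ X) := by
  simp [neg2, subst_neg]

theorem Steps.neg (b : Tm (Fin n)) {X X' : Tm (Fin n)} (h : Steps X X') :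
    Steps (neg b X) (neg b X') := Steps.piA _ h

theorem Steps.neg2 (b : Tm (Fin n)) {X X' : Tm (Fin n)} (h : Steps X X') :
    Steps (neg2 b X) (neg2 b X') := Steps.neg b (Steps.neg b h)

theorem Conv.neg (b : Tm (Fin n)) {X X' : Tm (Fin n)} (h : Conv X X') :
    Conv (neg b X) (neg b X') := Conv.piA _ h

/-- The translation of a product, given the ranks `ra` of the domain and `rm` of the codomain. -/
def piT (j ra rm : ℕ) (b A M : Tm (Fin n)) : Tm (Fin n) :=
  if rm = j + 2 then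
    if ra = j + 2 then pi (neg2 b A) (neg2 (shift b) M) else pi A (neg2 (shift b) M)
  else pi A M

theorem rename_piT (ξ : ℕ → ℕ) (j ra rm : ℕ) (b A M : Tm (Fin n)) :
    rename ξ (piT j ra rm b A M) = piT j ra rm (rename ξ b) (rename ξ A) (rename (upr ξ) M) := by
  unfold piT
  split_ifs <;> simp [rename_neg2, rename_shift]

theorem subst_piT (σ : ℕ → Tm (Fin n)) (j ra rm : ℕ) (b A M : Tm (Fin n)) :
    subst σ (piT j ra rm b A M) = piT j ra rm (subst σ b) (subst σ A) (subst (ups σ) M) := by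
  unfold piT
  split_ifs <;> simp [subst_neg2, subst_shift]

theorem Steps.piT_A (j ra rm : ℕ) (b : Tm (Fin n)) {A A' : Tm (Fin n)} (M : Tm (Fin n))
    (h : Steps A A') : Steps (piT j ra rm b A M) (piT j ra rm b A' M) := by
  unfold piT
  split_ifs
  · exact Steps.piA _ (Steps.neg2 _ h)
  · exact Steps.piA _ h
  · exact Steps.piA _ h

theorem Steps.piT_M (j ra rm : ℕ) (b A : Tm (Fin n)) {M M' : Tm (Fin n)}
    (h : Steps M M') : Steps (piT j ra rm b A M) (piT j ra rm b A M') := by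
  unfold piT
  split_ifs
  · exact Steps.piB _ (Steps.neg2 _ h)
  · exact Steps.piB _ (Steps.neg2 _ h)
  · exact Steps.piB _ h

/-- The type translation. It acts homomorphically, except on products of rank `j + 2`, that is on the
products which are types of terms of tier `j`. -/
def cps (j : ℕ) : (ℕ → ℕ) → (ℕ → ℕ) → Tm (Fin n) → Tm (Fin n) → Tm (Fin n)
  | _, ξ, _, .var i => .var (ξ i)
  | _, _, _, .sort k => .sort k
  | ρ, ξ, b, .app M N => .app (cps j ρ ξ b M) (cps j ρ ξ b N)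
  | ρ, ξ, b, .lam A M =>
      .lam (cps j ρ ξ b A) (cps j (cons (rk ρ A - 1) ρ) (upr ξ) (shift b) M)
  | ρ, ξ, b, .pi A M =>
      piT j (rk ρ A) (rk (cons (rk ρ A - 1) ρ) M) b (cps j ρ ξ b A)
        (cps j (cons (rk ρ A - 1) ρ) (upr ξ) (shift b) M)

section
variable (j : ℕ) (ρ ξ : ℕ → ℕ) (b : Tm (Fin n))

@[simp] theorem cps_var (i : ℕ) : cps j ρ ξ b (var i) = var (ξ i) := rfl
@[simp] theorem cps_sort (k : Fin n) : cps j ρ ξ b (sort k) = sort k := rfl
@[simp] theorem cps_app (M N : Tm (Fin n)) :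
    cps j ρ ξ b (app M N) = app (cps j ρ ξ b M) (cps j ρ ξ b N) := rfl
@[simp] theorem cps_lam (A M : Tm (Fin n)) :
    cps j ρ ξ b (lam A M) =
      lam (cps j ρ ξ b A) (cps j (cons (rk ρ A - 1) ρ) (upr ξ) (shift b) M) := rfl
@[simp] theorem cps_pi (A M : Tm (Fin n)) :
    cps j ρ ξ b (pi A M) =
      piT j (rk ρ A) (rk (cons (rk ρ A - 1) ρ) M) b (cps j ρ ξ b A)
        (cps j (cons (rk ρ A - 1) ρ) (upr ξ) (shift b) M) := rfl

end

theorem cps_rename (j : ℕ) (ρ ξ ζ : ℕ → ℕ) (b t : Tm (Fin n)) :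
    cps j ρ ξ b (rename ζ t) = cps j (ρ ∘ ζ) (ξ ∘ ζ) b t := by
  induction t generalizing ρ ξ ζ b with
  | var i => rfl
  | sort s => rfl
  | app a c iha ihc => simp [iha, ihc]
  | lam A M ihA ihM =>
    simp only [rename_lam, cps_lam, rk_rename, ihA, ihM, cons_comp_upr, upr_comp]
  | pi A M ihA ihM =>
    simp only [rename_pi, cps_pi, rk_rename, ihA, ihM, cons_comp_upr, upr_comp]

theorem rename_cps (j : ℕ) (ρ ξ ζ : ℕ → ℕ) (b t : Tm (Fin n)) :
    rename ζ (cps j ρ ξ b t) = cps j ρ (ζ ∘ ξ) (rename ζ b) t := by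
  induction t generalizing ρ ξ ζ b with
  | var i => rfl
  | sort s => rfl
  | app a c iha ihc => simp [iha, ihc]
  | lam A M ihA ihM =>
    simp only [cps_lam, rename_lam, ihA, ihM, rename_shift, upr_comp]
  | pi A M ihA ihM =>
    simp only [cps_pi, rename_piT, ihA, ihM, rename_shift, upr_comp]

theorem shift_cps (j : ℕ) (ρ ξ : ℕ → ℕ) (b t : Tm (Fin n)) :
    shift (cps j ρ ξ b t) = cps j ρ (Nat.succ ∘ ξ) (shift b) t := rename_cps _ _ _ _ _ _

theorem upr_comp_succ (ξ : ℕ → ℕ) : upr ξ ∘ Nat.succ = Nat.succ ∘ ξ := by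
  funext i; rfl

theorem cons_comp_succ (a : ℕ) (ρ : ℕ → ℕ) : cons a ρ ∘ Nat.succ = ρ := by
  funext i; rfl

/-- Translating a weakened term under a binder gives the weakened translation. -/
theorem cps_shift (j a : ℕ) (ρ ξ : ℕ → ℕ) (b t : Tm (Fin n)) :
    cps j (cons a ρ) (upr ξ) (shift b) (shift t) = shift (cps j ρ ξ b t) := by
  rw [shift_cps]
  unfold shift
  rw [cps_rename, upr_comp_succ, cons_comp_succ]

/-- The translation commutes with substitution. -/
theorem cps_subst (j : ℕ) {ρ ρ' ξ ξ' : ℕ → ℕ} {σ τ : ℕ → Tm (Fin n)} {b b' : Tm (Fin n)}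
    (hr : ∀ x, rk ρ' (σ x) = ρ x) (hb : subst τ b = b')
    (ht : ∀ x, τ (ξ x) = cps j ρ' ξ' b' (σ x)) (t : Tm (Fin n)) :
    subst τ (cps j ρ ξ b t) = cps j ρ' ξ' b' (subst σ t) := by
  have up : ∀ (a : ℕ) {ρ' ξ ξ' : ℕ → ℕ} {σ τ : ℕ → Tm (Fin n)} {b' : Tm (Fin n)},
      (∀ x, τ (ξ x) = cps j ρ' ξ' b' (σ x)) →
      ∀ x, ups τ (upr ξ x) = cps j (cons a ρ') (upr ξ') (shift b') (ups σ x) := by
    intro a ρ' ξ ξ' σ τ b' ht x
    cases x with
    | zero => rfl
    | succ x =>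
      simp only [upr_succ, ups_succ]
      rw [ht x, cps_shift]
  have upr' : ∀ (a : ℕ) {ρ ρ' : ℕ → ℕ} {σ : ℕ → Tm (Fin n)}, (∀ x, rk ρ' (σ x) = ρ x) →
      ∀ x, rk (cons a ρ') (ups σ x) = cons a ρ x := by
    intro a ρ ρ' σ h x
    cases x with
    | zero => rfl
    | succ x => simp [h]
  induction t generalizing ρ ρ' ξ ξ' σ τ b b' with
  | var i => exact ht i
  | sort s => rfl
  | app a c iha ihc =>
    simp only [cps_app, subst_app]
    rw [iha hr hb ht, ihc hr hb ht]
  | lam A M ihA ihM =>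
    simp only [cps_lam, subst_lam]
    rw [ihA hr hb ht, rk_subst hr A]
    congr 1
    apply ihM (upr' _ hr)
    · rw [subst_shift, hb]
    · exact up _ ht
  | pi A M ihA ihM =>
    simp only [cps_pi, subst_pi, subst_piT]
    rw [ihA hr hb ht, rk_subst hr A, rk_subst (upr' _ hr) M, hb]
    congr 1
    apply ihM (upr' _ hr)
    · rw [subst_shift, hb]
    · exact up _ ht

/-- The translation commutes with opening. -/
theorem cps_open (j a : ℕ) (ρ ξ : ℕ → ℕ) (b B N : Tm (Fin n)) (h : rk ρ N = a) :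
    cps j ρ ξ b (open_ B N) =
      open_ (cps j (cons a ρ) (upr ξ) (shift b) B) (cps j ρ ξ b N) := by
  unfold open_
  symm
  apply cps_subst j (rk_inst a ρ N h)
  · exact subst_inst_shift _ _
  · intro x
    cases x <;> rfl

/-- The rank of the argument of a typed redex. -/
theorem redex_rank {R : Fin n → Fin n → Prop} {Γ : List (Tm (Fin n))} {ρ : ℕ → ℕ}
    {A M N T : Tm (Fin n)} (hw : Wf R Γ) (hf : Fit R ρ Γ) (h : Ty R Γ (app (lam A M) N) T) :
    rk ρ N = rk ρ A - 1 := by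
  obtain ⟨A₁, B₁, h3, h4, _⟩ := gen_app h
  obtain ⟨B₂, s, _, h6, h7⟩ := gen_lam h3
  obtain ⟨a, _, hA, _, _, _⟩ := gen_pi h6
  have hN : Ty R Γ N A := Ty.conv h4 hA (Conv.symm' (Conv.pi_inj h7).1)
  rw [rk_term hw hf hN hA, rk_type hw hf hA]
  omega

variable {R : Fin n → Fin n → Prop}

/-- Reduction of typed terms is preserved by the translation. -/
theorem cps_step (j : ℕ) {a a' : Tm (Fin n)} (hs : Step a a') :
    ∀ {Γ : List (Tm (Fin n))} {T : Tm (Fin n)} {ρ ξ : ℕ → ℕ} {b : Tm (Fin n)},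
      Wf R Γ → Fit R ρ Γ → Ty R Γ a T → Steps (cps j ρ ξ b a) (cps j ρ ξ b a') := by
  induction hs with
  | beta A M N =>
    intro Γ T ρ ξ b hw hf h
    rw [cps_open j (rk ρ A - 1) ρ ξ b M N (redex_rank hw hf h)]
    exact Steps.of_step (Step.beta _ _ _)
  | appL c _ ih =>
    intro Γ T ρ ξ b hw hf h
    obtain ⟨_, _, h1, _, _⟩ := gen_app h
    exact Steps.appL _ (ih hw hf h1)
  | appR c _ ih =>
    intro Γ T ρ ξ b hw hf h
    obtain ⟨_, _, _, h1, _⟩ := gen_app h
    exact Steps.appR _ (ih hw hf h1)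
  | @lamA A A' M hs ih =>
    intro Γ T ρ ξ b hw hf h
    obtain ⟨_, _, _, h2, _⟩ := gen_lam h
    obtain ⟨a, _, hA, _, _, _⟩ := gen_pi h2
    simp only [cps_lam]
    rw [rk_step hw hf hA hs]
    exact Steps.lamA _ (ih hw hf hA)
  | @lamB A M M' _ ih =>
    intro Γ T ρ ξ b hw hf h
    obtain ⟨_, _, h1, h2, _⟩ := gen_lam h
    obtain ⟨a, _, hA, _, _, _⟩ := gen_pi h2
    simp only [cps_lam]
    have hr : rk ρ A - 1 = a.val + 1 := by rw [rk_type hw hf hA]; omega
    rw [hr]
    exact Steps.lamB _ (ih (Wf.cons hw hA) (Fit.cons hw hf hA) h1)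
  | @piA A A' M hs ih =>
    intro Γ T ρ ξ b hw hf h
    obtain ⟨a, _, hA, _, _, _⟩ := gen_pi h
    simp only [cps_pi]
    rw [rk_step hw hf hA hs]
    exact Steps.piT_A _ _ _ _ _ (ih hw hf hA)
  | @piB A M M' hs ih =>
    intro Γ T ρ ξ b hw hf h
    obtain ⟨a, _, hA, hM, _, _⟩ := gen_pi h
    have hr : rk ρ A - 1 = a.val + 1 := by rw [rk_type hw hf hA]; omega
    simp only [cps_pi, hr]
    have hw' := Wf.cons hw hA
    have hf' := Fit.cons hw hf hA
    rw [rk_step hw' hf' hM hs]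
    exact Steps.piT_M _ _ _ _ _ (ih hw' hf' hM)

theorem cps_steps (j : ℕ) {a a' : Tm (Fin n)} {Γ : List (Tm (Fin n))} {T : Tm (Fin n)}
    {ρ ξ : ℕ → ℕ} {b : Tm (Fin n)} (hw : Wf R Γ) (hf : Fit R ρ Γ) (h : Ty R Γ a T)
    (hs : Steps a a') : Steps (cps j ρ ξ b a) (cps j ρ ξ b a') := by
  induction hs with
  | refl => exact Steps.refl' _
  | tail h1 h2 ih => exact Steps.trans' ih (cps_step j h2 hw hf (h.steps hw h1))

/-- Conversion of types is preserved by the translation. -/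
theorem cps_conv (j : ℕ) {M A B : Tm (Fin n)} {Γ : List (Tm (Fin n))} {s : Fin n}
    {ρ ξ : ℕ → ℕ} {b : Tm (Fin n)} (hw : Wf R Γ) (hf : Fit R ρ Γ) (hM : Ty R Γ M A)
    (hB : Ty R Γ B (sort s)) (hc : Conv A B) : Conv (cps j ρ ξ b A) (cps j ρ ξ b B) := by
  rcases hM.correct hw with ⟨e, rfl⟩ | ⟨e, hA⟩
  · exact Conv.symm' (Conv.of_steps (cps_steps j hw hf hB (Conv.to_sort (Conv.symm' hc))))
  · obtain ⟨C, h1, h2⟩ := hc.join
    exact Conv.trans' (Conv.of_steps (cps_steps j hw hf hA h1))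
      (Conv.symm' (Conv.of_steps (cps_steps j hw hf hB h2)))

/-- Conversion between types of the same sort. -/
theorem cps_conv' (j : ℕ) {A B : Tm (Fin n)} {Γ : List (Tm (Fin n))} {s s' : Fin n}
    {ρ ξ : ℕ → ℕ} {b : Tm (Fin n)} (hw : Wf R Γ) (hf : Fit R ρ Γ) (hA : Ty R Γ A (sort s))
    (hB : Ty R Γ B (sort s')) (hc : Conv A B) : Conv (cps j ρ ξ b A) (cps j ρ ξ b B) := by
  obtain ⟨C, h1, h2⟩ := hc.join
  exact Conv.trans' (Conv.of_steps (cps_steps j hw hf hA h1))
    (Conv.symm' (Conv.of_steps (cps_steps j hw hf hB h2)))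

/-! ### Typing of the translation -/

/-- The typing of variables in the target: tier `j` variables have doubly negated types, and upper
variables have the translated type. -/
def Compat (R : Fin n → Fin n → Prop) (j : Fin n) (ρ ξ : ℕ → ℕ) (Γ Ψ : List (Tm (Fin n)))
    (b : Tm (Fin n)) : Prop :=
  ∀ i A, Lk Γ i A →
    (ρ i = j.val + 1 → Ty R Ψ (var (ξ i)) (neg2 b (cps j.val ρ ξ b A))) ∧
    (j.val + 1 < ρ i → Ty R Ψ (var (ξ i)) (cps j.val ρ ξ b A))

theorem Compat.weaken {j : Fin n} {ρ ξ ζ : ℕ → ℕ} {Γ Ψ Ψ' : List (Tm (Fin n))} {b : Tm (Fin n)}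
    (h : Compat R j ρ ξ Γ Ψ b) (hζ : RenOK ζ Ψ Ψ') : Compat R j ρ (ζ ∘ ξ) Γ Ψ' (rename ζ b) := by
  intro i A hA
  obtain ⟨h1, h2⟩ := h i A hA
  constructor
  · intro h3
    have := (h1 h3).rename hζ
    rwa [rename_neg2, rename_cps] at this
  · intro h3
    have := (h2 h3).rename hζ
    rwa [rename_cps] at this

theorem Compat.up {j : Fin n} {ρ ξ : ℕ → ℕ} {Γ Ψ : List (Tm (Fin n))} {b A E : Tm (Fin n)} {a : ℕ}
    (h : Compat R j ρ ξ Γ Ψ b) (h1 : a = j.val + 1 → E = neg2 b (cps j.val ρ ξ b A))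
    (h2 : j.val + 1 < a → E = cps j.val ρ ξ b A) :
    Compat R j (cons a ρ) (upr ξ) (A :: Γ) (E :: Ψ) (shift b) := by
  intro i B hB
  cases hB with
  | zero =>
    rw [cps_shift]
    constructor
    · intro h3
      have h4 := h1 h3
      have : neg2 (shift b) (shift (cps j.val ρ ξ b A)) = shift E := by
        rw [h4]; exact (rename_neg2 _ _ _).symm
      rw [this]
      exact Ty.var Lk.zero
    · intro h3
      have h4 := h2 h3
      rw [← h4]
      exact Ty.var Lk.zero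
  | @succ _ B₀ _ i hB =>
    rw [cps_shift]
    obtain ⟨h3, h4⟩ := h i B₀ hB
    constructor
    · intro h5
      have := (h3 h5).shift E
      have e : shift (neg2 b (cps j.val ρ ξ b B₀)) =
          neg2 (shift b) (shift (cps j.val ρ ξ b B₀)) := rename_neg2 _ _ _
      rw [e] at this
      exact this
    · intro h5
      exact (h4 h5).shift E

theorem Ty.neg {j : Fin n} (hjj : R j j) {Ψ : List (Tm (Fin n))} {b X : Tm (Fin n)}
    (hb : Ty R Ψ b (sort j)) (hX : Ty R Ψ X (sort j)) : Ty R Ψ (neg b X) (sort j) :=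
  Ty.pi hX (hb.shift X) hjj

theorem Ty.neg2 {j : Fin n} (hjj : R j j) {Ψ : List (Tm (Fin n))} {b X : Tm (Fin n)}
    (hb : Ty R Ψ b (sort j)) (hX : Ty R Ψ X (sort j)) : Ty R Ψ (neg2 b X) (sort j) :=
  Ty.neg hjj hb (Ty.neg hjj hb hX)

/-- The translation of the typing of terms of rank at least `j + 2`. -/
theorem tr_upper (hR : ∀ i j, R i j → j ≤ i) {j : Fin n} (hjj : R j j)
    {Γ : List (Tm (Fin n))} {t T : Tm (Fin n)} (h : Ty R Γ t T) :
    ∀ {ρ ξ : ℕ → ℕ} {Ψ : List (Tm (Fin n))} {b : Tm (Fin n)}, Wf R Γ → Fit R ρ Γ →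
      Compat R j ρ ξ Γ Ψ b → Ty R Ψ b (sort j) → j.val + 2 ≤ rk ρ t →
      Ty R Ψ (cps j.val ρ ξ b t) (cps j.val ρ ξ b T) := by
  induction h with
  | ax h => intro ρ ξ Ψ b _ _ _ _ _; exact Ty.ax h
  | var h =>
    intro ρ ξ Ψ b _ _ hc _ hr
    exact (hc _ _ h).2 (by simp only [rk_var] at hr; omega)
  | @pi Γ A B a b' hA hB hab ihA ihB =>
    intro ρ ξ Ψ b hw hf hc hb hr
    have hra := rk_type hw hf hA
    have hr' : rk ρ A - 1 = a.val + 1 := by omega
    have hw' := Wf.cons hw hA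
    have hf' := Fit.cons hw hf hA
    have hrb := rk_type hw' hf' hB
    have hle := Fin.le_def.1 (hR _ _ hab)
    simp only [rk_pi, hr', hrb] at hr
    simp only [cps_pi, hr', hrb, cps_sort]
    unfold piT
    by_cases h1 : b'.val + 2 = j.val + 2
    · have hbj : b' = j := Fin.ext (by omega)
      subst hbj
      rw [if_pos h1]
      by_cases h2 : rk ρ A = b'.val + 2
      · have hab' : a = b' := Fin.ext (by omega)
        subst hab'
        rw [if_pos h2]
        have hA0 := ihA hw hf hc hb (by omega)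
        simp only [cps_sort] at hA0
        have hB0 := ihB hw' hf'
          (Compat.up (E := neg2 b (cps a.val ρ ξ b A)) hc (fun _ => rfl) (fun h => by omega))
          (hb.shift _) (by omega)
        simp only [cps_sort] at hB0
        exact Ty.pi (Ty.neg2 hjj hb hA0) (Ty.neg2 hjj (hb.shift _) hB0) hjj
      · rw [if_neg h2]
        have hA0 := ihA hw hf hc hb (by omega)
        simp only [cps_sort] at hA0
        have hB0 := ihB hw' hf'
          (Compat.up (E := cps b'.val ρ ξ b A) hc (fun h => by omega) (fun _ => rfl))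
          (hb.shift _) (by omega)
        simp only [cps_sort] at hB0
        exact Ty.pi hA0 (Ty.neg2 hjj (hb.shift _) hB0) hab
    · rw [if_neg h1]
      have hA0 := ihA hw hf hc hb (by omega)
      simp only [cps_sort] at hA0
      have hB0 := ihB hw' hf'
        (Compat.up (E := cps j.val ρ ξ b A) hc (fun h => by omega) (fun _ => rfl))
        (hb.shift _) (by omega)
      simp only [cps_sort] at hB0
      exact Ty.pi hA0 hB0 hab
  | @lam Γ A M B s hM hP ihM ihP =>
    intro ρ ξ Ψ b hw hf hc hb hr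
    obtain ⟨a, b', hA, hB, hab, h4⟩ := gen_pi hP
    have hbs := Conv.sort_inj h4
    subst hbs
    have hra := rk_type hw hf hA
    have hr' : rk ρ A - 1 = a.val + 1 := by omega
    have hw' := Wf.cons hw hA
    have hf' := Fit.cons hw hf hA
    have hrb := rk_type hw' hf' hB
    have hrm := rk_term hw' hf' hM hB
    have hle := Fin.le_def.1 (hR _ _ hab)
    simp only [rk_lam, hr', hrm] at hr
    have hP0 := ihP hw hf hc hb (by simp only [rk_pi, hr', hrb]; omega)
    simp only [cps_pi, hr', hrb, cps_sort] at hP0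
    simp only [cps_lam, cps_pi, hr', hrb]
    have h1 : ¬ (b'.val + 2 = j.val + 2) := by omega
    unfold piT at hP0 ⊢
    rw [if_neg h1] at hP0 ⊢
    have hM0 := ihM hw' hf'
      (Compat.up (E := cps j.val ρ ξ b A) hc (fun h => by omega) (fun _ => rfl))
      (hb.shift _) (by omega)
    exact Ty.lam hM0 hP0
  | @app Γ M N A B hM hN ihM ihN =>
    intro ρ ξ Ψ b hw hf hc hb hr
    obtain ⟨a, s, hA, hB, hab, hP⟩ := hM.pi_parts hw
    have hra := rk_type hw hf hA
    have hr' : rk ρ A - 1 = a.val + 1 := by omega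
    have hw' := Wf.cons hw hA
    have hf' := Fit.cons hw hf hA
    have hrb := rk_type hw' hf' hB
    have hrm := rk_term hw hf hM hP
    have hrn := rk_term hw hf hN hA
    have hle := Fin.le_def.1 (hR _ _ hab)
    simp only [rk_app, hrm] at hr
    have hM0 := ihM hw hf hc hb (by omega)
    have hN0 := ihN hw hf hc hb (by omega)
    simp only [cps_pi, hr', hrb] at hM0
    unfold piT at hM0
    have h1 : ¬ (s.val + 2 = j.val + 2) := by omega
    rw [if_neg h1] at hM0
    rw [cps_open j.val (a.val + 1) ρ ξ b B N hrn]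
    exact Ty.app hM0 hN0
  | @conv Γ M A B s hM hB hc' ihM ihB =>
    intro ρ ξ Ψ b hw hf hc hb hr
    have h1 : Ty R Γ M B := Ty.conv hM hB hc'
    have h2 := rk_term hw hf h1 hB
    have h3 := rk_type hw hf hB
    have hB0 := ihB hw hf hc hb (by omega)
    exact Ty.conv (ihM hw hf hc hb hr) hB0 (cps_conv j.val hw hf hM hB hc')

/-! ### The type of the memory constant -/

/-- The type of the polymorphic memory constant `Π Y : s_j. Y → b → b`. -/
def memTy (j : Fin n) (b : Tm (Fin n)) : Tm (Fin n) :=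
  pi (sort j) (pi (var 0) (neg (shift (shift b)) (shift (shift b))))

theorem rename_memTy (ξ : ℕ → ℕ) (j : Fin n) (b : Tm (Fin n)) :
    rename ξ (memTy j b) = memTy j (rename ξ b) := by
  simp [memTy, rename_neg, rename_shift]

theorem ty_memTy {j j₁ : Fin n} (hjj : R j j) (hj1 : R j₁ j) (hj₁ : j₁.val = j.val + 1)
    {Ψ : List (Tm (Fin n))} {b : Tm (Fin n)} (hb : Ty R Ψ b (sort j)) :
    Ty R Ψ (memTy j b) (sort j) := by
  have hv : Ty R (sort j :: Ψ) (var 0) (sort j) := Ty.var (Lk.zero (A := sort j))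
  have hb1 := hb.shift (sort j)
  have hb2 := hb1.shift (var 0)
  exact Ty.pi (Ty.ax hj₁) (Ty.pi hv (Ty.neg hjj hb2 hb2) hjj) hj1

theorem ty_mem {Ψ : List (Tm (Fin n))} {j : Fin n} {b cc D a W : Tm (Fin n)}
    (hcc : Ty R Ψ cc (memTy j b)) (hD : Ty R Ψ D (sort j)) (ha : Ty R Ψ a D)
    (hW : Ty R Ψ W b) : Ty R Ψ (app (app (app cc D) a) W) b := by
  have h1 := Ty.app hcc hD
  have e1 : open_ (pi (var 0) (neg (shift (shift b)) (shift (shift b)))) D =
      pi D (neg (shift b) (shift b)) := by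
    simp [open_, subst_neg, subst_shift]
  rw [e1] at h1
  have h2 := Ty.app h1 ha
  have e2 : open_ (neg (shift b) (shift b)) a = neg b b := by
    simp [open_, subst_neg]
  rw [e2] at h2
  have h3 := Ty.app h2 hW
  have e3 : open_ (shift b) W = b := open_shift _ _
  rwa [e3] at h3

end Vale.Agent.Lib.P340
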