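import Mathlib

/-!
Pure type systems, in de Bruijn form: expressions, beta reduction, the seven typing rules, legal
expressions, weak and strong normalization, and the tiered specifications.
-/

namespace Vale.Agent.Lib.P340

/-- Expressions of a pure type system over the set of sorts `S`; bound variables are de Bruijn
indices, so expressions are taken modulo renaming of bound variables. `lam A b` is `λ x : A. b` and
`pi A b` is `Π x : A. b`; in both, `b` lives under one more binder. -/
inductive Tm (S : Type) : Type
  | var : ℕ → Tm S
  | sort : S → Tm S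
  | app : Tm S → Tm S → Tm S
  | lam : Tm S → Tm S → Tm S
  | pi : Tm S → Tm S → Tm S

namespace Tm

variable {S : Type}

/-- Lifting of a variable renaming under one binder. -/
def upr (ξ : ℕ → ℕ) : ℕ → ℕ
  | 0 => 0
  | i + 1 => ξ i + 1

/-- Applying a variable renaming. -/
def rename (ξ : ℕ → ℕ) : Tm S → Tm S
  | var i => var (ξ i)
  | sort s => sort s
  | app a b => app (rename ξ a) (rename ξ b)
  | lam A b => lam (rename ξ A) (rename (upr ξ) b)
  | pi A b => pi (rename ξ A) (rename (upr ξ) b)

/-- Weakening by one fresh variable: every free index goes up by one. -/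
def shift (t : Tm S) : Tm S := rename Nat.succ t

/-- Lifting of a substitution under one binder. -/
def ups (σ : ℕ → Tm S) : ℕ → Tm S
  | 0 => var 0
  | i + 1 => shift (σ i)

/-- Applying a capture-avoiding parallel substitution. -/
def subst (σ : ℕ → Tm S) : Tm S → Tm S
  | var i => σ i
  | sort s => sort s
  | app a b => app (subst σ a) (subst σ b)
  | lam A b => lam (subst σ A) (subst (ups σ) b)
  | pi A b => pi (subst σ A) (subst (ups σ) b)

/-- The substitution replacing variable `0` by `N` and lowering all other indices. -/
def inst (N : Tm S) : ℕ → Tm S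
  | 0 => N
  | i + 1 => var i

/-- `open_ b N` is `b[x := N]` where `x` is the variable bound by the enclosing binder of `b`. -/
def open_ (b N : Tm S) : Tm S := subst (inst N) b

/-- One step of beta reduction: the compatible closure of `(λ x : A. M) N → M[x := N]`; a step may
occur in any subexpression, including the domains of `lam` and `pi`. -/
inductive Step : Tm S → Tm S → Prop
  | beta (A M N : Tm S) : Step (app (lam A M) N) (open_ M N)
  | appL {a a' : Tm S} (b : Tm S) : Step a a' → Step (app a b) (app a' b)
  | appR (a : Tm S) {b b' : Tm S} : Step b b' → Step (app a b) (app a b')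
  | lamA {A A' : Tm S} (b : Tm S) : Step A A' → Step (lam A b) (lam A' b)
  | lamB (A : Tm S) {b b' : Tm S} : Step b b' → Step (lam A b) (lam A b')
  | piA {A A' : Tm S} (b : Tm S) : Step A A' → Step (pi A b) (pi A' b)
  | piB (A : Tm S) {b b' : Tm S} : Step b b' → Step (pi A b) (pi A b')

/-- The generated equivalence `=_β`. -/
def Conv : Tm S → Tm S → Prop := Relation.EqvGen Step

/-- A beta-normal form. -/
def Normal (t : Tm S) : Prop := ∀ t', ¬ Step t t'

/-- `t` beta-reduces to a beta-normal form. -/
def WN (t : Tm S) : Prop := ∃ n, Relation.ReflTransGen Step t n ∧ Normal n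

/-- `t` starts no infinite beta-reduction sequence. -/
def SNterm (t : Tm S) : Prop := ¬ ∃ f : ℕ → Tm S, f 0 = t ∧ ∀ i, Step (f i) (f (i + 1))

end Tm

open Tm

/-- A pure type specification: sorts, axioms and rules. -/
structure Spec where
  S : Type
  Ax : S → S → Prop
  Rl : S → S → S → Prop

/-- The seven typing rules. A context is a list of types, its head being the last declared variable
(de Bruijn index `0`); the type in the head of `A :: Γ` lives in `Γ`. Every appended variable is
fresh automatically. -/
inductive Der (P : Spec) : List (Tm P.S) → Tm P.S → Tm P.S → Prop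
  | ax {s₁ s₂ : P.S} : P.Ax s₁ s₂ → Der P [] (sort s₁) (sort s₂)
  | var {Γ : List (Tm P.S)} {A : Tm P.S} {s : P.S} :
      Der P Γ A (sort s) → Der P (A :: Γ) (var 0) (shift A)
  | weak {Γ : List (Tm P.S)} {M B A : Tm P.S} {s : P.S} :
      Der P Γ M B → Der P Γ A (sort s) → Der P (A :: Γ) (shift M) (shift B)
  | pi {Γ : List (Tm P.S)} {A B : Tm P.S} {s₁ s₂ s₃ : P.S} :
      Der P Γ A (sort s₁) → Der P (A :: Γ) B (sort s₂) → P.Rl s₁ s₂ s₃ →
      Der P Γ (pi A B) (sort s₃)
  | lam {Γ : List (Tm P.S)} {A M B : Tm P.S} {s : P.S} :
      Der P (A :: Γ) M B → Der P Γ (pi A B) (sort s) → Der P Γ (lam A M) (pi A B)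
  | app {Γ : List (Tm P.S)} {M N A B : Tm P.S} :
      Der P Γ M (pi A B) → Der P Γ N A → Der P Γ (app M N) (open_ B N)
  | conv {Γ : List (Tm P.S)} {M A B : Tm P.S} {s : P.S} :
      Der P Γ M A → Der P Γ B (sort s) → Conv A B → Der P Γ M B

/-- An expression is legal if it is the subject or the type of some derivable judgment. -/
def Legal (P : Spec) (t : Tm P.S) : Prop :=
  ∃ Γ B, Der P Γ t B ∨ Der P Γ B t

/-- Every legal expression beta-reduces to a beta-normal form. -/
def WeaklyNormalizing (P : Spec) : Prop := ∀ t, Legal P t → WN t

/-- No legal expression starts an infinite beta-reduction sequence. -/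
def StronglyNormalizing (P : Spec) : Prop := ∀ t, Legal P t → SNterm t

/-- The tiered specification with `n` sorts forming the axiom chain `0 : 1 : ... : n - 1`, and a rule
`(i, j, j)` for every `i`, `j` with `R i j`, so that each product has its codomain's sort. -/
def tiered (n : ℕ) (R : Fin n → Fin n → Prop) : Spec where
  S := Fin n
  Ax a b := b.val = a.val + 1
  Rl a b c := R a b ∧ c = b

/-- The rules are nondependent: a product over a variable whose type lives in the sort `i` may only
have its codomain in a sort `j ≤ i`, so no type depends on a term of a lower tier. -/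
def Nondependent {n : ℕ} (R : Fin n → Fin n → Prop) : Prop :=
  ∀ i j, R i j → j ≤ i

end Vale.Agent.Lib.P340
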