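import Vale.Agent.Lib.P340.Simple

/-!
The assembly: weak normalization implies strong normalization for nondependent tiered systems.
-/

namespace Vale.Agent.Lib.P340
open Tm

variable {n : ℕ} {R : Fin n → Fin n → Prop}

theorem pp_top : PP R (n + 1) := by
  intro Γ t _ hu
  exfalso
  obtain ⟨T, e, _, h2⟩ := hu
  have := e.isLt
  rcases h2 with ⟨_, h3⟩ | ⟨_, h3⟩ <;> omega

theorem pp_step (hWN : WeaklyNormalizing (tiered n R)) (hR : ∀ i j, R i j → j ≤ i) {k : ℕ}
    (hP : PP R (k + 1)) : PP R k := by
  by_cases hk : k < n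
  · let j : Fin n := ⟨k, hk⟩
    have hjk : j.val = k := rfl
    by_cases hjj : R j j
    · by_cases h : ∃ j₁ : Fin n, j₁.val = k + 1 ∧ R j₁ j
      · obtain ⟨j₁, h1, h2⟩ := h
        exact route_cps hWN hR hjj h2 h1 hP
      · refine route_simple (j := j) hR ?_ hP
        intro i hi hRi
        exact h ⟨i, hi, hRi⟩
    · refine route_identity hWN hR ?_ hP
      intro i hi hRi
      have : i = j := Fin.ext hi
      rw [this] at hRi
      exact hjj hRi
  · refine route_identity hWN hR ?_ hP
    intro i hi
    have := i.isLt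
    omega

theorem pp_all (hWN : WeaklyNormalizing (tiered n R)) (hR : ∀ i j, R i j → j ≤ i) :
    ∀ d k : ℕ, k + d = n + 1 → PP R k := by
  intro d
  induction d with
  | zero =>
    intro k hk
    have : k = n + 1 := by omega
    rw [this]
    exact pp_top
  | succ d ih =>
    intro k hk
    exact pp_step hWN hR (ih (k + 1) (by omega))

/-- Every typed term in a well-formed context is strongly normalizing. -/
theorem sn_typed (hWN : WeaklyNormalizing (tiered n R)) (hR : ∀ i j, R i j → j ≤ i)
    {Γ : List (Tm (Fin n))} {t T : Tm (Fin n)} (hw : Wf R Γ) (h : Ty R Γ t T) : SN t := by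
  obtain ⟨ρ, hf⟩ := Fit.exists hw
  have hP : PP R 0 := pp_all hWN hR (n + 1) 0 (by omega)
  exact hP _ _ hw (UpTy.of_rk hw hf h (rk_pos hw hf h))

/-- The Barendregt-Geuvers-Klop implication for nondependent tiered systems. -/
theorem main_thm (n : ℕ) (R : Fin n → Fin n → Prop) (hR : Nondependent R)
    (hWN : WeaklyNormalizing (tiered n R)) : StronglyNormalizing (tiered n R) := by
  intro t hl
  obtain ⟨Γ, B, h | h⟩ := hl
  · obtain ⟨h1, h2⟩ := Der.toTy h
    exact (sn_typed hWN hR h2 h1).toTerm
  · obtain ⟨h1, h2⟩ := Der.toTy h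
    rcases h1.correct h2 with ⟨s, hs⟩ | ⟨s, hs⟩
    · have e : t = sort s := hs
      rw [e]
      exact (SN.sort s).toTerm
    · exact (sn_typed hWN hR h2 hs).toTerm

end Vale.Agent.Lib.P340
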