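import Vale.Agent.Lib.P340.Typing

/-!
The rank of a term: a syntactic function which on typed terms computes the tier.
-/

namespace Vale.Agent.Lib.P340
open Tm

/-- Extending a rank assignment by the rank of a new variable `0`. -/
def cons (a : ℕ) (ρ : ℕ → ℕ) : ℕ → ℕ
  | 0 => a
  | i + 1 => ρ i

@[simp] theorem cons_zero (a : ℕ) (ρ : ℕ → ℕ) : cons a ρ 0 = a := rfl
@[simp] theorem cons_succ (a : ℕ) (ρ : ℕ → ℕ) (i : ℕ) : cons a ρ (i + 1) = ρ i := rfl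

variable {n : ℕ}

/-- The rank of a term, given the ranks of its free variables. A term of type `T` with `T : s_k` has
rank `k + 1`, a type in `s_k` has rank `k + 2`. -/
def rk : (ℕ → ℕ) → Tm (Fin n) → ℕ
  | ρ, .var i => ρ i
  | _, .sort k => k.val + 3
  | ρ, .app M _ => rk ρ M
  | ρ, .lam A M => rk (cons (rk ρ A - 1) ρ) M
  | ρ, .pi A M => rk (cons (rk ρ A - 1) ρ) M

@[simp] theorem rk_var (ρ : ℕ → ℕ) (i : ℕ) : rk ρ (var i : Tm (Fin n)) = ρ i := rfl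
@[simp] theorem rk_sort (ρ : ℕ → ℕ) (k : Fin n) : rk ρ (sort k) = k.val + 3 := rfl
@[simp] theorem rk_app (ρ : ℕ → ℕ) (M N : Tm (Fin n)) : rk ρ (app M N) = rk ρ M := rfl
@[simp] theorem rk_lam (ρ : ℕ → ℕ) (A M : Tm (Fin n)) :
    rk ρ (lam A M) = rk (cons (rk ρ A - 1) ρ) M := rfl
@[simp] theorem rk_pi (ρ : ℕ → ℕ) (A M : Tm (Fin n)) :
    rk ρ (pi A M) = rk (cons (rk ρ A - 1) ρ) M := rfl

theorem cons_comp_upr (a : ℕ) (ρ : ℕ → ℕ) (ξ : ℕ → ℕ) :
    cons a ρ ∘ upr ξ = cons a (ρ ∘ ξ) := by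
  funext i; cases i <;> rfl

theorem rk_rename (ρ : ℕ → ℕ) (ξ : ℕ → ℕ) (t : Tm (Fin n)) :
    rk ρ (rename ξ t) = rk (ρ ∘ ξ) t := by
  induction t generalizing ρ ξ with
  | var i => rfl
  | sort s => rfl
  | app a b iha _ => simpa using iha ρ ξ
  | lam A b ihA ihb =>
    simp only [rename_lam, rk_lam]
    rw [ihA, ihb, cons_comp_upr]
  | pi A b ihA ihb =>
    simp only [rename_pi, rk_pi]
    rw [ihA, ihb, cons_comp_upr]

@[simp] theorem rk_shift (a : ℕ) (ρ : ℕ → ℕ) (t : Tm (Fin n)) :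
    rk (cons a ρ) (shift t) = rk ρ t := by
  unfold shift
  rw [rk_rename]
  rfl

theorem rk_subst {ρ ρ' : ℕ → ℕ} {σ : ℕ → Tm (Fin n)} (h : ∀ x, rk ρ' (σ x) = ρ x)
    (t : Tm (Fin n)) : rk ρ' (subst σ t) = rk ρ t := by
  have up : ∀ (a : ℕ) {ρ ρ' : ℕ → ℕ} {σ : ℕ → Tm (Fin n)}, (∀ x, rk ρ' (σ x) = ρ x) →
      ∀ x, rk (cons a ρ') (ups σ x) = cons a ρ x := by
    intro a ρ ρ' σ h x
    cases x with
    | zero => rfl
    | succ x => simp [h]
  induction t generalizing ρ ρ' σ with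
  | var i => exact h i
  | sort s => rfl
  | app a b iha _ => simpa using iha h
  | lam A b ihA ihb =>
    simp only [subst_lam, rk_lam]
    rw [ihA h]
    exact ihb (up _ h)
  | pi A b ihA ihb =>
    simp only [subst_pi, rk_pi]
    rw [ihA h]
    exact ihb (up _ h)

theorem rk_inst (a : ℕ) (ρ : ℕ → ℕ) (N : Tm (Fin n)) (h : rk ρ N = a) :
    ∀ x, rk ρ (inst N x) = cons a ρ x := by
  intro x
  cases x with
  | zero => exact h
  | succ x => rfl

theorem rk_open (a : ℕ) (ρ : ℕ → ℕ) (b N : Tm (Fin n)) (h : rk ρ N = a) :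
    rk ρ (open_ b N) = rk (cons a ρ) b := rk_subst (rk_inst a ρ N h) b

variable {R : Fin n → Fin n → Prop}

/-- The rank assignment `ρ` fits the context `Γ`. -/
def Fit (R : Fin n → Fin n → Prop) (ρ : ℕ → ℕ) (Γ : List (Tm (Fin n))) : Prop :=
  ∀ i A (e : Fin n), Lk Γ i A → Ty R Γ A (sort e) → ρ i = e.val + 1

theorem Fit.cons {ρ : ℕ → ℕ} {Γ : List (Tm (Fin n))} {A : Tm (Fin n)} {a : Fin n}
    (hw : Wf R Γ) (hf : Fit R ρ Γ) (hA : Ty R Γ A (sort a)) :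
    Fit R (cons (a.val + 1) ρ) (A :: Γ) := by
  intro i B e hB hT
  cases hB with
  | zero =>
    have := Conv.sort_inj ((hA.shift A).uniq hT)
    rw [this]
    rfl
  | succ hB =>
    obtain ⟨e₀, h0⟩ := hB.wf hw
    have := Conv.sort_inj ((h0.shift A).uniq hT)
    rw [← this]
    exact hf _ _ _ hB h0

theorem Fit.exists {Γ : List (Tm (Fin n))} (hw : Wf R Γ) : ∃ ρ, Fit R ρ Γ := by
  induction hw with
  | nil => exact ⟨fun _ => 0, fun i A e h => by cases h⟩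
  | cons hw hA ih =>
    obtain ⟨ρ, hρ⟩ := ih
    exact ⟨_, Fit.cons hw hρ hA⟩

theorem rk_main (t : Tm (Fin n)) : ∀ {Γ : List (Tm (Fin n))} {ρ : ℕ → ℕ}, Wf R Γ → Fit R ρ Γ →
    (∀ k : Fin n, Ty R Γ t (sort k) → rk ρ t = k.val + 2) ∧
    (∀ (T : Tm (Fin n)) (k : Fin n), Ty R Γ t T → Ty R Γ T (sort k) → rk ρ t = k.val + 1) := by
  induction t with
  | var i =>
    intro Γ ρ hw hf
    constructor
    · intro k h
      obtain ⟨A, h1, h2⟩ := gen_var h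
      obtain ⟨e, he⟩ := h1.wf hw
      have := conv_sort_typing hw he h2
      rw [rk_var, hf _ _ _ h1 he, this]
    · intro T k h hT
      obtain ⟨A, h1, h2⟩ := gen_var h
      obtain ⟨e, he⟩ := h1.wf hw
      have := Ty.sort_unique hw he hT h2
      rw [rk_var, hf _ _ _ h1 he, this]
  | sort a =>
    intro Γ ρ hw hf
    constructor
    · intro k h
      obtain ⟨b, h1, h2⟩ := gen_sort h
      have := Conv.sort_inj h2
      subst this
      simp only [rk_sort]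
      omega
    · intro T k h hT
      obtain ⟨b, h1, h2⟩ := gen_sort h
      have := conv_sort_typing hw hT (Conv.symm' h2)
      simp only [rk_sort]
      omega
  | app M N ihM _ =>
    intro Γ ρ hw hf
    constructor
    · intro k h
      obtain ⟨A, B, h1, h2, h3⟩ := gen_app h
      obtain ⟨a, b, _, hB, _, hP⟩ := h1.pi_parts hw
      have := conv_sort_typing hw (hB.open_ h2) h3
      rw [rk_app, (ihM hw hf).2 _ _ h1 hP, this]
    · intro T k h hT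
      obtain ⟨A, B, h1, h2, h3⟩ := gen_app h
      obtain ⟨a, b, _, hB, _, hP⟩ := h1.pi_parts hw
      have := Ty.sort_unique hw (hB.open_ h2) hT h3
      rw [rk_app, (ihM hw hf).2 _ _ h1 hP, this]
  | lam A P ihA ihP =>
    intro Γ ρ hw hf
    constructor
    · intro k h
      obtain ⟨B, s, _, _, h3⟩ := gen_lam h
      exact h3.pi_sort.elim
    · intro T k h hT
      obtain ⟨B, s, h1, h2, h3⟩ := gen_lam h
      have hs := Ty.sort_unique hw h2 hT h3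
      obtain ⟨a, b, hA, hB, _, h4⟩ := gen_pi h2
      have hb := Conv.sort_inj h4
      have hra := (ihA hw hf).1 _ hA
      have hr : rk ρ A - 1 = a.val + 1 := by omega
      rw [rk_lam, hr, (ihP (Wf.cons hw hA) (Fit.cons hw hf hA)).2 _ _ h1 hB, hb, hs]
  | pi A C ihA ihC =>
    intro Γ ρ hw hf
    constructor
    · intro k h
      obtain ⟨a, b, hA, hC, _, h4⟩ := gen_pi h
      have hb := Conv.sort_inj h4
      have hra := (ihA hw hf).1 _ hA
      have hr : rk ρ A - 1 = a.val + 1 := by omega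
      rw [rk_pi, hr, (ihC (Wf.cons hw hA) (Fit.cons hw hf hA)).1 _ hC, hb]
    · intro T k h hT
      obtain ⟨a, b, hA, hC, _, h4⟩ := gen_pi h
      have hb := conv_sort_typing hw hT (Conv.symm' h4)
      have hra := (ihA hw hf).1 _ hA
      have hr : rk ρ A - 1 = a.val + 1 := by omega
      rw [rk_pi, hr, (ihC (Wf.cons hw hA) (Fit.cons hw hf hA)).1 _ hC, hb]

/-- Rank of a type in the sort `k`. -/
theorem rk_type {Γ : List (Tm (Fin n))} {ρ : ℕ → ℕ} {t : Tm (Fin n)} {k : Fin n} (hw : Wf R Γ)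
    (hf : Fit R ρ Γ) (h : Ty R Γ t (sort k)) : rk ρ t = k.val + 2 :=
  (rk_main t hw hf).1 k h

/-- Rank of a term whose type is in the sort `k`. -/
theorem rk_term {Γ : List (Tm (Fin n))} {ρ : ℕ → ℕ} {t T : Tm (Fin n)} {k : Fin n} (hw : Wf R Γ)
    (hf : Fit R ρ Γ) (h : Ty R Γ t T) (hT : Ty R Γ T (sort k)) : rk ρ t = k.val + 1 :=
  (rk_main t hw hf).2 T k h hT

/-- Every typed term has a rank which is at least one. -/
theorem rk_pos {Γ : List (Tm (Fin n))} {ρ : ℕ → ℕ} {t T : Tm (Fin n)} (hw : Wf R Γ)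
    (hf : Fit R ρ Γ) (h : Ty R Γ t T) : 1 ≤ rk ρ t := by
  rcases h.correct hw with ⟨s, rfl⟩ | ⟨s, hs⟩
  · rw [rk_type hw hf h]; omega
  · rw [rk_term hw hf h hs]; omega

/-- Subject reduction for ranks. -/
theorem rk_step {Γ : List (Tm (Fin n))} {ρ : ℕ → ℕ} {t t' T : Tm (Fin n)} (hw : Wf R Γ)
    (hf : Fit R ρ Γ) (h : Ty R Γ t T) (hs : Step t t') : rk ρ t' = rk ρ t := by
  have h' := h.step hw hs
  rcases h.correct hw with ⟨s, rfl⟩ | ⟨s, hT⟩
  · rw [rk_type hw hf h, rk_type hw hf h']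
  · rw [rk_term hw hf h hT, rk_term hw hf h' hT]

theorem rk_steps {Γ : List (Tm (Fin n))} {ρ : ℕ → ℕ} {t t' T : Tm (Fin n)} (hw : Wf R Γ)
    (hf : Fit R ρ Γ) (h : Ty R Γ t T) (hs : Steps t t') : rk ρ t' = rk ρ t := by
  induction hs with
  | refl => rfl
  | tail h1 h2 ih => rw [rk_step hw hf (h.steps hw h1) h2, ih]

/-- The terms of tier at least `k`. -/
def UpTy (R : Fin n → Fin n → Prop) (k : ℕ) (Γ : List (Tm (Fin n))) (t : Tm (Fin n)) : Prop :=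
  ∃ (T : Tm (Fin n)) (e : Fin n), Ty R Γ t T ∧
    ((Ty R Γ T (sort e) ∧ k ≤ e.val) ∨ (T = sort e ∧ k ≤ e.val + 1))

theorem UpTy.mono {k k' : ℕ} {Γ : List (Tm (Fin n))} {t : Tm (Fin n)} (h : UpTy R k Γ t)
    (hk : k' ≤ k) : UpTy R k' Γ t := by
  obtain ⟨T, e, h1, h2⟩ := h
  refine ⟨T, e, h1, ?_⟩
  rcases h2 with ⟨h2, h3⟩ | ⟨h2, h3⟩
  · exact Or.inl ⟨h2, by omega⟩
  · exact Or.inr ⟨h2, by omega⟩

theorem UpTy.le_rk {k : ℕ} {Γ : List (Tm (Fin n))} {t : Tm (Fin n)} {ρ : ℕ → ℕ} (hw : Wf R Γ)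
    (hf : Fit R ρ Γ) (h : UpTy R k Γ t) : k + 1 ≤ rk ρ t := by
  obtain ⟨T, e, h1, h2⟩ := h
  rcases h2 with ⟨h2, h3⟩ | ⟨rfl, h3⟩
  · rw [rk_term hw hf h1 h2]; omega
  · rw [rk_type hw hf h1]; omega

theorem UpTy.of_rk {k : ℕ} {Γ : List (Tm (Fin n))} {t T : Tm (Fin n)} {ρ : ℕ → ℕ} (hw : Wf R Γ)
    (hf : Fit R ρ Γ) (h : Ty R Γ t T) (hk : k + 1 ≤ rk ρ t) : UpTy R k Γ t := by
  rcases h.correct hw with ⟨s, rfl⟩ | ⟨s, hT⟩
  · have := rk_type hw hf h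
    exact ⟨_, s, h, Or.inr ⟨rfl, by omega⟩⟩
  · have := rk_term hw hf h hT
    exact ⟨_, s, h, Or.inl ⟨hT, by omega⟩⟩

theorem UpTy.subst {k : ℕ} {Γ Δ : List (Tm (Fin n))} {t : Tm (Fin n)} {σ : ℕ → Tm (Fin n)}
    (h : UpTy R k Γ t) (hσ : SubOK R σ Γ Δ) : UpTy R k Δ (Tm.subst σ t) := by
  obtain ⟨T, e, h1, h2⟩ := h
  refine ⟨Tm.subst σ T, e, h1.subst hσ, ?_⟩
  rcases h2 with ⟨h2, h3⟩ | ⟨rfl, h3⟩
  · exact Or.inl ⟨h2.subst hσ, h3⟩
  · exact Or.inr ⟨rfl, h3⟩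

theorem UpTy.rename {k : ℕ} {Γ Δ : List (Tm (Fin n))} {t : Tm (Fin n)} {ξ : ℕ → ℕ}
    (h : UpTy R k Γ t) (hξ : RenOK ξ Γ Δ) : UpTy R k Δ (Tm.rename ξ t) := by
  obtain ⟨T, e, h1, h2⟩ := h
  refine ⟨Tm.rename ξ T, e, h1.rename hξ, ?_⟩
  rcases h2 with ⟨h2, h3⟩ | ⟨rfl, h3⟩
  · exact Or.inl ⟨h2.rename hξ, h3⟩
  · exact Or.inr ⟨rfl, h3⟩

theorem UpTy.step {k : ℕ} {Γ : List (Tm (Fin n))} {t t' : Tm (Fin n)}
    (h : UpTy R k Γ t) (hw : Wf R Γ) (hs : Step t t') : UpTy R k Γ t' := by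
  obtain ⟨T, e, h1, h2⟩ := h
  exact ⟨T, e, h1.step hw hs, h2⟩

/-! ### Nondependence -/

theorem occurs_rank (hR : ∀ i j, R i j → j ≤ i) (t : Tm (Fin n)) :
    ∀ {Γ : List (Tm (Fin n))} {ρ : ℕ → ℕ} {x : ℕ} {T : Tm (Fin n)}, Wf R Γ → Fit R ρ Γ →
      Ty R Γ t T → Occurs x t → rk ρ t ≤ ρ x := by
  induction t with
  | var i =>
    intro Γ ρ x T hw hf h hx
    simp only [occurs_var] at hx
    subst hx
    exact le_refl _
  | sort s =>
    intro Γ ρ x T hw hf h hx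
    exact hx.elim
  | app M N ihM ihN =>
    intro Γ ρ x T hw hf h hx
    obtain ⟨A, B, h1, h2, _⟩ := gen_app h
    rcases hx with hx | hx
    · exact ihM hw hf h1 hx
    · obtain ⟨a, b, hA, _, hRab, hP⟩ := h1.pi_parts hw
      have h3 := ihN hw hf h2 hx
      rw [rk_term hw hf h2 hA] at h3
      rw [rk_app, rk_term hw hf h1 hP]
      have := Fin.le_def.1 (hR _ _ hRab)
      omega
  | lam A P ihA ihP =>
    intro Γ ρ x T hw hf h hx
    obtain ⟨B, s, h1, h2, _⟩ := gen_lam h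
    obtain ⟨a, b, hA, hB, hRab, h4⟩ := gen_pi h2
    have hra := rk_type hw hf hA
    have hr : rk ρ A - 1 = a.val + 1 := by omega
    rcases hx with hx | hx
    · have h3 := ihA hw hf hA hx
      rw [rk_lam, hr, rk_term (Wf.cons hw hA) (Fit.cons hw hf hA) h1 hB]
      have := Fin.le_def.1 (hR _ _ hRab)
      omega
    · have h3 := ihP (Wf.cons hw hA) (Fit.cons hw hf hA) h1 hx
      rw [rk_lam, hr]
      exact h3
  | pi A C ihA ihC =>
    intro Γ ρ x T hw hf h hx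
    obtain ⟨a, b, hA, hC, hRab, h4⟩ := gen_pi h
    have hra := rk_type hw hf hA
    have hr : rk ρ A - 1 = a.val + 1 := by omega
    rcases hx with hx | hx
    · have h3 := ihA hw hf hA hx
      rw [rk_pi, hr, rk_type (Wf.cons hw hA) (Fit.cons hw hf hA) hC]
      have := Fin.le_def.1 (hR _ _ hRab)
      omega
    · have h3 := ihC (Wf.cons hw hA) (Fit.cons hw hf hA) hC hx
      rw [rk_pi, hr]
      exact h3

end Vale.Agent.Lib.P340
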