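import Vale.Agent.Lib.P340.Basic

/-!
Beta reduction: closure properties, parallel reduction, confluence, strong normalization basics.
-/

namespace Vale.Agent.Lib.P340
namespace Tm

variable {S : Type}

/-- Many-step reduction. -/
abbrev Steps : Tm S → Tm S → Prop := Relation.ReflTransGen Step

theorem Step.rename (ξ : ℕ → ℕ) {a b : Tm S} (h : Step a b) : Step (rename ξ a) (rename ξ b) := by
  induction h generalizing ξ with
  | beta A M N =>
    simp only [rename_app, rename_lam, rename_open]
    exact Step.beta _ _ _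
  | appL b _ ih => exact Step.appL _ (ih ξ)
  | appR a _ ih => exact Step.appR _ (ih ξ)
  | lamA b _ ih => exact Step.lamA _ (ih ξ)
  | lamB A _ ih => exact Step.lamB _ (ih (upr ξ))
  | piA b _ ih => exact Step.piA _ (ih ξ)
  | piB A _ ih => exact Step.piB _ (ih (upr ξ))

theorem Step.subst (σ : ℕ → Tm S) {a b : Tm S} (h : Step a b) : Step (subst σ a) (subst σ b) := by
  induction h generalizing σ with
  | beta A M N =>
    simp only [subst_app, subst_lam, subst_open]
    exact Step.beta _ _ _
  | appL b _ ih => exact Step.appL _ (ih σ)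
  | appR a _ ih => exact Step.appR _ (ih σ)
  | lamA b _ ih => exact Step.lamA _ (ih σ)
  | lamB A _ ih => exact Step.lamB _ (ih (ups σ))
  | piA b _ ih => exact Step.piA _ (ih σ)
  | piB A _ ih => exact Step.piB _ (ih (ups σ))

theorem Step.shift {a b : Tm S} (h : Step a b) : Step (shift a) (shift b) := h.rename _

namespace Steps

theorem refl' (a : Tm S) : Steps a a := Relation.ReflTransGen.refl

theorem of_step {a b : Tm S} (h : Step a b) : Steps a b := Relation.ReflTransGen.single h

/-- A function sending steps to steps preserves many-step reduction. -/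
theorem lift' (f : Tm S → Tm S) (hf : ∀ a b, Step a b → Step (f a) (f b))
    {a b : Tm S} (h : Steps a b) : Steps (f a) (f b) := by
  induction h with
  | refl => exact Relation.ReflTransGen.refl
  | tail _ h ih => exact ih.tail (hf _ _ h)

theorem trans' {a b c : Tm S} (h : Steps a b) (h' : Steps b c) : Steps a c :=
  Relation.ReflTransGen.trans h h'

theorem rename (ξ : ℕ → ℕ) {a b : Tm S} (h : Steps a b) : Steps (rename ξ a) (rename ξ b) :=
  lift' (Tm.rename ξ) (fun _ _ h => Step.rename ξ h) h

theorem shift {a b : Tm S} (h : Steps a b) : Steps (shift a) (shift b) := rename _ h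

theorem subst (σ : ℕ → Tm S) {a b : Tm S} (h : Steps a b) : Steps (subst σ a) (subst σ b) :=
  lift' (Tm.subst σ) (fun _ _ h => Step.subst σ h) h

theorem appL {a a' : Tm S} (b : Tm S) (h : Steps a a') : Steps (app a b) (app a' b) :=
  lift' (fun x => app x b) (fun _ _ h => Step.appL b h) h

theorem appR (a : Tm S) {b b' : Tm S} (h : Steps b b') : Steps (app a b) (app a b') :=
  lift' (fun x => app a x) (fun _ _ h => Step.appR a h) h

theorem app {a a' b b' : Tm S} (h : Steps a a') (h' : Steps b b') :
    Steps (app a b) (app a' b') := trans' (appL b h) (appR a' h')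

theorem lamA {A A' : Tm S} (b : Tm S) (h : Steps A A') : Steps (lam A b) (lam A' b) :=
  lift' (fun x => lam x b) (fun _ _ h => Step.lamA b h) h

theorem lamB (A : Tm S) {b b' : Tm S} (h : Steps b b') : Steps (lam A b) (lam A b') :=
  lift' (fun x => lam A x) (fun _ _ h => Step.lamB A h) h

theorem lam {A A' b b' : Tm S} (h : Steps A A') (h' : Steps b b') :
    Steps (lam A b) (lam A' b') := trans' (lamA b h) (lamB A' h')

theorem piA {A A' : Tm S} (b : Tm S) (h : Steps A A') : Steps (pi A b) (pi A' b) :=
  lift' (fun x => pi x b) (fun _ _ h => Step.piA b h) h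

theorem piB (A : Tm S) {b b' : Tm S} (h : Steps b b') : Steps (pi A b) (pi A b') :=
  lift' (fun x => pi A x) (fun _ _ h => Step.piB A h) h

theorem pi {A A' b b' : Tm S} (h : Steps A A') (h' : Steps b b') :
    Steps (pi A b) (pi A' b') := trans' (piA b h) (piB A' h')

end Steps

theorem Steps.subst_pointwise {σ τ : ℕ → Tm S} (h : ∀ x, Steps (σ x) (τ x)) (t : Tm S) :
    Steps (Tm.subst σ t) (Tm.subst τ t) := by
  induction t generalizing σ τ with
  | var i => exact h i
  | sort s => exact Steps.refl' _
  | app a b iha ihb => exact Steps.app (iha h) (ihb h)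
  | lam A b ihA ihb =>
    refine Steps.lam (ihA h) (ihb ?_)
    intro x
    cases x with
    | zero => exact Steps.refl' _
    | succ x => exact Steps.shift (h x)
  | pi A b ihA ihb =>
    refine Steps.pi (ihA h) (ihb ?_)
    intro x
    cases x with
    | zero => exact Steps.refl' _
    | succ x => exact Steps.shift (h x)

theorem Steps.open_arg (M : Tm S) {N N' : Tm S} (h : Steps N N') :
    Steps (open_ M N) (open_ M N') := by
  apply Steps.subst_pointwise
  intro x
  cases x with
  | zero => exact h
  | succ x => exact Steps.refl' _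

/-! ### Conversion -/

namespace Conv

theorem refl' (a : Tm S) : Conv a a := Relation.EqvGen.refl a

theorem symm' {a b : Tm S} (h : Conv a b) : Conv b a := Relation.EqvGen.symm _ _ h

theorem trans' {a b c : Tm S} (h : Conv a b) (h' : Conv b c) : Conv a c :=
  Relation.EqvGen.trans _ _ _ h h'

theorem of_step {a b : Tm S} (h : Step a b) : Conv a b := Relation.EqvGen.rel _ _ h

theorem of_steps {a b : Tm S} (h : Steps a b) : Conv a b := by
  induction h with
  | refl => exact refl' _
  | tail _ h ih => exact trans' ih (of_step h)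

/-- A function sending steps to conversions preserves conversion. -/
theorem lift {T : Type} (f : Tm S → Tm T) (hf : ∀ a b, Step a b → Conv (f a) (f b))
    {a b : Tm S} (h : Conv a b) : Conv (f a) (f b) := by
  induction h with
  | rel _ _ h => exact hf _ _ h
  | refl _ => exact refl' _
  | symm _ _ _ ih => exact symm' ih
  | trans _ _ _ _ _ ih ih' => exact trans' ih ih'

theorem rename (ξ : ℕ → ℕ) {a b : Tm S} (h : Conv a b) : Conv (rename ξ a) (rename ξ b) :=
  lift (Tm.rename ξ) (fun _ _ h => of_step (Step.rename ξ h)) h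

theorem shift {a b : Tm S} (h : Conv a b) : Conv (shift a) (shift b) := rename _ h

theorem subst (σ : ℕ → Tm S) {a b : Tm S} (h : Conv a b) : Conv (subst σ a) (subst σ b) :=
  lift (Tm.subst σ) (fun _ _ h => of_step (Step.subst σ h)) h

theorem appL {a a' : Tm S} (b : Tm S) (h : Conv a a') : Conv (app a b) (app a' b) :=
  lift (fun x => app x b) (fun _ _ h => of_step (Step.appL b h)) h

theorem appR (a : Tm S) {b b' : Tm S} (h : Conv b b') : Conv (app a b) (app a b') :=
  lift (fun x => app a x) (fun _ _ h => of_step (Step.appR a h)) h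

theorem piA {A A' : Tm S} (b : Tm S) (h : Conv A A') : Conv (pi A b) (pi A' b) :=
  lift (fun x => pi x b) (fun _ _ h => of_step (Step.piA b h)) h

theorem piB (A : Tm S) {b b' : Tm S} (h : Conv b b') : Conv (pi A b) (pi A b') :=
  lift (fun x => pi A x) (fun _ _ h => of_step (Step.piB A h)) h

theorem pi {A A' b b' : Tm S} (h : Conv A A') (h' : Conv b b') : Conv (pi A b) (pi A' b') :=
  trans' (piA b h) (piB A' h')

theorem lamA {A A' : Tm S} (b : Tm S) (h : Conv A A') : Conv (lam A b) (lam A' b) :=
  lift (fun x => lam x b) (fun _ _ h => of_step (Step.lamA b h)) h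

end Conv

theorem Conv.open_body {b b' : Tm S} (N : Tm S) (h : Conv b b') : Conv (open_ b N) (open_ b' N) :=
  Conv.subst _ h

/-! ### Parallel reduction and confluence -/

/-- Parallel reduction. -/
inductive Par : Tm S → Tm S → Prop
  | var (i : ℕ) : Par (var i) (var i)
  | sort (s : S) : Par (sort s) (sort s)
  | app {a a' b b' : Tm S} : Par a a' → Par b b' → Par (app a b) (app a' b')
  | lam {A A' b b' : Tm S} : Par A A' → Par b b' → Par (lam A b) (lam A' b')
  | pi {A A' b b' : Tm S} : Par A A' → Par b b' → Par (pi A b) (pi A' b')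
  | beta (A : Tm S) {b b' N N' : Tm S} : Par b b' → Par N N' →
      Par (app (lam A b) N) (open_ b' N')

theorem Par.refl (t : Tm S) : Par t t := by
  induction t with
  | var i => exact Par.var i
  | sort s => exact Par.sort s
  | app a b iha ihb => exact Par.app iha ihb
  | lam A b ihA ihb => exact Par.lam ihA ihb
  | pi A b ihA ihb => exact Par.pi ihA ihb

theorem Par.rename (ξ : ℕ → ℕ) {a b : Tm S} (h : Par a b) : Par (rename ξ a) (rename ξ b) := by
  induction h generalizing ξ with
  | var i => exact Par.var _
  | sort s => exact Par.sort _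
  | app _ _ iha ihb => exact Par.app (iha ξ) (ihb ξ)
  | lam _ _ iha ihb => exact Par.lam (iha ξ) (ihb _)
  | pi _ _ iha ihb => exact Par.pi (iha ξ) (ihb _)
  | beta A _ _ iha ihb =>
    simp only [rename_app, rename_lam, rename_open]
    exact Par.beta _ (iha _) (ihb ξ)

theorem Par.subst {σ τ : ℕ → Tm S} {a b : Tm S} (h : Par a b) (hσ : ∀ x, Par (σ x) (τ x)) :
    Par (subst σ a) (subst τ b) := by
  have up : ∀ {σ τ : ℕ → Tm S}, (∀ x, Par (σ x) (τ x)) → ∀ x, Par (ups σ x) (ups τ x) := by
    intro σ τ h x
    cases x with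
    | zero => exact Par.var 0
    | succ x => exact Par.rename _ (h x)
  induction h generalizing σ τ with
  | var i => exact hσ i
  | sort s => exact Par.sort _
  | app _ _ iha ihb => exact Par.app (iha hσ) (ihb hσ)
  | lam _ _ iha ihb => exact Par.lam (iha hσ) (ihb (up hσ))
  | pi _ _ iha ihb => exact Par.pi (iha hσ) (ihb (up hσ))
  | beta A _ _ iha ihb =>
    simp only [subst_app, subst_lam, subst_open]
    exact Par.beta _ (iha (up hσ)) (ihb hσ)

theorem Par.open_ {b b' N N' : Tm S} (h : Par b b') (h' : Par N N') :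
    Par (open_ b N) (open_ b' N') := by
  apply Par.subst h
  intro x
  cases x with
  | zero => exact h'
  | succ x => exact Par.var x

theorem Par.diamond {a b : Tm S} (h : Par a b) : ∀ c, Par a c → ∃ d, Par b d ∧ Par c d := by
  induction h with
  | var i =>
    intro c hc
    cases hc
    exact ⟨_, Par.var i, Par.var i⟩
  | sort s =>
    intro c hc
    cases hc
    exact ⟨_, Par.sort s, Par.sort s⟩
  | app ha hb iha ihb =>
    intro c hc
    cases hc with
    | app hc1 hc2 =>
      obtain ⟨d1, h1, h1'⟩ := iha _ hc1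
      obtain ⟨d2, h2, h2'⟩ := ihb _ hc2
      exact ⟨_, Par.app h1 h2, Par.app h1' h2'⟩
    | beta A hc1 hc2 =>
      cases ha with
      | lam hA hb0 =>
        obtain ⟨d1, h1, h1'⟩ := iha _ (Par.lam (Par.refl _) hc1)
        obtain ⟨d2, h2, h2'⟩ := ihb _ hc2
        cases h1 with
        | lam _ h1b =>
          cases h1' with
          | lam _ h1b' =>
            exact ⟨_, Par.beta _ h1b h2, Par.open_ h1b' h2'⟩
  | lam _ _ iha ihb =>
    intro c hc
    cases hc with
    | lam hc1 hc2 =>
      obtain ⟨d1, h1, h1'⟩ := iha _ hc1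
      obtain ⟨d2, h2, h2'⟩ := ihb _ hc2
      exact ⟨_, Par.lam h1 h2, Par.lam h1' h2'⟩
  | pi _ _ iha ihb =>
    intro c hc
    cases hc with
    | pi hc1 hc2 =>
      obtain ⟨d1, h1, h1'⟩ := iha _ hc1
      obtain ⟨d2, h2, h2'⟩ := ihb _ hc2
      exact ⟨_, Par.pi h1 h2, Par.pi h1' h2'⟩
  | beta A hb hN ihb ihN =>
    intro c hc
    cases hc with
    | app hc1 hc2 =>
      cases hc1 with
      | lam hA hb' =>
        obtain ⟨d1, h1, h1'⟩ := ihb _ hb'
        obtain ⟨d2, h2, h2'⟩ := ihN _ hc2
        exact ⟨_, Par.open_ h1 h2, Par.beta _ h1' h2'⟩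
    | beta A' hc1 hc2 =>
      obtain ⟨d1, h1, h1'⟩ := ihb _ hc1
      obtain ⟨d2, h2, h2'⟩ := ihN _ hc2
      exact ⟨_, Par.open_ h1 h2, Par.open_ h1' h2'⟩

theorem Par.of_step {a b : Tm S} (h : Step a b) : Par a b := by
  induction h with
  | beta A M N => exact Par.beta A (Par.refl _) (Par.refl _)
  | appL b _ ih => exact Par.app ih (Par.refl _)
  | appR a _ ih => exact Par.app (Par.refl _) ih
  | lamA b _ ih => exact Par.lam ih (Par.refl _)
  | lamB A _ ih => exact Par.lam (Par.refl _) ih
  | piA b _ ih => exact Par.pi ih (Par.refl _)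
  | piB A _ ih => exact Par.pi (Par.refl _) ih

theorem Par.steps {a b : Tm S} (h : Par a b) : Steps a b := by
  induction h with
  | var i => exact Steps.refl' _
  | sort s => exact Steps.refl' _
  | app _ _ iha ihb => exact Steps.app iha ihb
  | lam _ _ iha ihb => exact Steps.lam iha ihb
  | pi _ _ iha ihb => exact Steps.pi iha ihb
  | beta A hb hN ihb ihN =>
    refine Steps.trans' (Steps.appL _ (Steps.lamB A ihb)) ?_
    refine Steps.trans' (Steps.appR _ ihN) ?_
    exact Steps.of_step (Step.beta _ _ _)

/-- Confluence of parallel reduction, many-step on both sides. -/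
theorem par_confluent {a b c : Tm S} (h : Relation.ReflTransGen Par a b)
    (h' : Relation.ReflTransGen Par a c) : Relation.Join (Relation.ReflTransGen Par) b c := by
  refine Relation.church_rosser ?_ h h'
  intro a b c hab hac
  obtain ⟨d, h1, h2⟩ := Par.diamond hab c hac
  exact ⟨d, Relation.ReflGen.single h1, Relation.ReflTransGen.single h2⟩

theorem steps_iff_par {a b : Tm S} : Steps a b ↔ Relation.ReflTransGen Par a b := by
  constructor
  · intro h
    induction h with
    | refl => exact Relation.ReflTransGen.refl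
    | tail _ h ih => exact ih.tail (Par.of_step h)
  · intro h
    induction h with
    | refl => exact Steps.refl' _
    | tail _ h ih => exact Steps.trans' ih h.steps

/-- Confluence of beta reduction. -/
theorem steps_confluent {a b c : Tm S} (h : Steps a b) (h' : Steps a c) :
    ∃ d, Steps b d ∧ Steps c d := by
  obtain ⟨d, h1, h2⟩ := par_confluent (steps_iff_par.1 h) (steps_iff_par.1 h')
  exact ⟨d, steps_iff_par.2 h1, steps_iff_par.2 h2⟩

/-- Church-Rosser. -/
theorem Conv.join {a b : Tm S} (h : Conv a b) : ∃ c, Steps a c ∧ Steps b c := by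
  induction h with
  | rel _ _ h => exact ⟨_, Steps.of_step h, Steps.refl' _⟩
  | refl _ => exact ⟨_, Steps.refl' _, Steps.refl' _⟩
  | symm _ _ _ ih =>
    obtain ⟨c, h1, h2⟩ := ih
    exact ⟨c, h2, h1⟩
  | trans _ _ _ _ _ ih ih' =>
    obtain ⟨c, h1, h2⟩ := ih
    obtain ⟨d, h3, h4⟩ := ih'
    obtain ⟨e, h5, h6⟩ := steps_confluent h2 h3
    exact ⟨e, Steps.trans' h1 h5, Steps.trans' h4 h6⟩

theorem steps_sort {s : S} {t : Tm S} (h : Steps (sort s) t) : t = sort s := by
  induction h with
  | refl => rfl
  | tail _ h ih => subst ih; cases h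

theorem steps_var {i : ℕ} {t : Tm S} (h : Steps (var i) t) : t = var i := by
  induction h with
  | refl => rfl
  | tail _ h ih => subst ih; cases h

theorem steps_pi {A B t : Tm S} (h : Steps (pi A B) t) :
    ∃ A' B', t = pi A' B' ∧ Steps A A' ∧ Steps B B' := by
  induction h with
  | refl => exact ⟨A, B, rfl, Steps.refl' _, Steps.refl' _⟩
  | tail _ h ih =>
    obtain ⟨A', B', rfl, h1, h2⟩ := ih
    cases h with
    | piA _ h => exact ⟨_, _, rfl, h1.tail h, h2⟩
    | piB _ h => exact ⟨_, _, rfl, h1, h2.tail h⟩

theorem steps_lam {A B t : Tm S} (h : Steps (lam A B) t) :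
    ∃ A' B', t = lam A' B' ∧ Steps A A' ∧ Steps B B' := by
  induction h with
  | refl => exact ⟨A, B, rfl, Steps.refl' _, Steps.refl' _⟩
  | tail _ h ih =>
    obtain ⟨A', B', rfl, h1, h2⟩ := ih
    cases h with
    | lamA _ h => exact ⟨_, _, rfl, h1.tail h, h2⟩
    | lamB _ h => exact ⟨_, _, rfl, h1, h2.tail h⟩

theorem Conv.sort_inj {s s' : S} (h : Conv (sort s) (sort s')) : s = s' := by
  obtain ⟨c, h1, h2⟩ := h.join
  rw [steps_sort h1] at h2
  have h3 := steps_sort h2
  exact Tm.sort.inj h3

theorem Conv.pi_inj {A B A' B' : Tm S} (h : Conv (Tm.pi A B) (Tm.pi A' B')) :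
    Conv A A' ∧ Conv B B' := by
  obtain ⟨c, h1, h2⟩ := h.join
  obtain ⟨X, Y, rfl, h3, h4⟩ := steps_pi h1
  obtain ⟨X', Y', h5, h6, h7⟩ := steps_pi h2
  injection h5 with h5 h5'
  subst h5 h5'
  exact ⟨Conv.trans' (Conv.of_steps h3) (Conv.symm' (Conv.of_steps h6)),
    Conv.trans' (Conv.of_steps h4) (Conv.symm' (Conv.of_steps h7))⟩

theorem Conv.pi_sort {A B : Tm S} {s : S} (h : Conv (Tm.pi A B) (sort s)) : False := by
  obtain ⟨c, h1, h2⟩ := h.join
  obtain ⟨X, Y, rfl, _, _⟩ := steps_pi h1
  have := steps_sort h2
  cases this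

/-- If a term converts to a sort, it reduces to it. -/
theorem Conv.to_sort {t : Tm S} {s : S} (h : Conv t (sort s)) : Steps t (sort s) := by
  obtain ⟨c, h1, h2⟩ := h.join
  rw [steps_sort h2] at h1
  exact h1

/-! ### Strong normalization -/

/-- Strong normalization as an accessibility predicate. -/
def SN (t : Tm S) : Prop := Acc (fun a b => Step b a) t

theorem SN.intro {t : Tm S} (h : ∀ t', Step t t' → SN t') : SN t := Acc.intro _ h

theorem SN.step {t t' : Tm S} (h : SN t) (hs : Step t t') : SN t' := Acc.inv h hs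

theorem SN.steps {t t' : Tm S} (h : SN t) (hs : Steps t t') : SN t' := by
  induction hs with
  | refl => exact h
  | tail _ hs ih => exact ih.step hs

theorem SN.toTerm {t : Tm S} (h : SN t) : SNterm t := by
  suffices H : ∀ f : ℕ → Tm S, f 0 = t → (∀ i, Step (f i) (f (i + 1))) → False by
    rintro ⟨f, h0, hf⟩
    exact H f h0 hf
  induction h with
  | intro t _ ih =>
    intro f h0 hf
    refine ih (f 1) (by rw [← h0]; exact hf 0) (fun i => f (i + 1)) rfl (fun i => hf (i + 1))

theorem SN.var (i : ℕ) : SN (var i : Tm S) := SN.intro (fun _ h => by cases h)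

theorem SN.sort (s : S) : SN (sort s) := SN.intro (fun _ h => by cases h)

theorem SN.of_rename {ξ : ℕ → ℕ} {t : Tm S} (h : SN (rename ξ t)) : SN t := by
  generalize hu : rename ξ t = u at h
  induction h generalizing t with
  | intro u _ ih =>
    refine SN.intro (fun t' ht' => ?_)
    subst hu
    exact ih _ (Step.rename ξ ht') rfl

theorem SN.of_shift {t : Tm S} (h : SN (shift t)) : SN t := SN.of_rename h

theorem SN.rename (ξ : ℕ → ℕ) {t : Tm S} (h : SN t) : SN (rename ξ t) := by
  have key : ∀ (ξ : ℕ → ℕ) (t t' : Tm S), Step (Tm.rename ξ t) t' →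
      ∃ t'', Step t t'' ∧ t' = Tm.rename ξ t'' := by
    intro ξ t
    induction t generalizing ξ with
    | var i => intro t' h; cases h
    | sort s => intro t' h; cases h
    | app a b iha ihb =>
      intro t' h
      cases a with
      | lam A M =>
        cases h with
        | beta => exact ⟨_, Step.beta _ _ _, (rename_open _ _ _).symm⟩
        | appL _ h =>
          obtain ⟨x, hx, rfl⟩ := iha ξ _ h
          exact ⟨_, Step.appL _ hx, rfl⟩
        | appR _ h =>
          obtain ⟨x, hx, rfl⟩ := ihb ξ _ h
          exact ⟨_, Step.appR _ hx, rfl⟩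
      | var i =>
        cases h with
        | appL _ h =>
          obtain ⟨x, hx, rfl⟩ := iha ξ _ h
          exact ⟨_, Step.appL _ hx, rfl⟩
        | appR _ h =>
          obtain ⟨x, hx, rfl⟩ := ihb ξ _ h
          exact ⟨_, Step.appR _ hx, rfl⟩
      | sort i =>
        cases h with
        | appL _ h =>
          obtain ⟨x, hx, rfl⟩ := iha ξ _ h
          exact ⟨_, Step.appL _ hx, rfl⟩
        | appR _ h =>
          obtain ⟨x, hx, rfl⟩ := ihb ξ _ h
          exact ⟨_, Step.appR _ hx, rfl⟩
      | app c d =>
        cases h with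
        | appL _ h =>
          obtain ⟨x, hx, rfl⟩ := iha ξ _ h
          exact ⟨_, Step.appL _ hx, rfl⟩
        | appR _ h =>
          obtain ⟨x, hx, rfl⟩ := ihb ξ _ h
          exact ⟨_, Step.appR _ hx, rfl⟩
      | pi c d =>
        cases h with
        | appL _ h =>
          obtain ⟨x, hx, rfl⟩ := iha ξ _ h
          exact ⟨_, Step.appL _ hx, rfl⟩
        | appR _ h =>
          obtain ⟨x, hx, rfl⟩ := ihb ξ _ h
          exact ⟨_, Step.appR _ hx, rfl⟩
    | lam A b ihA ihb =>
      intro t' h
      cases h with
      | lamA _ h =>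
        obtain ⟨x, hx, rfl⟩ := ihA ξ _ h
        exact ⟨_, Step.lamA _ hx, rfl⟩
      | lamB _ h =>
        obtain ⟨x, hx, rfl⟩ := ihb (upr ξ) _ h
        exact ⟨_, Step.lamB _ hx, rfl⟩
    | pi A b ihA ihb =>
      intro t' h
      cases h with
      | piA _ h =>
        obtain ⟨x, hx, rfl⟩ := ihA ξ _ h
        exact ⟨_, Step.piA _ hx, rfl⟩
      | piB _ h =>
        obtain ⟨x, hx, rfl⟩ := ihb (upr ξ) _ h
        exact ⟨_, Step.piB _ hx, rfl⟩
  induction h with
  | intro t _ ih =>
    refine SN.intro (fun t' ht' => ?_)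
    obtain ⟨t'', h1, rfl⟩ := key ξ t t' ht'
    exact ih _ h1

theorem SN.shift {t : Tm S} (h : SN t) : SN (shift t) := SN.rename _ h

theorem SN.of_subst {σ : ℕ → Tm S} {t : Tm S} (h : SN (subst σ t)) : SN t := by
  generalize hu : subst σ t = u at h
  induction h generalizing t with
  | intro u _ ih =>
    refine SN.intro (fun t' ht' => ?_)
    subst hu
    exact ih _ (Step.subst σ ht') rfl

theorem SN.appl {a b : Tm S} (h : SN (app a b)) : SN a := by
  generalize hu : app a b = u at h
  induction h generalizing a with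
  | intro u _ ih =>
    refine SN.intro (fun t' ht' => ?_)
    subst hu
    exact ih _ (Step.appL b ht') rfl

theorem SN.appr {a b : Tm S} (h : SN (app a b)) : SN b := by
  generalize hu : app a b = u at h
  induction h generalizing b with
  | intro u _ ih =>
    refine SN.intro (fun t' ht' => ?_)
    subst hu
    exact ih _ (Step.appR a ht') rfl

theorem SN.lamA {a b : Tm S} (h : SN (lam a b)) : SN a := by
  generalize hu : lam a b = u at h
  induction h generalizing a with
  | intro u _ ih =>
    refine SN.intro (fun t' ht' => ?_)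
    subst hu
    exact ih _ (Step.lamA b ht') rfl

theorem SN.lamB {a b : Tm S} (h : SN (lam a b)) : SN b := by
  generalize hu : lam a b = u at h
  induction h generalizing b with
  | intro u _ ih =>
    refine SN.intro (fun t' ht' => ?_)
    subst hu
    exact ih _ (Step.lamB a ht') rfl

theorem SN.piA {a b : Tm S} (h : SN (pi a b)) : SN a := by
  generalize hu : pi a b = u at h
  induction h generalizing a with
  | intro u _ ih =>
    refine SN.intro (fun t' ht' => ?_)
    subst hu
    exact ih _ (Step.piA b ht') rfl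

theorem SN.piB {a b : Tm S} (h : SN (pi a b)) : SN b := by
  generalize hu : pi a b = u at h
  induction h generalizing b with
  | intro u _ ih =>
    refine SN.intro (fun t' ht' => ?_)
    subst hu
    exact ih _ (Step.piB a ht') rfl

theorem SN.lam {A b : Tm S} (hA : SN A) (hb : SN b) : SN (lam A b) := by
  induction hA generalizing b with
  | intro A _ ihA =>
    induction hb with
    | intro b hb' ihb =>
      refine SN.intro (fun t' ht' => ?_)
      cases ht' with
      | lamA _ h => exact ihA _ h (Acc.intro _ hb')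
      | lamB _ h => exact ihb _ h

theorem SN.pi {A b : Tm S} (hA : SN A) (hb : SN b) : SN (pi A b) := by
  induction hA generalizing b with
  | intro A _ ihA =>
    induction hb with
    | intro b hb' ihb =>
      refine SN.intro (fun t' ht' => ?_)
      cases ht' with
      | piA _ h => exact ihA _ h (Acc.intro _ hb')
      | piB _ h => exact ihb _ h

/-- If `x` occurs in `t`, strong normalization of `subst σ t` gives that of `σ x`. -/
theorem SN.of_occurs {σ : ℕ → Tm S} {x : ℕ} {t : Tm S} (hx : Occurs x t) (h : SN (subst σ t)) :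
    SN (σ x) := by
  induction t generalizing σ x with
  | var i => simp only [occurs_var] at hx; subst hx; exact h
  | sort s => exact hx.elim
  | app a b iha ihb =>
    rcases hx with hx | hx
    · exact iha hx h.appl
    · exact ihb hx h.appr
  | lam A b ihA ihb =>
    rcases hx with hx | hx
    · exact ihA hx h.lamA
    · exact (ihb hx h.lamB).of_shift
  | pi A b ihA ihb =>
    rcases hx with hx | hx
    · exact ihA hx h.piA
    · exact (ihb hx h.piB).of_shift

/-! ### Head reduction -/

/-- One step of head reduction (no reduction under binders or in arguments). -/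
inductive HS : Tm S → Tm S → Prop
  | beta (A M N : Tm S) : HS (app (lam A M) N) (open_ M N)
  | app {a a' : Tm S} (b : Tm S) : HS a a' → HS (app a b) (app a' b)

theorem HS.step {a b : Tm S} (h : HS a b) : Step a b := by
  induction h with
  | beta A M N => exact Step.beta A M N
  | app b _ ih => exact Step.appL b ih

theorem HS.det {a b c : Tm S} (h : HS a b) (h' : HS a c) : b = c := by
  induction h generalizing c with
  | beta A M N =>
    cases h' with
    | beta => rfl
    | app _ h => cases h
  | app b h ih =>
    cases h' with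
    | beta => cases h
    | app _ h' => rw [ih h']

theorem HS.rename (ξ : ℕ → ℕ) {a b : Tm S} (h : HS a b) : HS (rename ξ a) (rename ξ b) := by
  induction h with
  | beta A M N =>
    simp only [rename_app, rename_lam, rename_open]
    exact HS.beta _ _ _
  | app b _ ih => exact HS.app _ ih

theorem HS.subst (σ : ℕ → Tm S) {a b : Tm S} (h : HS a b) : HS (subst σ a) (subst σ b) := by
  induction h with
  | beta A M N =>
    simp only [subst_app, subst_lam, subst_open]
    exact HS.beta _ _ _
  | app b _ ih => exact HS.app _ ih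

theorem step_to_lam {a A M : Tm S} (h : Step a (lam A M)) :
    HS a (lam A M) ∨ ∃ A₀ M₀, a = lam A₀ M₀ ∧ Steps M₀ M := by
  generalize ht : lam A M = t at h
  cases h with
  | beta A' M' N => rw [← ht]; exact Or.inl (ht ▸ HS.beta _ _ _)
  | appL _ _ => cases ht
  | appR _ _ => cases ht
  | lamA _ _ =>
    cases ht
    exact Or.inr ⟨_, _, rfl, Steps.refl' _⟩
  | lamB _ h =>
    cases ht
    exact Or.inr ⟨_, _, rfl, Steps.of_step h⟩
  | piA _ _ => cases ht
  | piB _ _ => cases ht

/-- A step followed by a head step commutes to a head step followed by steps. -/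
theorem HS.commute {s s' u : Tm S} (hs : Step s s') (h : HS s' u) :
    HS s s' ∨ ∃ v, HS s v ∧ Steps v u := by
  induction hs generalizing u with
  | beta A M N => exact Or.inl (HS.beta _ _ _)
  | appL b hs ih =>
    cases h with
    | beta A M N =>
      rcases step_to_lam hs with h1 | ⟨A₀, M₀, rfl, h1⟩
      · exact Or.inl (HS.app _ h1)
      · exact Or.inr ⟨_, HS.beta _ _ _, Steps.subst _ h1⟩
    | app _ h =>
      rcases ih h with h1 | ⟨v, h1, h2⟩
      · exact Or.inl (HS.app _ h1)
      · exact Or.inr ⟨_, HS.app _ h1, Steps.appL _ h2⟩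
  | appR a hs ih =>
    cases h with
    | beta A M N =>
      exact Or.inr ⟨_, HS.beta _ _ _, Steps.open_arg _ (Steps.of_step hs)⟩
    | app _ h =>
      exact Or.inr ⟨_, HS.app _ h, Steps.appR _ (Steps.of_step hs)⟩
  | lamA _ _ _ => cases h
  | lamB _ _ _ => cases h
  | piA _ _ _ => cases h
  | piB _ _ _ => cases h

/-- The basic criterion for an application to be strongly normalizing. -/
theorem SN.app_of {a b : Tm S} (ha : SN a) (hb : SN b) (h : ∀ u, HS (app a b) u → SN u) :
    SN (app a b) := by
  have pres : ∀ s s' : Tm S, Step s s' → (∀ u, HS s u → SN u) → ∀ u, HS s' u → SN u := by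
    intro s s' hs h u hu
    rcases HS.commute hs hu with h1 | ⟨v, h1, h2⟩
    · exact (h _ h1).step hu.step
    · exact (h _ h1).steps h2
  induction ha generalizing b with
  | intro a _ iha =>
    induction hb with
    | intro b hb' ihb =>
      refine SN.intro (fun t' ht' => ?_)
      cases ht' with
      | beta A M N => exact h _ (HS.beta _ _ _)
      | appL _ hs => exact iha _ hs (Acc.intro _ hb') (pres _ _ (Step.appL _ hs) h)
      | appR _ hs => exact ihb _ hs (pres _ _ (Step.appR _ hs) h)

/-- The head redex of a term. -/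
inductive HRedex : Tm S → Tm S → Tm S → Tm S → Prop
  | here (A M N : Tm S) : HRedex (app (lam A M) N) A M N
  | there {a A M N : Tm S} (b : Tm S) : HRedex a A M N → HRedex (app a b) A M N

/-- Head expansion. -/
theorem SN.of_HS {t t' : Tm S} (h : HS t t') (ht' : SN t')
    (hr : ∀ A M N, HRedex t A M N → SN A ∧ SN N) : SN t := by
  induction h with
  | beta A M N =>
    obtain ⟨h1, h2⟩ := hr _ _ _ (HRedex.here _ _ _)
    refine SN.app_of (SN.lam h1 (SN.of_subst ht')) h2 ?_
    intro u hu
    rwa [HS.det hu (HS.beta _ _ _)]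
  | app b h ih =>
    have h1 : SN _ := ih ht'.appl (fun A M N hh => hr A M N (HRedex.there _ hh))
    refine SN.app_of h1 ht'.appr ?_
    intro u hu
    rwa [HS.det hu (HS.app _ h)]

end Tm
end Vale.Agent.Lib.P340
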