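import Vale.Agent.Lib.P340.CpsType

/-!
The continuation passing transform as a syntactic relation, with memory.
`Run j ρ ξ M K W` says that `W` runs the source term `M` with continuation `K`. The annotations in
`W` are arbitrary, and arguments of higher tier are not related to their translations.
-/

namespace Vale.Agent.Lib.P340
open Tm

variable {n : ℕ}

/-- The transform. The scope of `M` has ranks `ρ`; `ξ` sends the variables of `M` to the variables
of `W`. -/
inductive Run (j : ℕ) : (ℕ → ℕ) → (ℕ → ℕ) → Tm (Fin n) → Tm (Fin n) → Tm (Fin n) → Prop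
  | var {ρ ξ : ℕ → ℕ} {x : ℕ} {K : Tm (Fin n)} :
      ρ x = j + 1 → Run j ρ ξ (var x) K (app (var (ξ x)) K)
  | sort {ρ ξ : ℕ → ℕ} {s : Fin n} {K X : Tm (Fin n)} : Run j ρ ξ (sort s) K (app K X)
  | lamT {ρ ξ : ℕ → ℕ} {A P K A' H C W : Tm (Fin n)} : rk ρ A = j + 2 →
      Run j (cons (j + 1) ρ) (Nat.succ ∘ upr ξ) P (var 0) W →
      Run j ρ ξ (lam A P) K (app K (lam A' (lam H (app (app C (var 1)) W))))
  | lamU {ρ ξ : ℕ → ℕ} {A P K A' H W : Tm (Fin n)} : j + 2 < rk ρ A →
      Run j (cons (rk ρ A - 1) ρ) (Nat.succ ∘ upr ξ) P (var 0) W →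
      Run j ρ ξ (lam A P) K (app K (lam A' (lam H W)))
  | piT {ρ ξ : ℕ → ℕ} {A B K A' G G' W : Tm (Fin n)} : rk ρ A = j + 1 →
      Run j ρ ξ A (lam G' (var 0)) A' →
      Run j (cons (rk ρ A - 1) ρ) (upr ξ) B (lam G (var 0)) W →
      Run j ρ ξ (pi A B) K (app K (pi A' W))
  | piU {ρ ξ : ℕ → ℕ} {A B K A' G W : Tm (Fin n)} : rk ρ A ≠ j + 1 →
      Run j (cons (rk ρ A - 1) ρ) (upr ξ) B (lam G (var 0)) W →
      Run j ρ ξ (pi A B) K (app K (pi A' W))
  | appT {ρ ξ : ℕ → ℕ} {M N K F V G WN W : Tm (Fin n)} : rk ρ N = j + 1 →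
      Steps V (lam G WN) →
      Run j ρ (Nat.succ ∘ ξ) N (var 0) WN →
      Run j ρ ξ M (lam F (app (app (var 0) (shift V)) (shift K))) W →
      Run j ρ ξ (app M N) K W
  | appU {ρ ξ : ℕ → ℕ} {M N K F U W : Tm (Fin n)} : j + 1 < rk ρ N →
      Run j ρ ξ M (lam F (app (app (var 0) (shift U)) (shift K))) W →
      Run j ρ ξ (app M N) K W
  | mem {ρ ξ : ℕ → ℕ} {M K C a W : Tm (Fin n)} :
      Run j ρ ξ M K W → Run j ρ ξ M K (app (app C a) W)

variable {j : ℕ}

/-- The continuation occurs in the result. -/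
theorem Run.occurs {ρ ξ : ℕ → ℕ} {M K W : Tm (Fin n)} (h : Run j ρ ξ M K W) :
    ∀ {x : ℕ}, Occurs x K → Occurs x W := by
  induction h with
  | var _ => intro x hx; exact Or.inr hx
  | sort => intro x hx; exact Or.inl hx
  | lamT _ _ _ => intro x hx; exact Or.inl hx
  | lamU _ _ _ => intro x hx; exact Or.inl hx
  | piT _ _ _ _ _ => intro x hx; exact Or.inl hx
  | piU _ _ _ => intro x hx; exact Or.inl hx
  | appT _ _ _ _ _ ih =>
    intro x hx
    exact ih (Or.inr (Or.inr (occurs_shift hx)))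
  | appU _ _ ih =>
    intro x hx
    exact ih (Or.inr (Or.inr (occurs_shift hx)))
  | mem _ ih => intro x hx; exact Or.inr (ih hx)

/-- Target substitutions keeping the images of the tier `j` variables variables. -/
theorem Run.tsubst {ρ ξ : ℕ → ℕ} {M K W : Tm (Fin n)} (h : Run j ρ ξ M K W) :
    ∀ {τ : ℕ → Tm (Fin n)} {ξ' : ℕ → ℕ}, (∀ x, ρ x = j + 1 → τ (ξ x) = Tm.var (ξ' x)) →
      Run j ρ ξ' M (subst τ K) (subst τ W) := by
  induction h with
  | @var ρ ξ x K hx =>
    intro τ ξ' ht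
    simp only [subst_app, subst_var']
    rw [ht x hx]
    exact Run.var hx
  | sort =>
    intro τ ξ' _
    exact Run.sort
  | @lamT ρ ξ A P K A' H C W hA _ ih =>
    intro τ ξ' ht
    refine Run.lamT hA ?_
    refine ih (τ := ups (ups τ)) (ξ' := Nat.succ ∘ upr ξ') ?_
    intro x hx
    cases x with
    | zero => rfl
    | succ x =>
      simp only [Function.comp, upr_succ, ups_succ]
      rw [ht x hx]
      rfl
  | @lamU ρ ξ A P K A' H W hA _ ih =>
    intro τ ξ' ht
    refine Run.lamU hA ?_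
    refine ih (τ := ups (ups τ)) (ξ' := Nat.succ ∘ upr ξ') ?_
    intro x hx
    cases x with
    | zero => rfl
    | succ x =>
      simp only [Function.comp, upr_succ, ups_succ]
      rw [ht x hx]
      rfl
  | @piT ρ ξ A B K A' G G' W hA _ _ ih1 ih2 =>
    intro τ ξ' ht
    refine Run.piT (G := Tm.subst (ups τ) G) hA (ih1 ht) ?_
    refine ih2 (τ := ups τ) (ξ' := upr ξ') ?_
    intro x hx
    cases x with
    | zero => rfl
    | succ x =>
      simp only [upr_succ, ups_succ]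
      rw [ht x hx]
      rfl
  | @piU ρ ξ A B K A' G W hA _ ih2 =>
    intro τ ξ' ht
    refine Run.piU (G := Tm.subst (ups τ) G) hA ?_
    refine ih2 (τ := ups τ) (ξ' := upr ξ') ?_
    intro x hx
    cases x with
    | zero => rfl
    | succ x =>
      simp only [upr_succ, ups_succ]
      rw [ht x hx]
      rfl
  | @appT ρ ξ M N K F V G WN W hN hV _ _ ih1 ih2 =>
    intro τ ξ' ht
    have h1 := ih2 ht
    simp only [subst_lam, subst_app, subst_shift] at h1
    refine Run.appT (G := Tm.subst τ G) (WN := Tm.subst (ups τ) WN) hN ?_ ?_ h1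
    · exact Steps.subst τ hV
    · refine ih1 (τ := ups τ) (ξ' := Nat.succ ∘ ξ') ?_
      intro x hx
      simp only [Function.comp, ups_succ]
      rw [ht x hx]
      rfl
  | @appU ρ ξ M N K F U W hN _ ih =>
    intro τ ξ' ht
    have h1 := ih ht
    simp only [subst_lam, subst_app, subst_shift] at h1
    exact Run.appU hN h1
  | mem _ ih =>
    intro τ ξ' ht
    exact Run.mem (ih ht)

theorem Run.trename {ρ ξ : ℕ → ℕ} {M K W : Tm (Fin n)} (h : Run j ρ ξ M K W) (ζ : ℕ → ℕ) :
    Run j ρ (ζ ∘ ξ) M (rename ζ K) (rename ζ W) := by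
  rw [rename_eq_subst, rename_eq_subst]
  exact h.tsubst (fun _ _ => rfl)

/-- Source renamings. -/
theorem Run.srename {ρ ξ : ℕ → ℕ} {M K W : Tm (Fin n)} (h : Run j ρ ξ M K W) :
    ∀ {θ ρ₂ ξ₂ : ℕ → ℕ}, (∀ x, ρ₂ (θ x) = ρ x) → (∀ x, ξ₂ (θ x) = ξ x) →
      Run j ρ₂ ξ₂ (rename θ M) K W := by
  have hup : ∀ {a : ℕ} {θ ρ₂ ρ : ℕ → ℕ}, (∀ x, ρ₂ (θ x) = ρ x) →
      ∀ x, cons a ρ₂ (upr θ x) = cons a ρ x := by
    intro a θ ρ₂ ρ h x
    cases x with
    | zero => rfl
    | succ x => exact h x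
  induction h with
  | @var ρ ξ x K hx =>
    intro θ ρ₂ ξ₂ h1 h2
    simp only [rename_var]
    rw [← h2 x]
    exact Run.var (by rw [h1 x]; exact hx)
  | sort =>
    intro θ ρ₂ ξ₂ _ _
    exact Run.sort
  | @lamT ρ ξ A P K A' H C W hA _ ih =>
    intro θ ρ₂ ξ₂ h1 h2
    have e : ρ₂ ∘ θ = ρ := funext h1
    refine Run.lamT (by rw [rk_rename, e]; exact hA) ?_
    refine ih (hup h1) ?_
    intro x
    cases x with
    | zero => rfl
    | succ x => simp [h2 x]
  | @lamU ρ ξ A P K A' H W hA _ ih =>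
    intro θ ρ₂ ξ₂ h1 h2
    have e : ρ₂ ∘ θ = ρ := funext h1
    refine Run.lamU (by rw [rk_rename, e]; exact hA) ?_
    rw [rk_rename, e]
    refine ih (hup h1) ?_
    intro x
    cases x with
    | zero => rfl
    | succ x => simp [h2 x]
  | @piT ρ ξ A B K A' G G' W hA _ _ ih1 ih2 =>
    intro θ ρ₂ ξ₂ h1 h2
    have e : ρ₂ ∘ θ = ρ := funext h1
    refine Run.piT (G := G) (by rw [rk_rename, e]; exact hA) (ih1 h1 h2) ?_
    rw [rk_rename, e]
    refine ih2 (hup h1) ?_
    intro x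
    cases x with
    | zero => rfl
    | succ x => simp [h2 x]
  | @piU ρ ξ A B K A' G W hA _ ih2 =>
    intro θ ρ₂ ξ₂ h1 h2
    have e : ρ₂ ∘ θ = ρ := funext h1
    refine Run.piU (G := G) (by rw [rk_rename, e]; exact hA) ?_
    rw [rk_rename, e]
    refine ih2 (hup h1) ?_
    intro x
    cases x with
    | zero => rfl
    | succ x => simp [h2 x]
  | @appT ρ ξ M N K F V G WN W hN hV _ _ ih1 ih2 =>
    intro θ ρ₂ ξ₂ h1 h2
    have e : ρ₂ ∘ θ = ρ := funext h1
    refine Run.appT (by rw [rk_rename, e]; exact hN) hV ?_ (ih2 h1 h2)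
    refine ih1 h1 ?_
    intro x
    simp [h2 x]
  | @appU ρ ξ M N K F U W hN _ ih =>
    intro θ ρ₂ ξ₂ h1 h2
    have e : ρ₂ ∘ θ = ρ := funext h1
    exact Run.appU (by rw [rk_rename, e]; exact hN) (ih h1 h2)
  | mem _ ih =>
    intro θ ρ₂ ξ₂ h1 h2
    exact Run.mem (ih h1 h2)

/-- What may replace a tier `j` variable of the target: a variable for a variable, or something
reducing to a thunk of the source term. -/
def Thunk (j : ℕ) (ρ ξ : ℕ → ℕ) (N V : Tm (Fin n)) : Prop :=
  (∃ y, N = var y ∧ V = var (ξ y) ∧ ρ y = j + 1) ∨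
    ∃ G W, Steps V (lam G W) ∧ Run j ρ (Nat.succ ∘ ξ) N (var 0) W

theorem Thunk.rename {ρ ξ : ℕ → ℕ} {N V : Tm (Fin n)} (h : Thunk j ρ ξ N V)
    {θ ρ₂ ξ₂ ζ : ℕ → ℕ} (h1 : ∀ x, ρ₂ (θ x) = ρ x) (h2 : ∀ x, ξ₂ (θ x) = ζ (ξ x)) :
    Thunk j ρ₂ ξ₂ (Tm.rename θ N) (Tm.rename ζ V) := by
  rcases h with ⟨y, rfl, rfl, hy⟩ | ⟨G, W, hV, hW⟩
  · left
    exact ⟨θ y, rfl, by simp [h2 y], by rw [h1 y]; exact hy⟩
  · right
    refine ⟨Tm.rename ζ G, Tm.rename (upr ζ) W, Steps.rename ζ hV, ?_⟩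
    have h3 := hW.trename (upr ζ)
    refine h3.srename (θ := θ) h1 ?_
    intro x
    simp [h2 x]

theorem rk_ups {ρ ρ' : ℕ → ℕ} {σ : ℕ → Tm (Fin n)} (a : ℕ) (h : ∀ x, rk ρ' (σ x) = ρ x) :
    ∀ x, rk (cons a ρ') (ups σ x) = cons a ρ x := by
  intro x
  cases x with
  | zero => rfl
  | succ x => simp [h]

theorem shift_shift_eq (t : Tm (Fin n)) : shift (shift t) = Tm.rename (Nat.succ ∘ Nat.succ) t := by
  unfold shift
  rw [rename_rename]

/-- Lifting of the thunk hypothesis under an abstraction of the source: two new target variables. -/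
theorem thunk_lam {ρ ρ' ξ ξ' : ℕ → ℕ} {σ τ : ℕ → Tm (Fin n)} {a : ℕ} (ha : a = j + 1 → a = j + 1)
    (h : ∀ x, ρ x = j + 1 → Thunk j ρ' ξ' (σ x) (τ (ξ x))) :
    ∀ x, cons a ρ x = j + 1 →
      Thunk j (cons a ρ') (Nat.succ ∘ upr ξ') (ups σ x) (ups (ups τ) ((Nat.succ ∘ upr ξ) x)) := by
  intro x hx
  cases x with
  | zero =>
    left
    exact ⟨0, rfl, rfl, ha hx⟩
  | succ x =>
    have h1 := (h x hx).rename (θ := Nat.succ) (ρ₂ := cons a ρ') (ξ₂ := Nat.succ ∘ upr ξ')
      (ζ := Nat.succ ∘ Nat.succ) (fun _ => rfl) (fun _ => rfl)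
    simp only [Function.comp, upr_succ, ups_succ]
    rw [shift_shift_eq]
    exact h1

/-- Lifting of the thunk hypothesis under a product. -/
theorem thunk_pi {ρ ρ' ξ ξ' : ℕ → ℕ} {σ τ : ℕ → Tm (Fin n)} {a : ℕ}
    (h : ∀ x, ρ x = j + 1 → Thunk j ρ' ξ' (σ x) (τ (ξ x))) :
    ∀ x, cons a ρ x = j + 1 →
      Thunk j (cons a ρ') (upr ξ') (ups σ x) (ups τ (upr ξ x)) := by
  intro x hx
  cases x with
  | zero =>
    left
    exact ⟨0, rfl, rfl, hx⟩
  | succ x =>
    exact (h x hx).rename (θ := Nat.succ) (ρ₂ := cons a ρ') (ξ₂ := upr ξ')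
      (ζ := Nat.succ) (fun _ => rfl) (fun _ => rfl)

/-- Lifting of the thunk hypothesis under a continuation binder. -/
theorem thunk_cont {ρ ρ' ξ ξ' : ℕ → ℕ} {σ τ : ℕ → Tm (Fin n)}
    (h : ∀ x, ρ x = j + 1 → Thunk j ρ' ξ' (σ x) (τ (ξ x))) :
    ∀ x, ρ x = j + 1 →
      Thunk j ρ' (Nat.succ ∘ ξ') (σ x) (ups τ ((Nat.succ ∘ ξ) x)) := by
  intro x hx
  have h1 := (h x hx).rename (θ := id) (ρ₂ := ρ') (ξ₂ := Nat.succ ∘ ξ')
      (ζ := Nat.succ) (fun _ => rfl) (fun _ => rfl)
  rw [rename_id] at h1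
  exact h1

/-- The substitution lemma of the transform. -/
theorem Run.subst {ρ ξ : ℕ → ℕ} {M K W : Tm (Fin n)} (h : Run j ρ ξ M K W) :
    ∀ {ρ' ξ' : ℕ → ℕ} {σ τ : ℕ → Tm (Fin n)}, (∀ x, rk ρ' (σ x) = ρ x) →
      (∀ x, ρ x = j + 1 → Thunk j ρ' ξ' (σ x) (τ (ξ x))) →
      ∃ W', Steps (Tm.subst τ W) W' ∧ Run j ρ' ξ' (Tm.subst σ M) (Tm.subst τ K) W' := by
  induction h with
  | @var ρ ξ x K hx =>
    intro ρ' ξ' σ τ hr ht
    rcases ht x hx with ⟨y, h1, h2, h3⟩ | ⟨G, Wn, h1, h2⟩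
    · refine ⟨_, Steps.refl' _, ?_⟩
      simp only [subst_app, subst_var']
      rw [h1, h2]
      exact Run.var h3
    · refine ⟨open_ Wn (Tm.subst τ K), ?_, ?_⟩
      · simp only [subst_app, subst_var']
        exact Steps.trans' (Steps.appL _ h1) (Steps.of_step (Step.beta _ _ _))
      · refine h2.tsubst (τ := inst (Tm.subst τ K)) (ξ' := ξ') ?_
        intro x _
        rfl
  | sort =>
    intro ρ' ξ' σ τ _ _
    exact ⟨_, Steps.refl' _, Run.sort⟩
  | @lamT ρ ξ A P K A' H C W hA _ ih =>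
    intro ρ' ξ' σ τ hr ht
    obtain ⟨W₁, h1, h2⟩ := ih (ρ' := cons (j + 1) ρ') (ξ' := Nat.succ ∘ upr ξ')
      (σ := ups σ) (τ := ups (ups τ)) (rk_ups _ hr) (thunk_lam id ht)
    refine ⟨app (Tm.subst τ K) (lam (Tm.subst τ A') (lam (Tm.subst (ups τ) H)
      (app (app (Tm.subst (ups (ups τ)) C) (Tm.var 1)) W₁))), ?_, ?_⟩
    · exact Steps.appR _ (Steps.lamB _ (Steps.lamB _ (Steps.appR _ h1)))
    · exact Run.lamT (by rw [rk_subst hr]; exact hA) h2
  | @lamU ρ ξ A P K A' H W hA _ ih =>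
    intro ρ' ξ' σ τ hr ht
    obtain ⟨W₁, h1, h2⟩ := ih (ρ' := cons (rk ρ A - 1) ρ') (ξ' := Nat.succ ∘ upr ξ')
      (σ := ups σ) (τ := ups (ups τ)) (rk_ups _ hr) (thunk_lam id ht)
    refine ⟨app (Tm.subst τ K) (lam (Tm.subst τ A') (lam (Tm.subst (ups τ) H) W₁)), ?_, ?_⟩
    · exact Steps.appR _ (Steps.lamB _ (Steps.lamB _ h1))
    · refine Run.lamU (by rw [rk_subst hr]; exact hA) ?_
      rw [rk_subst hr]
      exact h2
  | @piT ρ ξ A B K A' G G' W hA _ _ ih1 ih2 =>
    intro ρ' ξ' σ τ hr ht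
    obtain ⟨A₁, h1, h2⟩ := ih1 hr ht
    obtain ⟨W₁, h3, h4⟩ := ih2 (ρ' := cons (rk ρ A - 1) ρ') (ξ' := upr ξ')
      (σ := ups σ) (τ := ups τ) (rk_ups _ hr) (thunk_pi ht)
    refine ⟨app (Tm.subst τ K) (pi A₁ W₁), ?_, ?_⟩
    · exact Steps.appR _ (Steps.pi h1 h3)
    · refine Run.piT (G := Tm.subst (ups τ) G) (by rw [rk_subst hr]; exact hA) h2 ?_
      rw [rk_subst hr]
      exact h4
  | @piU ρ ξ A B K A' G W hA _ ih2 =>
    intro ρ' ξ' σ τ hr ht
    obtain ⟨W₁, h3, h4⟩ := ih2 (ρ' := cons (rk ρ A - 1) ρ') (ξ' := upr ξ')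
      (σ := ups σ) (τ := ups τ) (rk_ups _ hr) (thunk_pi ht)
    refine ⟨app (Tm.subst τ K) (pi (Tm.subst τ A') W₁), ?_, ?_⟩
    · exact Steps.appR _ (Steps.piB _ h3)
    · refine Run.piU (G := Tm.subst (ups τ) G) (by rw [rk_subst hr]; exact hA) ?_
      rw [rk_subst hr]
      exact h4
  | @appT ρ ξ M N K F V G WN W hN hV _ _ ih1 ih2 =>
    intro ρ' ξ' σ τ hr ht
    obtain ⟨W₁, h1, h2⟩ := ih2 hr ht
    obtain ⟨W₂, h3, h4⟩ := ih1 (ρ' := ρ') (ξ' := Nat.succ ∘ ξ') (σ := σ) (τ := ups τ) hr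
      (thunk_cont ht)
    refine ⟨W₁, h1, ?_⟩
    simp only [subst_lam, subst_app, subst_shift] at h2
    refine Run.appT (G := Tm.subst τ G) (by rw [rk_subst hr]; exact hN) ?_ h4 h2
    exact Steps.trans' (Steps.subst τ hV) (Steps.lamB _ h3)
  | @appU ρ ξ M N K F U W hN _ ih =>
    intro ρ' ξ' σ τ hr ht
    obtain ⟨W₁, h1, h2⟩ := ih hr ht
    refine ⟨W₁, h1, ?_⟩
    simp only [subst_lam, subst_app, subst_shift] at h2
    exact Run.appU (by rw [rk_subst hr]; exact hN) h2
  | @mem ρ ξ M K C a W _ ih =>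
    intro ρ' ξ' σ τ hr ht
    obtain ⟨W₁, h1, h2⟩ := ih hr ht
    exact ⟨_, Steps.appR _ h1, Run.mem h2⟩

/-- The substitution obtained by opening twice. -/
def inst2 (K V : Tm (Fin n)) : ℕ → Tm (Fin n) := fun i => Tm.subst (inst K) (ups (inst V) i)

@[simp] theorem inst2_zero (K V : Tm (Fin n)) : inst2 K V 0 = K := rfl
@[simp] theorem inst2_one (K V : Tm (Fin n)) : inst2 K V 1 = V := by
  simp [inst2]
@[simp] theorem inst2_two (K V : Tm (Fin n)) (i : ℕ) : inst2 K V (i + 2) = var i := by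
  simp only [inst2, ups_succ, inst_succ]
  rfl

/-- The steps of a beta redex in the image of the transform. -/
theorem beta_steps (F V K A' H Body : Tm (Fin n)) :
    Relation.TransGen Step
      (app (lam F (app (app (var 0) (shift V)) (shift K))) (lam A' (lam H Body)))
      (Tm.subst (inst2 K V) Body) := by
  have e1 : open_ (app (app (var 0) (shift V)) (shift K)) (lam A' (lam H Body)) =
      app (app (lam A' (lam H Body)) V) K := by
    simp [open_]
  have h1 := Step.beta F (app (app (var 0) (shift V)) (shift K)) (lam A' (lam H Body))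
  rw [e1] at h1
  have h2 := Step.appL K (Step.beta A' (lam H Body) V)
  have e2 : open_ (lam H Body) V = lam (Tm.subst (inst V) H) (Tm.subst (ups (inst V)) Body) := rfl
  rw [e2] at h2
  have h3 := Step.beta (Tm.subst (inst V) H) (Tm.subst (ups (inst V)) Body) K
  have e3 : open_ (Tm.subst (ups (inst V)) Body) K = Tm.subst (inst2 K V) Body := by
    unfold open_
    rw [subst_subst]
    rfl
  rw [e3] at h3
  exact (Relation.TransGen.single h1).tail h2 |>.tail h3

theorem plus_appR (c : Tm (Fin n)) {a b : Tm (Fin n)} (h : Relation.TransGen Step a b) :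
    Relation.TransGen Step (app c a) (app c b) := by
  induction h with
  | single h => exact Relation.TransGen.single (Step.appR _ h)
  | tail _ h ih => exact ih.tail (Step.appR _ h)

/-- A redex in the source is simulated by at least one step. -/
theorem run_beta {ρ ξ : ℕ → ℕ} {M₀ K₁ W : Tm (Fin n)} (h : Run j ρ ξ M₀ K₁ W) :
    ∀ {A P F V K N : Tm (Fin n)}, M₀ = lam A P →
      K₁ = lam F (app (app (var 0) (shift V)) (shift K)) → rk ρ N = rk ρ A - 1 →
      (rk ρ N = j + 1 → ∃ G WN, Steps V (lam G WN) ∧ Run j ρ (Nat.succ ∘ ξ) N (var 0) WN) →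
      ∃ W₁, Relation.TransGen Step W W₁ ∧ Run j ρ ξ (open_ P N) K W₁ := by
  induction h with
  | var _ => intro A P F V K N hM; cases hM
  | sort => intro A P F V K N hM; cases hM
  | piT _ _ _ _ _ => intro A P F V K N hM; cases hM
  | piU _ _ _ => intro A P F V K N hM; cases hM
  | appT _ _ _ _ _ _ => intro A P F V K N hM; cases hM
  | appU _ _ _ => intro A P F V K N hM; cases hM
  | @lamT ρ ξ A₀ P₀ K₀ A' H C W hA hW _ =>
    intro A P F V K N hM hK hr hth
    cases hM
    subst hK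
    have hrN : rk ρ N = j + 1 := by omega
    obtain ⟨G, WN, h1, h2⟩ := hth hrN
    obtain ⟨W', h3, h4⟩ := hW.subst (ρ' := ρ) (ξ' := ξ) (σ := inst N) (τ := inst2 K V)
      (rk_inst _ _ _ hrN)
      (by
        intro x hx
        cases x with
        | zero =>
          right
          refine ⟨G, WN, ?_, h2⟩
          have e : inst2 K V ((Nat.succ ∘ upr ξ) 0) = V := inst2_one K V
          rw [e]
          exact h1
        | succ x =>
          left
          refine ⟨x, rfl, ?_, hx⟩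
          simp [upr_succ])
    refine ⟨app (app (Tm.subst (inst2 K V) C) V) W', ?_, Run.mem h4⟩
    have h5 := beta_steps F V K A' H (app (app C (var 1)) W)
    have e : Tm.subst (inst2 K V) (app (app C (var 1)) W) =
        app (app (Tm.subst (inst2 K V) C) V) (Tm.subst (inst2 K V) W) := by
      simp
    rw [e] at h5
    exact h5.trans_left (Steps.appR _ h3)
  | @lamU ρ ξ A₀ P₀ K₀ A' H W hA hW _ =>
    intro A P F V K N hM hK hr _
    cases hM
    subst hK
    obtain ⟨W', h3, h4⟩ := hW.subst (ρ' := ρ) (ξ' := ξ) (σ := inst N) (τ := inst2 K V)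
      (rk_inst _ _ _ hr)
      (by
        intro x hx
        cases x with
        | zero =>
          simp only [cons_zero] at hx
          omega
        | succ x =>
          left
          refine ⟨x, rfl, ?_, hx⟩
          simp [upr_succ])
    exact ⟨W', (beta_steps F V K A' H W).trans_left h3, h4⟩
  | @mem ρ ξ M₀ K₁ C a W _ ih =>
    intro A P F V K N hM hK hr hth
    obtain ⟨W₁, h1, h2⟩ := ih hM hK hr hth
    refine ⟨app (app C a) W₁, ?_, Run.mem h2⟩
    exact plus_appR _ h1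

variable {R : Fin n → Fin n → Prop}

/-- Head reduction of typed source terms is simulated. -/
theorem Run.head {ρ ξ : ℕ → ℕ} {M K W : Tm (Fin n)} (h : Run j ρ ξ M K W) :
    ∀ {Γ : List (Tm (Fin n))} {M₁ T : Tm (Fin n)}, Wf R Γ → Fit R ρ Γ → Ty R Γ M T → HS M M₁ →
      ∃ W₁, Relation.TransGen Step W W₁ ∧ Run j ρ ξ M₁ K W₁ := by
  induction h with
  | var _ => intro Γ M₁ T _ _ _ hs; cases hs
  | sort => intro Γ M₁ T _ _ _ hs; cases hs
  | lamT _ _ _ => intro Γ M₁ T _ _ _ hs; cases hs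
  | lamU _ _ _ => intro Γ M₁ T _ _ _ hs; cases hs
  | piT _ _ _ _ _ => intro Γ M₁ T _ _ _ hs; cases hs
  | piU _ _ _ => intro Γ M₁ T _ _ _ hs; cases hs
  | @appT ρ ξ M N K F V G WN W hN hV hWN hM _ ih =>
    intro Γ M₁ T hw hf ht hs
    cases hs with
    | beta A P N =>
      exact run_beta hM rfl rfl (redex_rank hw hf ht) (fun _ => ⟨G, WN, hV, hWN⟩)
    | app _ hs =>
      obtain ⟨_, _, h1, _, _⟩ := gen_app ht
      obtain ⟨W₁, h2, h3⟩ := ih hw hf h1 hs
      exact ⟨W₁, h2, Run.appT hN hV hWN h3⟩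
  | @appU ρ ξ M N K F U W hN hM ih =>
    intro Γ M₁ T hw hf ht hs
    cases hs with
    | beta A P N =>
      refine run_beta hM rfl rfl (redex_rank hw hf ht) (fun h => ?_)
      omega
    | app _ hs =>
      obtain ⟨_, _, h1, _, _⟩ := gen_app ht
      obtain ⟨W₁, h2, h3⟩ := ih hw hf h1 hs
      exact ⟨W₁, h2, Run.appU hN h3⟩
  | @mem ρ ξ M K C a W _ ih =>
    intro Γ M₁ T hw hf ht hs
    obtain ⟨W₁, h1, h2⟩ := ih hw hf ht hs
    refine ⟨app (app C a) W₁, ?_, Run.mem h2⟩
    exact plus_appR _ h1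

/-! ### Strong normalization back from the image -/

/-- Immediate subterms. -/
inductive ImmSub {S : Type} : Tm S → Tm S → Prop
  | appL (a b : Tm S) : ImmSub a (app a b)
  | appR (a b : Tm S) : ImmSub b (app a b)
  | lamA (a b : Tm S) : ImmSub a (lam a b)
  | lamB (a b : Tm S) : ImmSub b (lam a b)
  | piA (a b : Tm S) : ImmSub a (pi a b)
  | piB (a b : Tm S) : ImmSub b (pi a b)

/-- Reducts and immediate subterms. -/
def Below {S : Type} (u W : Tm S) : Prop := Step W u ∨ ImmSub u W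

theorem ctx_step {S : Type} {u W x : Tm S} (h : Relation.ReflTransGen ImmSub u W) (hs : Step u x) :
    ∃ W', Step W W' ∧ Relation.ReflTransGen ImmSub x W' := by
  induction h with
  | refl => exact ⟨x, hs, Relation.ReflTransGen.refl⟩
  | tail _ h ih =>
    obtain ⟨v', h1, h2⟩ := ih
    cases h with
    | appL a b => exact ⟨_, Step.appL _ h1, h2.tail (ImmSub.appL _ _)⟩
    | appR a b => exact ⟨_, Step.appR _ h1, h2.tail (ImmSub.appR _ _)⟩
    | lamA a b => exact ⟨_, Step.lamA _ h1, h2.tail (ImmSub.lamA _ _)⟩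
    | lamB a b => exact ⟨_, Step.lamB _ h1, h2.tail (ImmSub.lamB _ _)⟩
    | piA a b => exact ⟨_, Step.piA _ h1, h2.tail (ImmSub.piA _ _)⟩
    | piB a b => exact ⟨_, Step.piB _ h1, h2.tail (ImmSub.piB _ _)⟩

theorem acc_below_aux {S : Type} {W : Tm S} (h : SN W) :
    ∀ u, Relation.ReflTransGen ImmSub u W → Acc Below u := by
  induction h with
  | intro W _ ih =>
    intro u
    induction u with
    | var i =>
      intro hu
      refine Acc.intro _ ?_
      rintro x (hx | hx)
      · obtain ⟨W', h1, h2⟩ := ctx_step hu hx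
        exact ih _ h1 _ h2
      · cases hx
    | sort s =>
      intro hu
      refine Acc.intro _ ?_
      rintro x (hx | hx)
      · obtain ⟨W', h1, h2⟩ := ctx_step hu hx
        exact ih _ h1 _ h2
      · cases hx
    | app a b iha ihb =>
      intro hu
      refine Acc.intro _ ?_
      rintro x (hx | hx)
      · obtain ⟨W', h1, h2⟩ := ctx_step hu hx
        exact ih _ h1 _ h2
      · cases hx with
        | appL => exact iha (Relation.ReflTransGen.head (ImmSub.appL _ _) hu)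
        | appR => exact ihb (Relation.ReflTransGen.head (ImmSub.appR _ _) hu)
    | lam a b iha ihb =>
      intro hu
      refine Acc.intro _ ?_
      rintro x (hx | hx)
      · obtain ⟨W', h1, h2⟩ := ctx_step hu hx
        exact ih _ h1 _ h2
      · cases hx with
        | lamA => exact iha (Relation.ReflTransGen.head (ImmSub.lamA _ _) hu)
        | lamB => exact ihb (Relation.ReflTransGen.head (ImmSub.lamB _ _) hu)
    | pi a b iha ihb =>
      intro hu
      refine Acc.intro _ ?_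
      rintro x (hx | hx)
      · obtain ⟨W', h1, h2⟩ := ctx_step hu hx
        exact ih _ h1 _ h2
      · cases hx with
        | piA => exact iha (Relation.ReflTransGen.head (ImmSub.piA _ _) hu)
        | piB => exact ihb (Relation.ReflTransGen.head (ImmSub.piB _ _) hu)

theorem acc_below {S : Type} {W : Tm S} (h : SN W) : Acc Below W :=
  acc_below_aux h W Relation.ReflTransGen.refl

theorem below_of_ctx {S : Type} {u W : Tm S} (h : Relation.ReflTransGen ImmSub u W) :
    Relation.ReflTransGen Below u W := by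
  induction h with
  | refl => exact Relation.ReflTransGen.refl
  | tail _ h ih => exact ih.tail (Or.inr h)

theorem below_of_steps {S : Type} {X Y : Tm S} (h : Steps X Y) : Relation.ReflTransGen Below Y X := by
  induction h with
  | refl => exact Relation.ReflTransGen.refl
  | tail _ h ih => exact Relation.ReflTransGen.head (Or.inl h) ih

theorem below_of_plus {S : Type} {X Y : Tm S} (h : Relation.TransGen Step X Y) :
    Relation.TransGen Below Y X := by
  induction h with
  | single h => exact Relation.TransGen.single (Or.inl h)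
  | tail _ h ih => exact Relation.TransGen.head (Or.inl h) ih

/-- Some renaming of the continuation is contained in the result. -/
theorem Run.contains {ρ ξ : ℕ → ℕ} {M K W : Tm (Fin n)} (h : Run j ρ ξ M K W) :
    ∃ ζ : ℕ → ℕ, Relation.ReflTransGen ImmSub (rename ζ K) W := by
  induction h with
  | var _ =>
    exact ⟨id, by rw [rename_id]; exact Relation.ReflTransGen.single (ImmSub.appR _ _)⟩
  | sort =>
    exact ⟨id, by rw [rename_id]; exact Relation.ReflTransGen.single (ImmSub.appL _ _)⟩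
  | lamT _ _ _ =>
    exact ⟨id, by rw [rename_id]; exact Relation.ReflTransGen.single (ImmSub.appL _ _)⟩
  | lamU _ _ _ =>
    exact ⟨id, by rw [rename_id]; exact Relation.ReflTransGen.single (ImmSub.appL _ _)⟩
  | piT _ _ _ _ _ =>
    exact ⟨id, by rw [rename_id]; exact Relation.ReflTransGen.single (ImmSub.appL _ _)⟩
  | piU _ _ _ =>
    exact ⟨id, by rw [rename_id]; exact Relation.ReflTransGen.single (ImmSub.appL _ _)⟩
  | @appT ρ ξ M N K F V G WN W _ _ _ _ _ ih =>
    obtain ⟨ζ, h⟩ := ih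
    refine ⟨upr ζ ∘ Nat.succ, ?_⟩
    have e : rename (upr ζ ∘ Nat.succ) K = rename (upr ζ) (shift K) := by
      unfold shift
      rw [rename_rename]
    rw [e]
    have h0 : Relation.ReflTransGen ImmSub (rename (upr ζ)
        (app (app (Tm.var 0) (shift _)) (shift K))) W := Relation.ReflTransGen.head (ImmSub.lamB _ _) h
    exact Relation.ReflTransGen.head (ImmSub.appR _ _) h0
  | @appU ρ ξ M N K F U W _ _ ih =>
    obtain ⟨ζ, h⟩ := ih
    refine ⟨upr ζ ∘ Nat.succ, ?_⟩
    have e : rename (upr ζ ∘ Nat.succ) K = rename (upr ζ) (shift K) := by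
      unfold shift
      rw [rename_rename]
    rw [e]
    have h0 : Relation.ReflTransGen ImmSub (rename (upr ζ)
        (app (app (Tm.var 0) (shift _)) (shift K))) W := Relation.ReflTransGen.head (ImmSub.lamB _ _) h
    exact Relation.ReflTransGen.head (ImmSub.appR _ _) h0
  | mem _ ih =>
    obtain ⟨ζ, h⟩ := ih
    exact ⟨ζ, h.tail (ImmSub.appR _ _)⟩

/-- The thunk of a tier `j` argument, inside the result. -/
theorem Run.thunk_below {ρ ξ : ℕ → ℕ} {M N K F V G WN W : Tm (Fin n)}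
    (hV : Steps V (lam G WN)) (hWN : Run j ρ (Nat.succ ∘ ξ) N (Tm.var 0) WN)
    (hM : Run j ρ ξ M (lam F (app (app (Tm.var 0) (shift V)) (shift K))) W) :
    ∃ (W₂ : Tm (Fin n)) (ξ₂ : ℕ → ℕ), Relation.TransGen Below W₂ W ∧ Run j ρ ξ₂ N (Tm.var 0) W₂ := by
  obtain ⟨ζ, h⟩ := hM.contains
  have e : rename (upr ζ) (shift V) = rename (upr ζ ∘ Nat.succ) V := by
    unfold shift
    rw [rename_rename]
  refine ⟨rename (upr (upr ζ ∘ Nat.succ)) WN, _, ?_, hWN.trename (upr (upr ζ ∘ Nat.succ))⟩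
  have h1 : Relation.ReflTransGen ImmSub (rename (upr ζ ∘ Nat.succ) V) W := by
    rw [← e]
    have h0 : Relation.ReflTransGen ImmSub (rename (upr ζ)
        (app (app (Tm.var 0) (shift V)) (shift K))) W :=
      Relation.ReflTransGen.head (ImmSub.lamB _ _) h
    have h00 : Relation.ReflTransGen ImmSub (rename (upr ζ) (app (Tm.var 0) (shift V))) W :=
      Relation.ReflTransGen.head (ImmSub.appL _ _) h0
    exact Relation.ReflTransGen.head (ImmSub.appR _ _) h00
  have h2 := below_of_steps (Steps.rename (upr ζ ∘ Nat.succ) hV)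
  exact Relation.TransGen.head' (Or.inr (ImmSub.lamB _ _)) (h2.trans (below_of_ctx h1))

/-- From strong normalization of the image to strong normalization of the source. -/
theorem sn_back {j' : ℕ} (hj : j' = j) (hR : ∀ i j, R i j → j ≤ i) (hP : PP R (j' + 1)) {W : Tm (Fin n)}
    (hW : Acc (Relation.TransGen Below) W) :
    ∀ (M : Tm (Fin n)) {Γ : List (Tm (Fin n))} {ρ ξ : ℕ → ℕ} {K T : Tm (Fin n)},
      Wf R Γ → Fit R ρ Γ → Ty R Γ M T → j + 1 ≤ rk ρ M → Run j ρ ξ M K W → SN M := by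
  subst hj
  induction hW with
  | intro W _ ihW =>
    intro M
    induction M with
    | var x => intro Γ ρ ξ K T _ _ _ _ _; exact SN.var x
    | sort s => intro Γ ρ ξ K T _ _ _ _ _; exact SN.sort s
    | app M N ihM _ =>
      intro Γ ρ ξ K T hw hf ht hr hrun
      obtain ⟨A, B, h1, h2, _⟩ := gen_app ht
      have key : ∀ {K₁ : Tm (Fin n)}, Run j' ρ ξ M K₁ W → SN N →
          Run j' ρ ξ (app M N) K W → SN (app M N) := by
        intro K₁ hM hN hrun
        have hSM := ihM hw hf h1 hr hM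
        refine SN.app_of hSM hN ?_
        intro u hu
        obtain ⟨W₁, h3, h4⟩ := hrun.head hw hf ht hu
        exact ihW W₁ (below_of_plus h3) u hw hf (ht.step hw hu.step)
          (by rw [rk_step hw hf ht hu.step]; exact hr) h4
      cases hrun with
      | @appT _ _ _ _ _ F V G WN _ hN hV hWN hM =>
        obtain ⟨W₂, ξ₂, h3, h4⟩ := Run.thunk_below hV hWN hM
        exact key hM (ihW W₂ h3 N hw hf h2 (by omega) h4) (Run.appT hN hV hWN hM)
      | @appU _ _ _ _ _ F U _ hN hM =>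
        exact key hM (hP _ _ hw (UpTy.of_rk hw hf h2 (by omega))) (Run.appU hN hM)
      | @mem _ _ _ _ C a W₀ h =>
        exact ihW W₀ (Relation.TransGen.single (Or.inr (ImmSub.appR _ _))) _ hw hf ht hr h
    | lam A P _ _ =>
      intro Γ ρ ξ K T hw hf ht hr hrun
      obtain ⟨B, s, h1, h2, _⟩ := gen_lam ht
      obtain ⟨a, b, hA, hB, hab, _⟩ := gen_pi h2
      have hra := rk_type hw hf hA
      have hr' : rk ρ A - 1 = a.val + 1 := by omega
      have hw' := Wf.cons hw hA
      have hf' := Fit.cons hw hf hA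
      have hle := Fin.le_def.1 (hR _ _ hab)
      simp only [rk_lam, hr'] at hr
      cases hrun with
      | @lamT _ _ _ _ _ A' H C W₀ hrA h =>
        have e : j' + 1 = a.val + 1 := by omega
        rw [e] at h
        refine SN.lam (hP _ _ hw ⟨_, a, hA, Or.inr ⟨rfl, by omega⟩⟩) ?_
        refine ihW W₀ ?_ P hw' hf' h1 (by omega) h
        refine Relation.TransGen.tail ?_ (Or.inr (ImmSub.appR _ _))
        refine Relation.TransGen.tail ?_ (Or.inr (ImmSub.lamB _ _))
        refine Relation.TransGen.tail ?_ (Or.inr (ImmSub.lamB _ _))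
        exact Relation.TransGen.single (Or.inr (ImmSub.appR _ _))
      | @lamU _ _ _ _ _ A' H W₀ hrA h =>
        rw [hr'] at h
        refine SN.lam (hP _ _ hw ⟨_, a, hA, Or.inr ⟨rfl, by omega⟩⟩) ?_
        refine ihW W₀ ?_ P hw' hf' h1 (by omega) h
        refine Relation.TransGen.tail ?_ (Or.inr (ImmSub.appR _ _))
        refine Relation.TransGen.tail ?_ (Or.inr (ImmSub.lamB _ _))
        exact Relation.TransGen.single (Or.inr (ImmSub.lamB _ _))
      | @mem _ _ _ _ C a' W₀ h =>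
        exact ihW W₀ (Relation.TransGen.single (Or.inr (ImmSub.appR _ _))) _ hw hf ht
          (by simp only [rk_lam, hr']; exact hr) h
    | pi A C _ _ =>
      intro Γ ρ ξ K T hw hf ht hr hrun
      obtain ⟨a, s, hA, hC, hab, _⟩ := gen_pi ht
      have hra := rk_type hw hf hA
      have hr' : rk ρ A - 1 = a.val + 1 := by omega
      have hw' := Wf.cons hw hA
      have hf' := Fit.cons hw hf hA
      have hle := Fin.le_def.1 (hR _ _ hab)
      have hrc := rk_type hw' hf' hC
      simp only [rk_pi, hr', hrc] at hr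
      cases hrun with
      | @piT _ _ _ _ _ A' G G' W₀ hrA h h' =>
        rw [hr'] at h'
        refine SN.pi ?_ ?_
        · refine ihW A' ?_ A hw hf hA (by omega) h
          refine Relation.TransGen.tail ?_ (Or.inr (ImmSub.appR _ _))
          exact Relation.TransGen.single (Or.inr (ImmSub.piA _ _))
        · refine ihW W₀ ?_ C hw' hf' hC (by omega) h'
          refine Relation.TransGen.tail ?_ (Or.inr (ImmSub.appR _ _))
          exact Relation.TransGen.single (Or.inr (ImmSub.piB _ _))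
      | @piU _ _ _ _ _ A' G W₀ hrA h' =>
        rw [hr'] at h'
        refine SN.pi ?_ ?_
        · exact hP _ _ hw ⟨_, a, hA, Or.inr ⟨rfl, by omega⟩⟩
        · refine ihW W₀ ?_ C hw' hf' hC (by omega) h'
          refine Relation.TransGen.tail ?_ (Or.inr (ImmSub.appR _ _))
          exact Relation.TransGen.single (Or.inr (ImmSub.piB _ _))
      | @mem _ _ _ _ C' a' W₀ h =>
        exact ihW W₀ (Relation.TransGen.single (Or.inr (ImmSub.appR _ _))) _ hw hf ht
          (by simp only [rk_pi, hr', hrc]; exact hr) h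

end Vale.Agent.Lib.P340
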