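import Vale.Agent.Lib.P340.TrMain

/-!
The simple route: if the tier `j` has no product over the types of tier `j`, its terms have simply
typed skeletons, and strong normalization of the simply typed skeletons gives that of the terms.
-/

namespace Vale.Agent.Lib.P340
open Tm

variable {n : ℕ} {R : Fin n → Fin n → Prop}

/-- Simple types. -/
inductive STp : Type
  | o : STp
  | arr : STp → STp → STp

/-- Extending an assignment of simple types. -/
def scons (σ : STp) (Δ : ℕ → STp) : ℕ → STp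
  | 0 => σ
  | i + 1 => Δ i

/-- Simple typing of skeletons, with the dummy `sort j` at every type. -/
inductive STy (j : Fin n) : (ℕ → STp) → Tm (Fin n) → STp → Prop
  | var {Δ : ℕ → STp} {x : ℕ} : STy j Δ (var x) (Δ x)
  | sort {Δ : ℕ → STp} {τ : STp} : STy j Δ (sort j) τ
  | lam {Δ : ℕ → STp} {b : Tm (Fin n)} {σ τ : STp} :
      STy j (scons σ Δ) b τ → STy j Δ (lam (sort j) b) (STp.arr σ τ)
  | app {Δ : ℕ → STp} {a b : Tm (Fin n)} {σ τ : STp} :
      STy j Δ a (STp.arr σ τ) → STy j Δ b σ → STy j Δ (app a b) τ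
  | pi {Δ : ℕ → STp} {a b : Tm (Fin n)} {σ τ₁ τ₂ τ : STp} :
      STy j Δ a τ₁ → STy j (scons σ Δ) b τ₂ → STy j Δ (pi a b) τ

/-- Reducibility. -/
def Red : STp → Tm (Fin n) → Prop
  | STp.o, t => SN t
  | STp.arr σ τ, t => ∀ u, Red σ u → Red τ (app t u)

theorem red_props (τ : STp) :
    (∀ t : Tm (Fin n), Red τ t → SN t) ∧ (∀ t : Tm (Fin n), Tm.Neutral t → SN t → Red τ t) := by
  induction τ with
  | o => exact ⟨fun _ h => h, fun _ _ h => h⟩
  | arr σ τ ihσ ihτ =>
    constructor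
    · intro t h
      have h1 := h (var 0) (ihσ.2 _ trivial (SN.var 0))
      exact (ihτ.1 _ h1).appl
    · intro t hn hs u hu
      exact ihτ.2 (app t u) hn
        (SN.app_of hs (ihσ.1 _ hu) (fun v hv => (hn.no_hs_app hv).elim))

theorem red_head (τ : STp) : ∀ {t t' : Tm (Fin n)}, HS t t' → Red τ t' →
    (∀ A M N, HRedex t A M N → SN A ∧ SN N) → Red τ t := by
  induction τ with
  | o =>
    intro t t' h h1 h2
    exact SN.of_HS h h1 h2
  | arr σ τ _ ihτ =>
    intro t t' h h1 h2 u hu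
    refine ihτ (HS.app u h) (h1 u hu) ?_
    intro A M N hr
    cases hr with
    | here => cases h
    | there _ hr => exact h2 _ _ _ hr

/-- Extending a substitution. -/
def tcons (u : Tm (Fin n)) (θ : ℕ → Tm (Fin n)) : ℕ → Tm (Fin n)
  | 0 => u
  | i + 1 => θ i

theorem inst_ups_eq (u : Tm (Fin n)) (θ : ℕ → Tm (Fin n)) (b : Tm (Fin n)) :
    Tm.subst (inst u) (Tm.subst (ups θ) b) = Tm.subst (tcons u θ) b := by
  rw [subst_subst]
  congr 1
  funext x
  cases x with
  | zero => rfl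
  | succ x => simp [tcons]

/-- The fundamental lemma. -/
theorem red_fund {j : Fin n} {Δ : ℕ → STp} {t : Tm (Fin n)} {τ : STp} (h : STy j Δ t τ) :
    ∀ {θ : ℕ → Tm (Fin n)}, (∀ x, Red (Δ x) (θ x)) → Red τ (Tm.subst θ t) := by
  induction h with
  | var => intro θ hθ; exact hθ _
  | sort => intro θ _; exact (red_props _).2 _ trivial (SN.sort _)
  | @lam Δ b σ τ _ ih =>
    intro θ hθ u hu
    have hu' := (red_props σ).1 _ hu
    have h1 : Red τ (open_ (Tm.subst (ups θ) b) u) := by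
      unfold open_
      rw [inst_ups_eq]
      apply ih
      intro x
      cases x with
      | zero => exact hu
      | succ x => exact hθ x
    refine red_head τ (HS.beta _ _ _) h1 ?_
    intro A M N hr
    cases hr with
    | here => exact ⟨SN.sort _, hu'⟩
    | there _ hr => cases hr
  | app _ _ iha ihb =>
    intro θ hθ
    exact iha hθ _ (ihb hθ)
  | @pi Δ a b σ τ₁ τ₂ τ _ _ iha ihb =>
    intro θ hθ
    refine (red_props τ).2 _ trivial (SN.pi ((red_props _).1 _ (iha hθ)) ?_)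
    have h1 : Red τ₂ (Tm.subst (inst (var 0)) (Tm.subst (ups θ) b)) := by
      rw [inst_ups_eq]
      apply ihb
      intro x
      cases x with
      | zero => exact (red_props σ).2 _ trivial (SN.var 0)
      | succ x => exact hθ x
    exact SN.of_subst ((red_props _).1 _ h1)

/-- Simply typed skeletons are strongly normalizing. -/
theorem sty_sn {j : Fin n} {Δ : ℕ → STp} {t : Tm (Fin n)} {τ : STp} (h : STy j Δ t τ) : SN t := by
  have h1 := red_fund h (θ := var) (fun x => (red_props _).2 _ trivial (SN.var x))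
  rw [subst_var] at h1
  exact (red_props _).1 _ h1

/-! ### Skeletons of terms -/

/-- The skeleton of a term: the parts of rank other than `j + 1` are erased. -/
def sk (j : Fin n) : (ℕ → ℕ) → Tm (Fin n) → Tm (Fin n)
  | ρ, .var x => if ρ x = j.val + 1 then .var x else .sort j
  | _, .sort _ => .sort j
  | ρ, .app M N => if rk ρ M = j.val + 1 then .app (sk j ρ M) (sk j ρ N) else .sort j
  | ρ, .lam A P =>
      if rk (cons (rk ρ A - 1) ρ) P = j.val + 1 then
        .lam (.sort j) (sk j (cons (rk ρ A - 1) ρ) P)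
      else .sort j
  | ρ, .pi A B =>
      if rk (cons (rk ρ A - 1) ρ) B = j.val + 1 then
        .pi (sk j ρ A) (sk j (cons (rk ρ A - 1) ρ) B)
      else .sort j

theorem sk_ne {j : Fin n} {ρ : ℕ → ℕ} {t : Tm (Fin n)} (h : rk ρ t ≠ j.val + 1) :
    sk j ρ t = sort j := by
  cases t with
  | var x =>
    simp only [rk_var] at h
    simp [sk, h]
  | sort s => rfl
  | app M N =>
    simp only [rk_app] at h
    simp [sk, h]
  | lam A P =>
    simp only [rk_lam] at h
    simp [sk, h]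
  | pi A P =>
    simp only [rk_pi] at h
    simp [sk, h]

theorem sk_rename (j : Fin n) (ρ ξ : ℕ → ℕ) (t : Tm (Fin n)) :
    sk j ρ (rename ξ t) = rename ξ (sk j (ρ ∘ ξ) t) := by
  induction t generalizing ρ ξ with
  | var x =>
    simp only [rename_var, sk, Function.comp]
    split_ifs <;> rfl
  | sort s => rfl
  | app M N ihM ihN =>
    simp only [rename_app, sk, rk_rename]
    split_ifs
    · simp [ihM, ihN]
    · rfl
  | lam A P ihA ihP =>
    simp only [rename_lam, sk, rk_rename, cons_comp_upr]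
    split_ifs
    · simp [ihP, cons_comp_upr]
    · rfl
  | pi A P ihA ihP =>
    simp only [rename_pi, sk, rk_rename, cons_comp_upr]
    split_ifs
    · simp [ihP, ihA, cons_comp_upr]
    · rfl

theorem sk_shift (j : Fin n) (a : ℕ) (ρ : ℕ → ℕ) (t : Tm (Fin n)) :
    sk j (cons a ρ) (shift t) = shift (sk j ρ t) := by
  unfold shift
  rw [sk_rename, cons_comp_succ]

theorem sk_subst (j : Fin n) {ρ ρ' : ℕ → ℕ} {σ τ : ℕ → Tm (Fin n)}
    (hr : ∀ x, rk ρ' (σ x) = ρ x) (ht : ∀ x, ρ x = j.val + 1 → τ x = sk j ρ' (σ x))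
    (t : Tm (Fin n)) : Tm.subst τ (sk j ρ t) = sk j ρ' (Tm.subst σ t) := by
  have up : ∀ (a : ℕ) {ρ ρ' : ℕ → ℕ} {σ τ : ℕ → Tm (Fin n)},
      (∀ x, ρ x = j.val + 1 → τ x = sk j ρ' (σ x)) →
      ∀ x, cons a ρ x = j.val + 1 → ups τ x = sk j (cons a ρ') (ups σ x) := by
    intro a ρ ρ' σ τ ht x hx
    cases x with
    | zero =>
      simp only [cons_zero] at hx
      simp [sk, hx]
    | succ x =>
      simp only [ups_succ]
      rw [sk_shift, ht x hx]
  induction t generalizing ρ ρ' σ τ with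
  | var x =>
    by_cases h : ρ x = j.val + 1
    · simp only [sk, h, if_true, subst_var']
      exact ht x h
    · simp only [sk, h, if_false, subst_var', subst_sort]
      rw [sk_ne (by rw [hr x]; exact h)]
  | sort s => rfl
  | app M N ihM ihN =>
    by_cases h : rk ρ M = j.val + 1
    · have h' : rk ρ' (Tm.subst σ M) = j.val + 1 := by rw [rk_subst hr]; exact h
      simp only [sk, subst_app, h, h', if_true]
      simp [ihM hr ht, ihN hr ht]
    · have h' : ¬ rk ρ' (Tm.subst σ M) = j.val + 1 := by rw [rk_subst hr]; exact h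
      simp only [sk, subst_app, h, h', if_false]
      rfl
  | lam A P _ ihP =>
    have hP' := rk_subst (rk_ups (rk ρ A - 1) hr) P
    by_cases h : rk (cons (rk ρ A - 1) ρ) P = j.val + 1
    · have h' : rk (cons (rk ρ A - 1) ρ') (Tm.subst (ups σ) P) = j.val + 1 := by rw [hP']; exact h
      simp only [sk, subst_lam, rk_subst hr, h, h', if_true, subst_sort]
      rw [ihP (rk_ups _ hr) (up _ ht)]
    · have h' : ¬ rk (cons (rk ρ A - 1) ρ') (Tm.subst (ups σ) P) = j.val + 1 := by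
        rw [hP']; exact h
      simp only [sk, subst_lam, rk_subst hr, h, h', if_false, subst_sort]
  | pi A P ihA ihP =>
    have hP' := rk_subst (rk_ups (rk ρ A - 1) hr) P
    by_cases h : rk (cons (rk ρ A - 1) ρ) P = j.val + 1
    · have h' : rk (cons (rk ρ A - 1) ρ') (Tm.subst (ups σ) P) = j.val + 1 := by rw [hP']; exact h
      simp only [sk, subst_pi, rk_subst hr, h, h', if_true]
      rw [ihP (rk_ups _ hr) (up _ ht), ihA hr ht]
    · have h' : ¬ rk (cons (rk ρ A - 1) ρ') (Tm.subst (ups σ) P) = j.val + 1 := by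
        rw [hP']; exact h
      simp only [sk, subst_pi, rk_subst hr, h, h', if_false, subst_sort]

/-- Head steps of typed terms are simulated in the skeleton. -/
theorem sk_hs {j : Fin n} {t u : Tm (Fin n)} (hs : HS t u) :
    ∀ {Γ : List (Tm (Fin n))} {ρ : ℕ → ℕ} {T : Tm (Fin n)}, Wf R Γ → Fit R ρ Γ → Ty R Γ t T →
      rk ρ t = j.val + 1 → Step (sk j ρ t) (sk j ρ u) := by
  induction hs with
  | beta A P N =>
    intro Γ ρ T hw hf ht hr
    have hrN := redex_rank hw hf ht
    simp only [rk_app, rk_lam] at hr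
    have e : sk j ρ (open_ P N) = open_ (sk j (cons (rk ρ A - 1) ρ) P) (sk j ρ N) := by
      unfold open_
      symm
      apply sk_subst j (rk_inst _ _ _ hrN)
      intro x hx
      cases x with
      | zero => rfl
      | succ x =>
        simp only [cons_succ] at hx
        simp [sk, hx]
    rw [e]
    simp only [sk, rk_lam, hr, if_true]
    exact Step.beta _ _ _
  | app b _ ih =>
    intro Γ ρ T hw hf ht hr
    obtain ⟨_, _, h1, _, _⟩ := gen_app ht
    simp only [rk_app] at hr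
    have h2 := ih hw hf h1 hr
    have hr' : rk ρ _ = j.val + 1 := (rk_step hw hf h1 ‹HS _ _›.step).trans hr
    simp only [sk, hr, hr', if_true]
    exact Step.appL _ h2

/-- From the skeleton back to the term. -/
theorem sk_back (hR : ∀ i j, R i j → j ≤ i) {j : Fin n} (hP : PP R (j.val + 1)) {W : Tm (Fin n)}
    (hW : Acc (Relation.TransGen Below) W) :
    ∀ (M : Tm (Fin n)) {Γ : List (Tm (Fin n))} {ρ : ℕ → ℕ} {T : Tm (Fin n)},
      Wf R Γ → Fit R ρ Γ → Ty R Γ M T → rk ρ M = j.val + 1 → sk j ρ M = W → SN M := by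
  induction hW with
  | intro W _ ihW =>
    intro M
    induction M with
    | var x => intro Γ ρ T _ _ _ _ _; exact SN.var x
    | sort s => intro Γ ρ T _ _ _ _ _; exact SN.sort s
    | app M N ihM _ =>
      intro Γ ρ T hw hf ht hr hsk
      obtain ⟨A, B, h1, h2, _⟩ := gen_app ht
      obtain ⟨a, s, hA, _, hab, hPi⟩ := h1.pi_parts hw
      have hle := Fin.le_def.1 (hR _ _ hab)
      have hrM := rk_term hw hf h1 hPi
      have hrN := rk_term hw hf h2 hA
      simp only [rk_app] at hr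
      have hW' : W = app (sk j ρ M) (sk j ρ N) := by
        rw [← hsk]
        simp only [sk, hr, if_true]
      have hSM : SN M :=
        ihW _ (Relation.TransGen.single (Or.inr (hW' ▸ ImmSub.appL _ _))) M hw hf h1 hr rfl
      have hSN : SN N := by
        by_cases h3 : rk ρ N = j.val + 1
        · exact ihW _ (Relation.TransGen.single (Or.inr (hW' ▸ ImmSub.appR _ _))) N hw hf h2 h3 rfl
        · exact hP _ _ hw (UpTy.of_rk hw hf h2 (by omega))
      refine SN.app_of hSM hSN ?_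
      intro u hu
      have hs := sk_hs (j := j) hu hw hf ht (by simpa using hr)
      rw [hsk] at hs
      refine ihW _ (Relation.TransGen.single (Or.inl hs)) u hw hf (ht.step hw hu.step) ?_ rfl
      rw [rk_step hw hf ht hu.step]
      simpa using hr
    | lam A P _ _ =>
      intro Γ ρ T hw hf ht hr hsk
      obtain ⟨B, s, h1, h2, _⟩ := gen_lam ht
      obtain ⟨a, b, hA, hB, hab, _⟩ := gen_pi h2
      have hra := rk_type hw hf hA
      have hr' : rk ρ A - 1 = a.val + 1 := by omega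
      have hw' := Wf.cons hw hA
      have hf' := Fit.cons hw hf hA
      have hle := Fin.le_def.1 (hR _ _ hab)
      simp only [rk_lam, hr'] at hr
      have hrP := rk_term hw' hf' h1 hB
      have hW' : W = lam (sort j) (sk j (cons (a.val + 1) ρ) P) := by
        rw [← hsk]
        simp only [sk, hr', hr, if_true]
      refine SN.lam (hP _ _ hw ⟨_, a, hA, Or.inr ⟨rfl, by omega⟩⟩) ?_
      exact ihW _ (Relation.TransGen.single (Or.inr (hW' ▸ ImmSub.lamB _ _))) P hw' hf' h1 hr rfl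
    | pi A C _ _ =>
      intro Γ ρ T hw hf ht hr hsk
      obtain ⟨a, s, hA, hC, hab, _⟩ := gen_pi ht
      have hra := rk_type hw hf hA
      have hr' : rk ρ A - 1 = a.val + 1 := by omega
      have hw' := Wf.cons hw hA
      have hf' := Fit.cons hw hf hA
      have hle := Fin.le_def.1 (hR _ _ hab)
      have hrc := rk_type hw' hf' hC
      simp only [rk_pi, hr'] at hr
      have hW' : W = pi (sk j ρ A) (sk j (cons (a.val + 1) ρ) C) := by
        rw [← hsk]
        simp only [sk, hr', hr, if_true]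
      refine SN.pi ?_ ?_
      · by_cases h3 : rk ρ A = j.val + 1
        · exact ihW _ (Relation.TransGen.single (Or.inr (hW' ▸ ImmSub.piA _ _))) A hw hf hA h3 rfl
        · exact hP _ _ hw ⟨_, a, hA, Or.inr ⟨rfl, by omega⟩⟩
      · exact ihW _ (Relation.TransGen.single (Or.inr (hW' ▸ ImmSub.piB _ _))) C hw' hf' hC hr rfl

/-! ### Skeletons of types -/

/-- The simple type read off a normal type. -/
def stp (j : ℕ) : (ℕ → ℕ) → Tm (Fin n) → STp
  | ρ, .pi A B =>
      STp.arr (if rk ρ A = j + 2 then stp j ρ A else STp.o) (stp j (cons (rk ρ A - 1) ρ) B)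
  | _, _ => STp.o

/-- The simple type of a type: that of its normal form. -/
def HasSk (j : ℕ) (ρ : ℕ → ℕ) (T : Tm (Fin n)) (τ : STp) : Prop :=
  ∃ m, Steps T m ∧ Normal m ∧ stp j ρ m = τ

theorem normal_steps {m x : Tm (Fin n)} (h : Normal m) (hs : Steps m x) : x = m := by
  induction hs with
  | refl => rfl
  | tail _ h2 ih => subst ih; exact (h _ h2).elim

theorem normal_unique {T T' m m' : Tm (Fin n)} (hc : Conv T T') (h1 : Steps T m) (h2 : Normal m)
    (h3 : Steps T' m') (h4 : Normal m') : m = m' := by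
  have hc' : Conv m m' :=
    Conv.trans' (Conv.symm' (Conv.of_steps h1)) (Conv.trans' hc (Conv.of_steps h3))
  obtain ⟨c, h5, h6⟩ := hc'.join
  rw [normal_steps h2 h5] at h6
  exact normal_steps h4 h6

theorem HasSk.unique {j : ℕ} {ρ : ℕ → ℕ} {T T' : Tm (Fin n)} {τ τ' : STp} (hc : Conv T T')
    (h : HasSk j ρ T τ) (h' : HasSk j ρ T' τ') : τ = τ' := by
  obtain ⟨m, h1, h2, rfl⟩ := h
  obtain ⟨m', h3, h4, rfl⟩ := h'
  rw [normal_unique hc h1 h2 h3 h4]

theorem exists_nf {t : Tm (Fin n)} (h : SN t) : ∃ m, Steps t m ∧ Normal m := by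
  induction h with
  | intro t _ ih =>
    by_cases hn : Tm.Normal t
    · exact ⟨t, Steps.refl' _, hn⟩
    · unfold Tm.Normal at hn
      push_neg at hn
      obtain ⟨t', ht'⟩ := hn
      obtain ⟨m, h1, h2⟩ := ih t' ht'
      exact ⟨m, Relation.ReflTransGen.head ht' h1, h2⟩

theorem hasSk_exists {j : Fin n} (hP : PP R (j.val + 1)) {Γ : List (Tm (Fin n))} {T : Tm (Fin n)}
    (hw : Wf R Γ) (hT : Ty R Γ T (sort j)) (ρ : ℕ → ℕ) : ∃ τ, HasSk j.val ρ T τ := by
  obtain ⟨m, h1, h2⟩ := exists_nf (hP _ _ hw ⟨_, j, hT, Or.inr ⟨rfl, le_rfl⟩⟩)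
  exact ⟨_, m, h1, h2, rfl⟩

theorem hasSk_sort (j : ℕ) (ρ : ℕ → ℕ) (s : Fin n) : HasSk j ρ (sort s) STp.o :=
  ⟨sort s, Steps.refl' _, fun _ h => (by cases h), rfl⟩

/-- Spines with a variable as head. -/
def HeadVar : Tm (Fin n) → Prop
  | .var _ => True
  | .app a _ => HeadVar a
  | _ => False

/-- Stable shapes: products over stable domains, ending in a sort or a spine whose head is a variable
of rank `j + 2`. -/
def Stb (j : ℕ) : (ℕ → ℕ) → Tm (Fin n) → Prop
  | ρ, .var x => ρ x = j + 2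
  | _, .sort _ => True
  | ρ, .app a _ => HeadVar a ∧ rk ρ a = j + 2
  | _, .lam _ _ => False
  | ρ, .pi A B => (rk ρ A = j + 2 → Stb j ρ A) ∧ Stb j (cons (rk ρ A - 1) ρ) B

theorem headVar_of_typed {Γ : List (Tm (Fin n))} {a b T : Tm (Fin n)} (ht : Ty R Γ (app a b) T)
    (hn : Tm.Neutral a) : HeadVar a := by
  induction a generalizing b T with
  | var x => trivial
  | sort s =>
    obtain ⟨A, B, h1, _, _⟩ := gen_app ht
    obtain ⟨c, _, h3⟩ := gen_sort h1
    exact (Conv.pi_sort (Conv.symm' h3)).elim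
  | pi A C _ _ =>
    obtain ⟨A', B, h1, _, _⟩ := gen_app ht
    obtain ⟨_, _, _, _, _, h3⟩ := gen_pi h1
    exact (Conv.pi_sort (Conv.symm' h3)).elim
  | lam A P _ _ => exact hn.elim
  | app c d ihc _ =>
    obtain ⟨A, B, h1, _, _⟩ := gen_app ht
    exact ihc h1 hn

theorem normal_piA {A B : Tm (Fin n)} (h : Normal (pi A B)) : Normal A :=
  fun _ hx => h _ (Step.piA _ hx)

theorem normal_piB {A B : Tm (Fin n)} (h : Normal (pi A B)) : Normal B :=
  fun _ hx => h _ (Step.piB _ hx)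

/-- Normal types of tier `j` have stable shapes. -/
theorem stb_normal {j : Fin n} (T : Tm (Fin n)) :
    ∀ {Γ : List (Tm (Fin n))} {ρ : ℕ → ℕ}, Wf R Γ → Fit R ρ Γ → Ty R Γ T (sort j) → Normal T →
      Stb j.val ρ T := by
  induction T with
  | var x =>
    intro Γ ρ hw hf hT _
    exact rk_type hw hf hT
  | sort s => intro Γ ρ _ _ _ _; trivial
  | app a b _ _ =>
    intro Γ ρ hw hf hT hn
    refine ⟨headVar_of_typed hT (normal_app_neutral hn), ?_⟩
    have := rk_type hw hf hT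
    simpa using this
  | lam A P _ _ =>
    intro Γ ρ hw hf hT hn
    obtain ⟨B, s, _, _, h3⟩ := gen_lam hT
    exact (Conv.pi_sort h3).elim
  | pi A C ihA ihC =>
    intro Γ ρ hw hf hT hn
    obtain ⟨a, b, hA, hC, _, h4⟩ := gen_pi hT
    have hb := Conv.sort_inj h4
    subst hb
    have hra := rk_type hw hf hA
    have hr' : rk ρ A - 1 = a.val + 1 := by omega
    constructor
    · intro h
      have : a = b := Fin.ext (by omega)
      subst this
      exact ihA hw hf hA (normal_piA hn)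
    · rw [hr']
      exact ihC (Wf.cons hw hA) (Fit.cons hw hf hA) hC (normal_piB hn)

theorem headVar_subst {j : ℕ} {ρ : ℕ → ℕ} {σ : ℕ → Tm (Fin n)}
    (hv : ∀ x, ρ x = j + 2 → ∃ y, σ x = var y) {a : Tm (Fin n)} (h : HeadVar a)
    (hr : rk ρ a = j + 2) : HeadVar (Tm.subst σ a) := by
  induction a with
  | var x =>
    obtain ⟨y, hy⟩ := hv x hr
    simp only [subst_var', hy]
    trivial
  | sort s => exact h.elim
  | pi A B _ _ => exact h.elim
  | lam A B _ _ => exact h.elim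
  | app c d ihc _ => exact ihc h hr

theorem stb_subst {j : ℕ} (t : Tm (Fin n)) :
    ∀ {ρ ρ' : ℕ → ℕ} {σ : ℕ → Tm (Fin n)}, (∀ x, rk ρ' (σ x) = ρ x) →
      (∀ x, ρ x = j + 2 → ∃ y, σ x = var y) → Stb j ρ t →
      Stb j ρ' (Tm.subst σ t) ∧ stp j ρ' (Tm.subst σ t) = stp j ρ t := by
  induction t with
  | var x =>
    intro ρ ρ' σ hr hv h
    obtain ⟨y, hy⟩ := hv x h
    have h1 := hr x
    rw [hy] at h1
    simp only [subst_var', hy]
    refine ⟨?_, rfl⟩
    simp only [Stb]
    simp only [rk_var] at h1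
    rw [h1]
    exact h
  | sort s => intro ρ ρ' σ _ _ _; exact ⟨trivial, rfl⟩
  | app a b _ _ =>
    intro ρ ρ' σ hr hv h
    refine ⟨⟨headVar_subst hv h.1 h.2, ?_⟩, rfl⟩
    rw [rk_subst hr]
    exact h.2
  | lam A P _ _ => intro ρ ρ' σ _ _ h; exact h.elim
  | pi A C ihA ihC =>
    intro ρ ρ' σ hr hv h
    have hv' : ∀ x, cons (rk ρ A - 1) ρ x = j + 2 → ∃ y, ups σ x = var y := by
      intro x hx
      cases x with
      | zero => exact ⟨0, rfl⟩
      | succ x =>
        obtain ⟨y, hy⟩ := hv x hx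
        exact ⟨y + 1, by simp [hy, shift]⟩
    obtain ⟨h1, h2⟩ := ihC (ρ' := cons (rk ρ A - 1) ρ') (σ := ups σ) (rk_ups _ hr) hv' h.2
    simp only [subst_pi, Stb, stp, rk_subst hr]
    refine ⟨⟨fun h3 => (ihA hr hv (h.1 h3)).1, h1⟩, ?_⟩
    rw [h2]
    by_cases h3 : rk ρ A = j + 2
    · simp only [h3, if_true]
      rw [(ihA hr hv (h.1 h3)).2]
    · simp only [h3, if_false]

theorem headVar_step {a a' : Tm (Fin n)} (h : HeadVar a) (hs : Step a a') : HeadVar a' := by
  induction hs with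
  | beta A M N => exact h.elim
  | appL b _ ih => exact ih h
  | appR a _ _ => exact h
  | lamA b _ _ => exact h.elim
  | lamB A _ _ => exact h.elim
  | piA b _ _ => exact h.elim
  | piB A _ _ => exact h.elim

/-- Reduction of typed stable shapes keeps the shape and the simple type. -/
theorem stb_step {j : Fin n} {t t' : Tm (Fin n)} (hs : Step t t') :
    ∀ {Γ : List (Tm (Fin n))} {ρ : ℕ → ℕ}, Wf R Γ → Fit R ρ Γ → Ty R Γ t (sort j) →
      Stb j.val ρ t → Stb j.val ρ t' ∧ stp j.val ρ t' = stp j.val ρ t := by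
  induction hs with
  | beta A M N => intro Γ ρ _ _ _ h; exact h.1.elim
  | @appL a a' c hs _ =>
    intro Γ ρ hw hf ht h
    obtain ⟨_, _, h1, _, _⟩ := gen_app ht
    refine ⟨⟨headVar_step h.1 hs, ?_⟩, rfl⟩
    rw [rk_step hw hf h1 hs]
    exact h.2
  | appR a _ _ => intro Γ ρ _ _ _ h; exact ⟨h, rfl⟩
  | lamA _ _ _ => intro Γ ρ _ _ _ h; exact h.elim
  | lamB _ _ _ => intro Γ ρ _ _ _ h; exact h.elim
  | @piA A A' C hs ih =>
    intro Γ ρ hw hf ht h
    obtain ⟨a, b, hA, _, _, h4⟩ := gen_pi ht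
    have e := rk_step hw hf hA hs
    have hra := rk_type hw hf hA
    simp only [Stb, stp]
    rw [e]
    by_cases h3 : rk ρ A = j.val + 2
    · have haj : a = j := Fin.ext (by omega)
      subst a
      obtain ⟨h5, h6⟩ := ih hw hf hA (h.1 h3)
      refine ⟨⟨fun _ => h5, h.2⟩, ?_⟩
      rw [if_pos h3, if_pos h3, h6]
    · refine ⟨⟨fun h5 => (h3 h5).elim, h.2⟩, ?_⟩
      rw [if_neg h3, if_neg h3]
  | @piB A C C' hs ih =>
    intro Γ ρ hw hf ht h
    obtain ⟨a, b, hA, hC, _, h4⟩ := gen_pi ht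
    have hb : b = j := Conv.sort_inj h4
    subst b
    have hra := rk_type hw hf hA
    have hr' : rk ρ A - 1 = a.val + 1 := by omega
    have h2 := h.2
    rw [hr'] at h2
    obtain ⟨h5, h6⟩ := ih (Wf.cons hw hA) (Fit.cons hw hf hA) hC h2
    simp only [Stb, stp]
    rw [hr']
    exact ⟨⟨h.1, h5⟩, by rw [h6]⟩

theorem stb_steps {j : Fin n} {t t' : Tm (Fin n)} {Γ : List (Tm (Fin n))} {ρ : ℕ → ℕ}
    (hw : Wf R Γ) (hf : Fit R ρ Γ) (ht : Ty R Γ t (sort j)) (hS : Stb j.val ρ t)
    (hs : Steps t t') : Stb j.val ρ t' ∧ stp j.val ρ t' = stp j.val ρ t := by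
  induction hs with
  | refl => exact ⟨hS, rfl⟩
  | tail h1 h2 ih =>
    obtain ⟨h3, h4⟩ := stb_step h2 hw hf (ht.steps hw h1) ih.1
    exact ⟨h3, h4.trans ih.2⟩

/-- Simple types of types are invariant under substitutions which keep the variables of rank
`j + 2`. -/
theorem hasSk_subst {j : Fin n} {Γ Δ : List (Tm (Fin n))} {ρ ρ' : ℕ → ℕ} {T : Tm (Fin n)}
    {σ : ℕ → Tm (Fin n)} {τ τ' : STp} (hw : Wf R Γ) (hf : Fit R ρ Γ) (hw' : Wf R Δ)
    (hf' : Fit R ρ' Δ) (hT : Ty R Γ T (sort j)) (hσ : SubOK R σ Γ Δ)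
    (hr : ∀ x, rk ρ' (σ x) = ρ x) (hv : ∀ x, ρ x = j.val + 2 → ∃ y, σ x = var y)
    (h : HasSk j.val ρ T τ) (h' : HasSk j.val ρ' (Tm.subst σ T) τ') : τ = τ' := by
  obtain ⟨m, h1, h2, rfl⟩ := h
  obtain ⟨m', h3, h4, rfl⟩ := h'
  have hm := hT.steps hw h1
  have hS := stb_normal m hw hf hm h2
  obtain ⟨h5, h6⟩ := stb_subst m hr hv hS
  have hsm : Ty R Δ (Tm.subst σ m) (sort j) := hm.subst hσ
  obtain ⟨d, h7, h8⟩ := steps_confluent (Steps.subst σ h1) h3
  rw [normal_steps h4 h8] at h7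
  obtain ⟨_, h9⟩ := stb_steps hw' hf' hsm h5 h7
  rw [h9, h6]

theorem hasSk_shift {j : Fin n} {Γ : List (Tm (Fin n))} {ρ : ℕ → ℕ} {T A : Tm (Fin n)} {a : ℕ}
    {e : Fin n} {τ τ' : STp} (hw : Wf R Γ) (hf : Fit R ρ Γ) (hw' : Wf R (A :: Γ))
    (hf' : Fit R (cons a ρ) (A :: Γ)) (_hA : Ty R Γ A (sort e)) (hT : Ty R Γ T (sort j))
    (h : HasSk j.val ρ T τ) (h' : HasSk j.val (cons a ρ) (shift T) τ') : τ = τ' := by
  have e1 : shift T = Tm.subst (fun i => var (Nat.succ i)) T := rename_eq_subst _ _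
  rw [e1] at h'
  refine hasSk_subst (σ := fun i => var (Nat.succ i)) hw hf hw' hf' hT ?_ ?_ ?_ h h'
  · intro i B hB
    have h1 : Ty R (A :: Γ) (var (i + 1)) (shift B) := Ty.var (Lk.succ hB)
    rw [shift_def, rename_eq_subst] at h1
    exact h1
  · intro x
    rfl
  · intro x _
    exact ⟨_, rfl⟩

theorem normal_pi {A B : Tm (Fin n)} (h1 : Normal A) (h2 : Normal B) : Normal (pi A B) := by
  intro x hx
  cases hx with
  | piA _ h => exact h1 _ h
  | piB _ h => exact h2 _ h

/-- The simple type of a product. -/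
theorem hasSk_pi {j : Fin n} (hP : PP R (j.val + 1)) {Γ : List (Tm (Fin n))} {ρ : ℕ → ℕ}
    {A B : Tm (Fin n)} {a : Fin n} {σ τ : STp} (hw : Wf R Γ) (hf : Fit R ρ Γ)
    (hA : Ty R Γ A (sort a)) (hle : j.val ≤ a.val)
    (h1 : (a = j → HasSk j.val ρ A σ) ∧ (a ≠ j → σ = STp.o))
    (h2 : HasSk j.val (cons (a.val + 1) ρ) B τ) : HasSk j.val ρ (pi A B) (STp.arr σ τ) := by
  have hra := rk_type hw hf hA
  obtain ⟨mB, h3, h4, rfl⟩ := h2
  obtain ⟨mA, h5, h6⟩ := exists_nf (hP _ _ hw ⟨_, a, hA, Or.inr ⟨rfl, by omega⟩⟩)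
  refine ⟨pi mA mB, Steps.pi h5 h3, normal_pi h6 h4, ?_⟩
  have e := rk_steps hw hf hA h5
  have hr' : rk ρ A - 1 = a.val + 1 := by omega
  simp only [stp, e, hr']
  by_cases haj : a = j
  · subst haj
    obtain ⟨m₀, h7, h8, rfl⟩ := h1.1 rfl
    rw [normal_unique (Conv.refl' A) h5 h6 h7 h8]
    simp [hra]
  · have : ¬ rk ρ A = j.val + 2 := by
      intro h
      apply haj
      apply Fin.ext
      omega
    simp [this, h1.2 haj]

/-- Agreement of an assignment of simple types with a context. -/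
def SCompat (j : Fin n) (R : Fin n → Fin n → Prop) (ρ : ℕ → ℕ) (Δ : ℕ → STp)
    (Γ : List (Tm (Fin n))) : Prop :=
  ∀ x A, Lk Γ x A → Ty R Γ A (sort j) → ∀ τ, HasSk j.val ρ A τ → Δ x = τ

theorem SCompat.up {j : Fin n} (hP : PP R (j.val + 1)) {Γ : List (Tm (Fin n))} {ρ : ℕ → ℕ}
    {Δ : ℕ → STp} {A : Tm (Fin n)} {a : Fin n} {σ : STp} (hw : Wf R Γ) (hf : Fit R ρ Γ)
    (hA : Ty R Γ A (sort a)) (hc : SCompat j R ρ Δ Γ) (hσ : a = j → HasSk j.val ρ A σ) :
    SCompat j R (cons (a.val + 1) ρ) (scons σ Δ) (A :: Γ) := by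
  have hw' := Wf.cons hw hA
  have hf' := Fit.cons hw hf hA
  intro x B hB hT τ hτ
  cases hB with
  | zero =>
    have haj : a = j := Conv.sort_inj ((hA.shift A).uniq hT)
    exact hasSk_shift hw hf hw' hf' hA (haj ▸ hA) (hσ haj) hτ
  | @succ _ C _ x hC =>
    obtain ⟨e, he⟩ := hC.wf hw
    have hej : e = j := Conv.sort_inj ((he.shift A).uniq hT)
    subst hej
    obtain ⟨τ', hτ'⟩ := hasSk_exists hP hw he ρ
    rw [← hasSk_shift hw hf hw' hf' hA he hτ' hτ]
    exact hc x C hC he τ' hτ'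

/-- The skeleton of a typed term of tier `j` is simply typed. -/
theorem sk_typed (hR : ∀ i j, R i j → j ≤ i) {j : Fin n} (hP : PP R (j.val + 1))
    (hno : ∀ i : Fin n, i.val = j.val + 1 → ¬ R i j) (M : Tm (Fin n)) :
    ∀ {Γ : List (Tm (Fin n))} {ρ : ℕ → ℕ} {Δ : ℕ → STp} {T : Tm (Fin n)} {τ : STp},
      Wf R Γ → Fit R ρ Γ → SCompat j R ρ Δ Γ → Ty R Γ M T → Ty R Γ T (sort j) →
      HasSk j.val ρ T τ → STy j Δ (sk j ρ M) τ := by
  induction M with
  | var x =>
    intro Γ ρ Δ T τ hw hf hc hM hT hτ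
    obtain ⟨A, hL, hcv⟩ := gen_var hM
    obtain ⟨e, he⟩ := hL.wf hw
    have hej : e = j := Ty.sort_unique hw he hT hcv
    subst hej
    have hρ := hf _ _ _ hL he
    obtain ⟨τ', hτ'⟩ := hasSk_exists hP hw he ρ
    have h1 := hc x A hL he τ' hτ'
    have h2 := HasSk.unique hcv hτ' hτ
    simp only [sk, hρ, if_true]
    rw [← h2, ← h1]
    exact STy.var
  | sort s =>
    intro Γ ρ Δ T τ _ _ _ _ _ _
    exact STy.sort
  | app M₁ N ihM ihN =>
    intro Γ ρ Δ T τ hw hf hc hM hT hτ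
    obtain ⟨A, B, hM₁, hN, hcv⟩ := gen_app hM
    obtain ⟨a, s, hA, hB, hab, hPi⟩ := hM₁.pi_parts hw
    have hO := hB.open_ hN
    have hs := Ty.sort_unique hw hO hT hcv
    subst hs
    have hle := Fin.le_def.1 (hR _ _ hab)
    have hra := rk_type hw hf hA
    have hw' := Wf.cons hw hA
    have hf' := Fit.cons hw hf hA
    have hrM := rk_term hw hf hM₁ hPi
    have hrN := rk_term hw hf hN hA
    have hne : a.val ≠ s.val + 1 := fun h => hno a h hab
    obtain ⟨τB, hτB⟩ := hasSk_exists hP hw' hB (cons (a.val + 1) ρ)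
    obtain ⟨τO, hτO⟩ := hasSk_exists hP hw hO ρ
    have e1 := HasSk.unique hcv hτO hτ
    have e2 : τB = τO := by
      refine hasSk_subst (σ := inst N) hw' hf' hw hf hB (instOK hN) (rk_inst _ _ _ hrN) ?_ hτB hτO
      intro x hx
      cases x with
      | zero =>
        simp only [cons_zero] at hx
        omega
      | succ x => exact ⟨x, rfl⟩
    have e3 : τB = τ := e2.trans e1
    subst e3
    simp only [sk, rk_app, hrM, if_true]
    by_cases haj : a = s
    · subst haj
      obtain ⟨τA, hτA⟩ := hasSk_exists hP hw hA ρ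
      have h1 := hasSk_pi hP hw hf hA le_rfl
        ⟨fun _ => hτA, fun h => (h rfl).elim⟩ hτB
      exact STy.app (ihM hw hf hc hM₁ hPi h1) (ihN hw hf hc hN hA hτA)
    · have h1 := hasSk_pi (σ := STp.o) hP hw hf hA hle
        ⟨fun h => (haj h).elim, fun _ => rfl⟩ hτB
      have h2 : sk s ρ N = sort s := sk_ne (by
        rw [hrN]
        intro h
        apply haj
        apply Fin.ext
        omega)
      rw [h2]
      exact STy.app (ihM hw hf hc hM₁ hPi h1) STy.sort
  | lam A P _ ihP =>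
    intro Γ ρ Δ T τ hw hf hc hM hT hτ
    obtain ⟨B, s, hP', hPi, hcv⟩ := gen_lam hM
    have hs := Ty.sort_unique hw hPi hT hcv
    subst hs
    obtain ⟨a, b', hA, hB, hab, hcv'⟩ := gen_pi hPi
    have hbs := Conv.sort_inj hcv'
    subst hbs
    have hle := Fin.le_def.1 (hR _ _ hab)
    have hra := rk_type hw hf hA
    have hr' : rk ρ A - 1 = a.val + 1 := by omega
    have hw' := Wf.cons hw hA
    have hf' := Fit.cons hw hf hA
    have hrP := rk_term hw' hf' hP' hB
    obtain ⟨τB, hτB⟩ := hasSk_exists hP hw' hB (cons (a.val + 1) ρ)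
    have key : ∃ σ, (a = b' → HasSk b'.val ρ A σ) ∧ (a ≠ b' → σ = STp.o) := by
      by_cases haj : a = b'
      · subst haj
        obtain ⟨σ, hσ⟩ := hasSk_exists hP hw hA ρ
        exact ⟨σ, fun _ => hσ, fun h => (h rfl).elim⟩
      · exact ⟨STp.o, fun h => (haj h).elim, fun _ => rfl⟩
    obtain ⟨σ, hσ1, hσ2⟩ := key
    have h1 := hasSk_pi hP hw hf hA hle ⟨hσ1, hσ2⟩ hτB
    have e1 := HasSk.unique hcv h1 hτ
    subst e1
    simp only [sk, hr', hrP, if_true]
    exact STy.lam (ihP hw' hf' (SCompat.up hP hw hf hA hc hσ1) hP' hB hτB)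
  | pi A C ihA ihC =>
    intro Γ ρ Δ T τ hw hf hc hM hT hτ
    obtain ⟨a, s, hA, hC, hab, hcv⟩ := gen_pi hM
    have hjs := conv_sort_typing hw hT (Conv.symm' hcv)
    have hle := Fin.le_def.1 (hR _ _ hab)
    have hra := rk_type hw hf hA
    have hr' : rk ρ A - 1 = a.val + 1 := by omega
    have hw' := Wf.cons hw hA
    have hf' := Fit.cons hw hf hA
    have hrC := rk_type hw' hf' hC
    have hsT : ∀ Δ : List (Tm (Fin n)), Ty R Δ (sort s) (sort j) := fun Δ => Ty.ax hjs
    have key : ∃ σ, (a = j → HasSk j.val ρ A σ) := by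
      by_cases haj : a = j
      · subst haj
        obtain ⟨σ, hσ⟩ := hasSk_exists hP hw hA ρ
        exact ⟨σ, fun _ => hσ⟩
      · exact ⟨STp.o, fun h => (haj h).elim⟩
    obtain ⟨σ, hσ⟩ := key
    have h1 : STy j (scons σ Δ) (sk j (cons (a.val + 1) ρ) C) STp.o :=
      ihC hw' hf' (SCompat.up hP hw hf hA hc hσ) hC (hsT _) (hasSk_sort _ _ _)
    have h2 : STy j Δ (sk j ρ A) STp.o := by
      by_cases has : a = s
      · subst has
        exact ihA hw hf hc hA (hsT _) (hasSk_sort _ _ _)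
      · rw [sk_ne (by
          rw [hra]
          intro h
          apply has
          apply Fin.ext
          omega)]
        exact STy.sort
    have hrj : s.val + 2 = j.val + 1 := by omega
    simp only [sk, hr', hrC, hrj, if_true]
    exact STy.pi h2 h1

/-- An assignment of simple types agreeing with a context exists. -/
theorem scompat_exists (j : Fin n) (R : Fin n → Fin n → Prop) (ρ : ℕ → ℕ)
    (Γ : List (Tm (Fin n))) : ∃ Δ, SCompat j R ρ Δ Γ := by
  classical
  refine ⟨fun x => if h : ∃ τ A, Lk Γ x A ∧ HasSk j.val ρ A τ then h.choose else STp.o, ?_⟩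
  intro x A hL _ τ hτ
  have h : ∃ τ A, Lk Γ x A ∧ HasSk j.val ρ A τ := ⟨τ, A, hL, hτ⟩
  simp only [h, dif_pos]
  obtain ⟨A', h1, h2⟩ := h.choose_spec
  rw [Lk.det h1 hL] at h2
  exact HasSk.unique (Conv.refl' A) h2 hτ

/-- The simple route: if tier `j` has no rule `(j + 1, j)`, strong normalization of the higher tiers
gives strong normalization of tier `j`. -/
theorem route_simple (hR : ∀ i j, R i j → j ≤ i) {j : Fin n}
    (hno : ∀ i : Fin n, i.val = j.val + 1 → ¬ R i j) (hP : PP R (j.val + 1)) : PP R j.val := by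
  intro Γ t hw hu
  obtain ⟨ρ, hf⟩ := Fit.exists hw
  have hle := hu.le_rk hw hf
  by_cases h1 : j.val + 2 ≤ rk ρ t
  · obtain ⟨T, e, h0, _⟩ := hu
    exact hP _ _ hw (UpTy.of_rk hw hf h0 h1)
  · have hrt : rk ρ t = j.val + 1 := by omega
    have key : ∃ T, Ty R Γ t T ∧ Ty R Γ T (sort j) := by
      obtain ⟨T, e, h0, h2⟩ := hu
      refine ⟨T, h0, ?_⟩
      rcases h2 with ⟨h2, _⟩ | ⟨rfl, _⟩
      · have h3 := rk_term hw hf h0 h2
        have : e = j := Fin.ext (by omega)
        rwa [← this]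
      · have h3 := rk_type hw hf h0
        exact Ty.ax (by omega)
    obtain ⟨T, h0, hT⟩ := key
    obtain ⟨τ, hτ⟩ := hasSk_exists hP hw hT ρ
    obtain ⟨Δ, hΔ⟩ := scompat_exists j R ρ Γ
    have h2 := sk_typed hR hP hno t hw hf hΔ h0 hT hτ
    exact sk_back hR hP (acc_below (sty_sn h2)).transGen t hw hf h0 hrt rfl

end Vale.Agent.Lib.P340
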