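import Vale.Agent.Lib.P340.Run

/-!
The typing of the continuation passing transform with memory, and the route through it.
-/

namespace Vale.Agent.Lib.P340
open Tm

variable {n : ℕ} {R : Fin n → Fin n → Prop}

/-- What the target context provides: the answer type and the memory constant. -/
structure TgtOK (R : Fin n → Fin n → Prop) (j : Fin n) (Ψ : List (Tm (Fin n)))
    (b cc : Tm (Fin n)) : Prop where
  hb : Ty R Ψ b (sort j)
  bsort : ∀ s : Fin n, s.val + 1 = j.val → b = sort s
  hcc : Ty R Ψ cc (memTy j b)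
  gcc : Good R j.val Ψ cc

theorem TgtOK.shift {j : Fin n} {Ψ : List (Tm (Fin n))} {b cc : Tm (Fin n)}
    (h : TgtOK R j Ψ b cc) (E : Tm (Fin n)) : TgtOK R j (E :: Ψ) (shift b) (shift cc) := by
  refine ⟨h.hb.shift E, ?_, ?_, h.gcc.shift E⟩
  · intro s hs
    rw [h.bsort s hs]
    rfl
  · have := h.hcc.shift E
    have e : Tm.shift (memTy j b) = memTy j (Tm.shift b) := rename_memTy _ _ _
    rwa [e] at this

theorem ty_app_neg {Ψ : List (Tm (Fin n))} {f a b X : Tm (Fin n)} (hf : Ty R Ψ f (neg b X))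
    (ha : Ty R Ψ a X) : Ty R Ψ (app f a) b := by
  have h := Ty.app (A := X) (B := shift b) hf ha
  rwa [open_shift] at h

/-- The continuation built for an application. -/
theorem ty_cont {j : Fin n} (hjj : R j j) {Ψ : List (Tm (Fin n))} {b D Z V K : Tm (Fin n)}
    (hb : Ty R Ψ b (sort j)) (hF : Ty R Ψ (pi D (neg2 (shift b) Z)) (sort j))
    (hV : Ty R Ψ V D) (hK : Ty R Ψ K (neg b (open_ Z V))) :
    Ty R Ψ (lam (pi D (neg2 (shift b) Z)) (app (app (var 0) (shift V)) (shift K)))
      (neg b (pi D (neg2 (shift b) Z))) := by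
  have h0 : Ty R (pi D (neg2 (shift b) Z) :: Ψ) (var 0)
      (pi (shift D) (rename (upr Nat.succ) (neg2 (shift b) Z))) := Ty.var Lk.zero
  have h1 := Ty.app h0 (hV.shift (pi D (neg2 (shift b) Z)))
  have e1 : open_ (rename (upr Nat.succ) (neg2 (shift b) Z)) (shift V) =
      neg (shift b) (shift (neg b (open_ Z V))) := by
    rw [← shift_open]
    have e2 : open_ (neg2 (shift b) Z) V = neg2 b (open_ Z V) := by
      unfold open_
      rw [subst_neg2, subst_inst_shift]
    rw [e2]
    unfold neg2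
    unfold shift
    rw [rename_neg]
  rw [e1] at h1
  have h2 := ty_app_neg h1 (hK.shift _)
  exact Ty.lam h2 (Ty.neg hjj hb hF)

theorem ty_idK {j s : Fin n} (hjj : R j j) (hs : s.val + 1 = j.val) (Ψ : List (Tm (Fin n))) :
    Ty R Ψ (lam (sort s) (var 0)) (pi (sort s) (sort s)) := by
  have h1 : Ty R (sort s :: Ψ) (var 0) (sort s) := Ty.var (Lk.zero (A := sort s))
  exact Ty.lam h1 (Ty.pi (a := j) (b := j) (Ty.ax (Eq.symm hs)) (Ty.ax (Eq.symm hs)) hjj)

theorem good_idK {j s : Fin n} (hs : s.val + 1 = j.val) (Ψ : List (Tm (Fin n))) :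
    Good R j.val Ψ (lam (sort s) (var 0)) :=
  Good.lam (i := j) (Ty.ax (Eq.symm hs)) le_rfl (fun _ => rfl) (Good.var 0)

/-- The main typing theorem of the transform. -/
theorem tr_main (hR : ∀ i j, R i j → j ≤ i) {j : Fin n} (hjj : R j j) (M : Tm (Fin n)) :
    ∀ {Γ : List (Tm (Fin n))} {ρ ξ : ℕ → ℕ} {Ψ : List (Tm (Fin n))} {b cc T K : Tm (Fin n)},
      Wf R Γ → Fit R ρ Γ → Compat R j ρ ξ Γ Ψ b → TgtOK R j Ψ b cc →
      Ty R Γ M T → Ty R Γ T (sort j) → Ty R Ψ K (neg b (cps j.val ρ ξ b T)) →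
      Good R j.val Ψ K →
      ∃ W, Ty R Ψ W b ∧ Good R j.val Ψ W ∧ Run j.val ρ ξ M K W := by
  have up0 : ∀ {Γ : List (Tm (Fin n))} {ρ ξ : ℕ → ℕ} {Ψ : List (Tm (Fin n))} {b T : Tm (Fin n)},
      Wf R Γ → Fit R ρ Γ → Compat R j ρ ξ Γ Ψ b → Ty R Ψ b (sort j) → Ty R Γ T (sort j) →
      Ty R Ψ (cps j.val ρ ξ b T) (sort j) := by
    intro Γ ρ ξ Ψ b T hw hf hc hb hT
    exact tr_upper hR hjj hT hw hf hc hb (by rw [rk_type hw hf hT])
  induction M with
  | var x =>
    intro Γ ρ ξ Ψ b cc T K hw hf hc ht hM hT hK hgK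
    obtain ⟨A, hL, hcv⟩ := gen_var hM
    obtain ⟨e, he⟩ := hL.wf hw
    have hej : e = j := Ty.sort_unique hw he hT hcv
    subst hej
    have hρ := hf _ _ _ hL he
    have hA0 := up0 hw hf hc ht.hb he
    have hv := (hc x A hL).1 hρ
    have hK' : Ty R Ψ K (neg b (cps e.val ρ ξ b A)) :=
      Ty.conv hK (Ty.neg hjj ht.hb hA0) (Conv.neg b (Conv.symm' (cps_conv' _ hw hf he hT hcv)))
    exact ⟨_, ty_app_neg hv hK', Good.app (Good.var _) hgK, Run.var hρ⟩
  | sort a =>
    intro Γ ρ ξ Ψ b cc T K hw hf hc ht hM hT hK hgK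
    obtain ⟨c, hc1, hc2⟩ := gen_sort hM
    have hj' := conv_sort_typing hw hT (Conv.symm' hc2)
    have hbs := ht.bsort c hj'.symm
    subst hbs
    have hK' : Ty R Ψ K (neg (sort c) (sort c)) :=
      Ty.conv hK (Ty.neg hjj ht.hb (Ty.ax hj'))
        (Conv.neg _ (Conv.symm' (cps_conv j.val hw hf (Ty.ax hc1 : Ty R Γ (sort a) (sort c)) hT hc2)))
    refine ⟨app K (sort a), ty_app_neg hK' (Ty.ax hc1), Good.app hgK (Good.sort a), Run.sort⟩
  | pi A C ihA ihC =>
    intro Γ ρ ξ Ψ b cc T K hw hf hc ht hM hT hK hgK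
    obtain ⟨a, s, hA, hC, hab, hcv⟩ := gen_pi hM
    have hjs := conv_sort_typing hw hT (Conv.symm' hcv)
    have hle := Fin.le_def.1 (hR _ _ hab)
    have hbs := ht.bsort s hjs.symm
    subst hbs
    have hK' : Ty R Ψ K (neg (sort s) (sort s)) :=
      Ty.conv hK (Ty.neg hjj ht.hb (Ty.ax hjs))
        (Conv.neg _ (Conv.symm' (cps_conv j.val hw hf
          (Ty.pi hA hC hab : Ty R Γ (pi A C) (sort s)) hT hcv)))
    have hra := rk_type hw hf hA
    have hr' : rk ρ A - 1 = a.val + 1 := by omega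
    have hw' := Wf.cons hw hA
    have hf' := Fit.cons hw hf hA
    have hsT : ∀ Δ : List (Tm (Fin n)), Ty R Δ (sort s) (sort j) := fun Δ => Ty.ax hjs
    have key : ∀ E : Tm (Fin n), Ty R Ψ E (sort a) → Good R j.val Ψ E →
        Compat R j (cons (a.val + 1) ρ) (upr ξ) (A :: Γ) (E :: Ψ) (shift (sort s)) →
        ∃ W, Ty R (E :: Ψ) W (sort s) ∧ Good R j.val (E :: Ψ) W ∧
          Run j.val (cons (a.val + 1) ρ) (upr ξ) C (lam (sort s) (var 0)) W := by
      intro E _ _ hcE
      exact ihC hw' hf' hcE (ht.shift E) hC (hsT _) (ty_idK hjj hjs.symm _) (good_idK hjs.symm _)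
    by_cases h1 : a.val = s.val
    · -- the domain is of the same tier: it is itself run
      obtain ⟨E, hE, hgE, hrE⟩ := ihA hw hf hc ht hA (by
        have : a = s := Fin.ext h1
        rw [this]
        exact hsT _) (K := lam (sort s) (var 0)) (by
          have hh := ty_idK (R := R) hjj hjs.symm Ψ
          have : a = s := Fin.ext h1
          subst this
          exact hh) (good_idK hjs.symm _)
      have has : a = s := Fin.ext h1
      subst has
      have hcE : Compat R j (cons (a.val + 1) ρ) (upr ξ) (A :: Γ) (E :: Ψ) (shift (sort a)) :=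
        Compat.up hc (fun h => by omega) (fun h => by omega)
      obtain ⟨W, hW, hgW, hrW⟩ := key E hE hgE hcE
      refine ⟨_, ty_app_neg hK' (Ty.pi hE hW hab), Good.app hgK (Good.pi hgE hgW), ?_⟩
      refine Run.piT (G := sort a) (by omega) hrE ?_
      rw [hr']
      exact hrW
    · have hA0 := tr_upper hR hjj hA hw hf hc ht.hb (by omega)
      simp only [cps_sort] at hA0
      by_cases h2 : a.val = j.val
      · have haj : a = j := Fin.ext h2
        subst haj
        have hE := Ty.neg2 hjj ht.hb hA0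
        have hgE : Good R a.val Ψ (neg2 (sort s) (cps a.val ρ ξ (sort s) A)) :=
          Good.up ⟨_, a, hE, Or.inr ⟨rfl, by omega⟩⟩
        have hcE := Compat.up (E := neg2 (sort s) (cps a.val ρ ξ (sort s) A))
          (a := a.val + 1) hc (fun _ => rfl) (fun h => by omega)
        obtain ⟨W, hW, hgW, hrW⟩ := key _ hE hgE hcE
        refine ⟨_, ty_app_neg hK' (Ty.pi hE hW hab), Good.app hgK (Good.pi hgE hgW), ?_⟩
        refine Run.piU (G := sort s) (by omega) ?_
        rw [hr']
        exact hrW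
      · have hgE : Good R j.val Ψ (cps j.val ρ ξ (sort s) A) :=
          Good.up ⟨_, a, hA0, Or.inr ⟨rfl, by omega⟩⟩
        have hcE := Compat.up (E := cps j.val ρ ξ (sort s) A)
          (a := a.val + 1) hc (fun h => by omega) (fun _ => rfl)
        obtain ⟨W, hW, hgW, hrW⟩ := key _ hA0 hgE hcE
        refine ⟨_, ty_app_neg hK' (Ty.pi hA0 hW hab), Good.app hgK (Good.pi hgE hgW), ?_⟩
        refine Run.piU (G := sort s) (by omega) ?_
        rw [hr']
        exact hrW
  | lam A P _ ihP =>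
    intro Γ ρ ξ Ψ b cc T K hw hf hc ht hM hT hK hgK
    obtain ⟨B, s, hP, hPi, hcv⟩ := gen_lam hM
    have hs := Ty.sort_unique hw hPi hT hcv
    subst hs
    obtain ⟨a, b', hA, hB, hab, hcv'⟩ := gen_pi hPi
    have hbs := Conv.sort_inj hcv'
    subst hbs
    have hle := Fin.le_def.1 (hR _ _ hab)
    have hra := rk_type hw hf hA
    have hr' : rk ρ A - 1 = a.val + 1 := by omega
    have hw' := Wf.cons hw hA
    have hf' := Fit.cons hw hf hA
    have hrB := rk_type hw' hf' hB
    have hPi0 := up0 hw hf hc ht.hb hPi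
    have hK1 : Ty R Ψ K (neg b (cps b'.val ρ ξ b (pi A B))) :=
      Ty.conv hK (Ty.neg hjj ht.hb hPi0)
        (Conv.neg b (Conv.symm' (cps_conv' _ hw hf hPi hT hcv)))
    simp only [cps_pi, hr', hrB] at hK1 hPi0
    unfold piT at hK1 hPi0
    rw [if_pos rfl] at hK1 hPi0
    have hA0 := tr_upper hR hjj hA hw hf hc ht.hb (by omega)
    simp only [cps_sort] at hA0
    by_cases h1 : a = b'
    · subst h1
      rw [if_pos hra] at hK1 hPi0
      set D := neg2 b (cps a.val ρ ξ b A) with hD
      set Y := cps a.val (cons (a.val + 1) ρ) (upr ξ) (shift b) B with hY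
      have hDt : Ty R Ψ D (sort a) := Ty.neg2 hjj ht.hb hA0
      have hc1 : Compat R a (cons (a.val + 1) ρ) (upr ξ) (A :: Γ) (D :: Ψ) (shift b) :=
        Compat.up hc (fun _ => rfl) (fun h => by omega)
      have hY0 : Ty R (D :: Ψ) Y (sort a) := up0 hw' hf' hc1 (ht.hb.shift D) hB
      set H := neg (shift b) Y with hH
      have hHt : Ty R (D :: Ψ) H (sort a) := Ty.neg hjj (ht.hb.shift D) hY0
      have hc2 := hc1.weaken (RenOK.succ (D :: Ψ) H)
      have ht2 := (ht.shift D).shift H
      have hK2 : Ty R (H :: D :: Ψ) (var 0)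
          (neg (shift (shift b)) (cps a.val (cons (a.val + 1) ρ) (Nat.succ ∘ upr ξ)
            (shift (shift b)) B)) := by
        have h0 : Ty R (H :: D :: Ψ) (var 0) (shift H) := Ty.var Lk.zero
        have e : shift H = neg (shift (shift b)) (shift Y) := rename_neg _ _ _
        rw [e, shift_cps] at h0
        exact h0
      obtain ⟨WP, hWP, hgWP, hrWP⟩ := ihP hw' hf' hc2 ht2 hP hB hK2 (Good.var 0)
      have hD2 : Ty R (H :: D :: Ψ) (shift (shift D)) (sort a) := (hDt.shift D).shift H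
      have hv1 : Ty R (H :: D :: Ψ) (var 1) (shift (shift D)) :=
        Ty.var (Lk.succ Lk.zero)
      have hBody := ty_mem ht2.hcc hD2 hv1 hWP
      have hPiH : Ty R (D :: Ψ) (neg (shift b) H) (sort a) := Ty.neg hjj (ht.hb.shift D) hHt
      have hV1 : Ty R (D :: Ψ) (lam H (app (app (app (shift (shift cc)) (shift (shift D))) (var 1)) WP))
          (neg (shift b) H) := Ty.lam hBody hPiH
      have hV : Ty R Ψ (lam D (lam H (app (app (app (shift (shift cc)) (shift (shift D))) (var 1)) WP)))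
          (pi D (neg2 (shift b) Y)) := Ty.lam hV1 hPi0
      refine ⟨_, ty_app_neg hK1 hV, ?_, ?_⟩
      · refine Good.app hgK (Good.lam hDt le_rfl ?_ (Good.lam hHt le_rfl ?_ ?_))
        · intro _
          exact Or.inr (Or.inl (Or.inr rfl))
        · intro _
          exact Or.inr (hrWP.occurs rfl)
        · exact Good.app (Good.app (Good.app ht2.gcc
            (Good.up ⟨_, a, hD2, Or.inr ⟨rfl, le_rfl⟩⟩)) (Good.var 1)) hgWP
      · exact Run.lamT hra hrWP
    · have h1' : rk ρ A ≠ b'.val + 2 := by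
        intro h
        apply h1
        apply Fin.ext
        omega
      rw [if_neg h1'] at hK1 hPi0
      have hlt : b'.val < a.val := by
        have : a.val ≠ b'.val := fun h => h1 (Fin.ext h)
        omega
      set D := cps b'.val ρ ξ b A with hD
      set Y := cps b'.val (cons (a.val + 1) ρ) (upr ξ) (shift b) B with hY
      have hc1 : Compat R b' (cons (a.val + 1) ρ) (upr ξ) (A :: Γ) (D :: Ψ) (shift b) :=
        Compat.up hc (fun h => by omega) (fun _ => rfl)
      have hY0 : Ty R (D :: Ψ) Y (sort b') := up0 hw' hf' hc1 (ht.hb.shift D) hB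
      set H := neg (shift b) Y with hH
      have hHt : Ty R (D :: Ψ) H (sort b') := Ty.neg hjj (ht.hb.shift D) hY0
      have hc2 := hc1.weaken (RenOK.succ (D :: Ψ) H)
      have ht2 := (ht.shift D).shift H
      have hK2 : Ty R (H :: D :: Ψ) (var 0)
          (neg (shift (shift b)) (cps b'.val (cons (a.val + 1) ρ) (Nat.succ ∘ upr ξ)
            (shift (shift b)) B)) := by
        have h0 : Ty R (H :: D :: Ψ) (var 0) (shift H) := Ty.var Lk.zero
        have e : shift H = neg (shift (shift b)) (shift Y) := rename_neg _ _ _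
        rw [e, shift_cps] at h0
        exact h0
      obtain ⟨WP, hWP, hgWP, hrWP⟩ := ihP hw' hf' hc2 ht2 hP hB hK2 (Good.var 0)
      have hPiH : Ty R (D :: Ψ) (neg (shift b) H) (sort b') := Ty.neg hjj (ht.hb.shift D) hHt
      have hV1 : Ty R (D :: Ψ) (lam H WP) (neg (shift b) H) := Ty.lam hWP hPiH
      have hV : Ty R Ψ (lam D (lam H WP)) (pi D (neg2 (shift b) Y)) := Ty.lam hV1 hPi0
      refine ⟨_, ty_app_neg hK1 hV, ?_, ?_⟩
      · refine Good.app hgK (Good.lam hA0 hle ?_ (Good.lam hHt le_rfl ?_ hgWP))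
        · intro h
          omega
        · intro _
          exact hrWP.occurs rfl
      · refine Run.lamU (by omega) ?_
        rw [hr']
        exact hrWP
  | app M₁ N ihM ihN =>
    intro Γ ρ ξ Ψ b cc T K hw hf hc ht hM hT hK hgK
    obtain ⟨A, B, hM₁, hN, hcv⟩ := gen_app hM
    obtain ⟨a, s, hA, hB, hab, hPi⟩ := hM₁.pi_parts hw
    have hO := hB.open_ hN
    have hs := Ty.sort_unique hw hO hT hcv
    subst hs
    have hle := Fin.le_def.1 (hR _ _ hab)
    have hra := rk_type hw hf hA
    have hr' : rk ρ A - 1 = a.val + 1 := by omega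
    have hw' := Wf.cons hw hA
    have hf' := Fit.cons hw hf hA
    have hrB := rk_type hw' hf' hB
    have hrN := rk_term hw hf hN hA
    have hPi0 := up0 hw hf hc ht.hb hPi
    have hK1 : Ty R Ψ K (neg b (cps s.val ρ ξ b (open_ B N))) :=
      Ty.conv hK (Ty.neg hjj ht.hb (up0 hw hf hc ht.hb hO))
        (Conv.neg b (Conv.symm' (cps_conv' _ hw hf hO hT hcv)))
    have hA0 := tr_upper hR hjj hA hw hf hc ht.hb (by omega)
    simp only [cps_sort] at hA0
    by_cases h1 : a = s
    · subst h1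
      have hn : ¬ Occurs 0 B := by
        intro ho
        have := occurs_rank hR B hw' hf' hB ho
        rw [hrB] at this
        simp only [cons_zero] at this
        omega
      obtain ⟨B₀, rfl⟩ : ∃ B₀, B = shift B₀ := ⟨_, eq_shift_of_not_occurs N hn⟩
      simp only [open_shift] at hK1 hO
      simp only [cps_pi, hr', hrB] at hPi0
      unfold piT at hPi0
      rw [if_pos rfl, if_pos hra, cps_shift] at hPi0
      set X := neg b (cps a.val ρ ξ b A) with hX
      have hXt : Ty R Ψ X (sort a) := Ty.neg hjj ht.hb hA0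
      have hc1 := hc.weaken (RenOK.succ Ψ X)
      have hKN : Ty R (X :: Ψ) (var 0)
          (neg (shift b) (cps a.val ρ (Nat.succ ∘ ξ) (shift b) A)) := by
        have h0 : Ty R (X :: Ψ) (var 0) (shift X) := Ty.var Lk.zero
        have e : shift X = neg (shift b) (shift (cps a.val ρ ξ b A)) := rename_neg _ _ _
        rw [e, shift_cps] at h0
        exact h0
      obtain ⟨WN, hWN, hgWN, hrWN⟩ := ihN hw hf hc1 (ht.shift X) hN hA hKN (Good.var 0)
      have hV : Ty R Ψ (lam X WN) (neg2 b (cps a.val ρ ξ b A)) :=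
        Ty.lam hWN (Ty.neg2 hjj ht.hb hA0)
      have hgV : Good R a.val Ψ (lam X WN) :=
        Good.lam hXt le_rfl (fun _ => hrWN.occurs rfl) hgWN
      have hK2 : Ty R Ψ K (neg b (open_ (shift (cps a.val ρ ξ b B₀)) (lam X WN))) := by
        rw [open_shift]
        exact hK1
      have hK₁ := ty_cont hjj ht.hb hPi0 hV hK2
      have hK₁' : Ty R Ψ (lam (pi (neg2 b (cps a.val ρ ξ b A))
          (neg2 (shift b) (shift (cps a.val ρ ξ b B₀))))
          (app (app (var 0) (shift (lam X WN))) (shift K)))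
          (neg b (cps a.val ρ ξ b (pi A (shift B₀)))) := by
        simp only [cps_pi, hr', hrB]
        unfold piT
        rw [if_pos rfl, if_pos hra, cps_shift]
        exact hK₁
      have hgK₁ : Good R a.val Ψ (lam (pi (neg2 b (cps a.val ρ ξ b A))
          (neg2 (shift b) (shift (cps a.val ρ ξ b B₀))))
          (app (app (var 0) (shift (lam X WN))) (shift K))) :=
        Good.lam (i := a) hPi0 le_rfl
          (fun _ => Or.inl (Or.inl rfl))
          (Good.app (Good.app (Good.var 0) (hgV.shift _)) (hgK.shift _))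
      obtain ⟨W, hW, hgW, hrW⟩ := ihM hw hf hc ht hM₁ hPi hK₁' hgK₁
      refine ⟨W, hW, hgW, ?_⟩
      exact Run.appT (by omega) (Steps.refl' _) hrWN hrW
    · have hlt : s.val < a.val := by
        have : a.val ≠ s.val := fun h => h1 (Fin.ext h)
        omega
      have hra' : rk ρ A ≠ s.val + 2 := by omega
      simp only [cps_pi, hr', hrB] at hPi0
      unfold piT at hPi0
      rw [if_pos rfl, if_neg hra'] at hPi0
      have hU := tr_upper hR hjj hN hw hf hc ht.hb (by omega)
      have hK2 : Ty R Ψ K (neg b (open_ (cps s.val (cons (a.val + 1) ρ) (upr ξ) (shift b) B)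
          (cps s.val ρ ξ b N))) := by
        rw [← cps_open s.val (a.val + 1) ρ ξ b B N hrN]
        exact hK1
      have hK₁ := ty_cont hjj ht.hb hPi0 hU hK2
      have hK₁' : Ty R Ψ (lam (pi (cps s.val ρ ξ b A)
          (neg2 (shift b) (cps s.val (cons (a.val + 1) ρ) (upr ξ) (shift b) B)))
          (app (app (var 0) (shift (cps s.val ρ ξ b N))) (shift K)))
          (neg b (cps s.val ρ ξ b (pi A B))) := by
        simp only [cps_pi, hr', hrB]
        unfold piT
        rw [if_pos rfl, if_neg hra']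
        exact hK₁
      have hgU : Good R s.val Ψ (cps s.val ρ ξ b N) :=
        Good.up ⟨_, a, hU, Or.inl ⟨hA0, by omega⟩⟩
      have hgK₁ : Good R s.val Ψ (lam (pi (cps s.val ρ ξ b A)
          (neg2 (shift b) (cps s.val (cons (a.val + 1) ρ) (upr ξ) (shift b) B)))
          (app (app (var 0) (shift (cps s.val ρ ξ b N))) (shift K))) :=
        Good.lam (i := s) hPi0 le_rfl
          (fun _ => Or.inl (Or.inl rfl))
          (Good.app (Good.app (Good.var 0) (hgU.shift _)) (hgK.shift _))
      obtain ⟨W, hW, hgW, hrW⟩ := ihM hw hf hc ht hM₁ hPi hK₁' hgK₁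
      refine ⟨W, hW, hgW, ?_⟩
      exact Run.appU (by omega) hrW

/-- The root of the target context. -/
theorem root_exists {j j₁ : Fin n} (hjj : R j j) (hj1 : R j₁ j) (hj₁ : j₁.val = j.val + 1) :
    ∃ (Ψ : List (Tm (Fin n))) (b cc : Tm (Fin n)), Wf R Ψ ∧ TgtOK R j Ψ b cc := by
  by_cases h0 : j.val = 0
  · have hs : Ty R [] (sort j) (sort j₁) := Ty.ax hj₁
    have hv : Ty R [sort j] (var 0) (sort j) := Ty.var (Lk.zero (A := sort j))
    have hw : Wf R [sort j] := Wf.cons Wf.nil hs
    refine ⟨[memTy j (var 0), sort j], var 1, var 0, Wf.cons hw (ty_memTy hjj hj1 hj₁ hv), ?_⟩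
    refine ⟨?_, ?_, ?_, Good.var 0⟩
    · exact Ty.var (Lk.succ (Lk.zero (A := sort j)))
    · intro s hs
      omega
    · have : Lk [memTy j (var 0), sort j] 0 (memTy j (var 1)) := by
        have h := Lk.zero (A := memTy j (var 0)) (Γ := [sort j])
        have e : shift (memTy j (var 0)) = memTy j (var 1) := rename_memTy _ _ _
        rwa [e] at h
      exact Ty.var this
  · have hlt : j.val - 1 < n := by omega
    let s₀ : Fin n := ⟨j.val - 1, hlt⟩
    have hs₀ : s₀.val + 1 = j.val := by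
      show j.val - 1 + 1 = j.val
      omega
    have hb : Ty R [] (sort s₀) (sort j) := Ty.ax (Eq.symm hs₀)
    refine ⟨[memTy j (sort s₀)], sort s₀, var 0,
      Wf.cons Wf.nil (ty_memTy hjj hj1 hj₁ hb), ?_⟩
    refine ⟨Ty.ax (Eq.symm hs₀), ?_, ?_, Good.var 0⟩
    · intro s hs
      have : s = s₀ := Fin.ext (by omega)
      rw [this]
    · have : Lk [memTy j (sort s₀)] 0 (memTy j (sort s₀)) := by
        have h := Lk.zero (A := memTy j (sort s₀)) (Γ := [])
        have e : shift (memTy j (sort s₀)) = memTy j (sort s₀) := rename_memTy _ _ _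
        rwa [e] at h
      exact Ty.var this

/-- The translated context. -/
theorem star_exists (hR : ∀ i j, R i j → j ≤ i) {j j₁ : Fin n} (hjj : R j j) (hj1 : R j₁ j)
    (hj₁ : j₁.val = j.val + 1) {Γ : List (Tm (Fin n))} (hw : Wf R Γ) :
    ∃ (ρ : ℕ → ℕ) (Ψ : List (Tm (Fin n))) (b cc : Tm (Fin n)), Fit R ρ Γ ∧ Wf R Ψ ∧
      Compat R j ρ id Γ Ψ b ∧ TgtOK R j Ψ b cc := by
  induction hw with
  | nil =>
    obtain ⟨Ψ, b, cc, h1, h2⟩ := root_exists hjj hj1 hj₁
    exact ⟨fun _ => 0, Ψ, b, cc, fun i A e h => (by cases h), h1, fun i A h => (by cases h), h2⟩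
  | @cons Γ A a hw hA ih =>
    obtain ⟨ρ, Ψ, b, cc, hf, hΨ, hc, ht⟩ := ih
    have hf' := Fit.cons hw hf hA
    have hra := rk_type hw hf hA
    have key : ∀ E : Tm (Fin n), (∃ e : Fin n, Ty R Ψ E (sort e)) →
        Compat R j (cons (a.val + 1) ρ) id (A :: Γ) (E :: Ψ) (shift b) →
        ∃ (ρ : ℕ → ℕ) (Ψ : List (Tm (Fin n))) (b cc : Tm (Fin n)), Fit R ρ (A :: Γ) ∧ Wf R Ψ ∧
          Compat R j ρ id (A :: Γ) Ψ b ∧ TgtOK R j Ψ b cc := by
      intro E hE hcE
      obtain ⟨e, he⟩ := hE
      exact ⟨_, E :: Ψ, shift b, shift cc, hf', Wf.cons hΨ he, hcE, ht.shift E⟩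
    by_cases h1 : a.val < j.val
    · refine key (sort j) ⟨j₁, Ty.ax hj₁⟩ ?_
      have := Compat.up (E := sort j) (a := a.val + 1) (A := A) hc (fun h => by omega)
        (fun h => by omega)
      rwa [upr_id] at this
    · have hA0 := tr_upper hR hjj hA hw hf hc ht.hb (by omega)
      simp only [cps_sort] at hA0
      by_cases h2 : a.val = j.val
      · have haj : a = j := Fin.ext h2
        subst haj
        refine key (neg2 b (cps a.val ρ id b A)) ⟨a, Ty.neg2 hjj ht.hb hA0⟩ ?_
        have := Compat.up (E := neg2 b (cps a.val ρ id b A)) (a := a.val + 1) (A := A) hc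
          (fun _ => rfl) (fun h => by omega)
        rwa [upr_id] at this
      · refine key (cps j.val ρ id b A) ⟨a, hA0⟩ ?_
        have := Compat.up (E := cps j.val ρ id b A) (a := a.val + 1) (A := A) hc
          (fun h => by omega) (fun _ => rfl)
        rwa [upr_id] at this

/-- The route through the continuation passing transform: if tier `j` has the rules `(j, j)` and
`(j + 1, j)`, then weak normalization of the system and strong normalization of the higher tiers give
strong normalization of tier `j`. -/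
theorem route_cps (hWN : WeaklyNormalizing (tiered n R)) (hR : ∀ i j, R i j → j ≤ i)
    {j j₁ : Fin n} (hjj : R j j) (hj1 : R j₁ j) (hj₁ : j₁.val = j.val + 1)
    (hP : PP R (j.val + 1)) : PP R j.val := by
  intro Γ t hw hu
  obtain ⟨ρ, Ψ, b, cc, hf, hΨ, hc, ht⟩ := star_exists hR hjj hj1 hj₁ hw
  have hle := hu.le_rk hw hf
  by_cases h1 : j.val + 2 ≤ rk ρ t
  · obtain ⟨T, e, h0, _⟩ := hu
    exact hP _ _ hw (UpTy.of_rk hw hf h0 h1)
  · have hrt : rk ρ t = j.val + 1 := by omega
    have key : ∃ T, Ty R Γ t T ∧ Ty R Γ T (sort j) := by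
      obtain ⟨T, e, h0, h2⟩ := hu
      refine ⟨T, h0, ?_⟩
      rcases h2 with ⟨h2, _⟩ | ⟨rfl, _⟩
      · have h3 := rk_term hw hf h0 h2
        have : e = j := Fin.ext (by omega)
        rwa [← this]
      · have h3 := rk_type hw hf h0
        exact Ty.ax (by omega)
    obtain ⟨T, h0, hT⟩ := key
    have hT0 : Ty R Ψ (cps j.val ρ id b T) (sort j) :=
      tr_upper hR hjj hT hw hf hc ht.hb (by rw [rk_type hw hf hT])
    set X := neg b (cps j.val ρ id b T) with hX
    have hXt : Ty R Ψ X (sort j) := Ty.neg hjj ht.hb hT0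
    have hc1 := hc.weaken (RenOK.succ Ψ X)
    have hK : Ty R (X :: Ψ) (var 0)
        (neg (shift b) (cps j.val ρ (Nat.succ ∘ id) (shift b) T)) := by
      have h2 : Ty R (X :: Ψ) (var 0) (shift X) := Ty.var Lk.zero
      have e : shift X = neg (shift b) (shift (cps j.val ρ id b T)) := rename_neg _ _ _
      rw [e, shift_cps] at h2
      exact h2
    obtain ⟨W, hW, hgW, hrW⟩ := tr_main hR hjj t hw hf hc1 (ht.shift X) h0 hT hK (Good.var 0)
    have hΨ' : Wf R (X :: Ψ) := Wf.cons hΨ hXt
    have hSN : SN W := conservation hP (WN1.of_WN (hWN W (legal_of_ty hW hΨ'))) hΨ' hW hgW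
    exact sn_back rfl hR hP (acc_below hSN).transGen t hw hf h0 (by omega) hrW

end Vale.Agent.Lib.P340
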