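import Vale.Agent.Lib.P340.Reduction

/-!
A relaxed form of typing for tiered systems, its renaming and substitution lemmas, the generation
lemmas, correctness of types, subject reduction and uniqueness of types, and the bridge to the
official typing relation.
-/

namespace Vale.Agent.Lib.P340
open Tm

/-- Context lookup: `Lk Γ i A` says that the variable `i` has type `A` (already shifted into the
scope of the whole context). -/
inductive Lk {S : Type} : List (Tm S) → ℕ → Tm S → Prop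
  | zero {A : Tm S} {Γ : List (Tm S)} : Lk (A :: Γ) 0 (shift A)
  | succ {A B : Tm S} {Γ : List (Tm S)} {i : ℕ} : Lk Γ i B → Lk (A :: Γ) (i + 1) (shift B)

theorem Lk.det {S : Type} {Γ : List (Tm S)} {i : ℕ} {A B : Tm S} (h : Lk Γ i A) (h' : Lk Γ i B) :
    A = B := by
  induction h generalizing B with
  | zero => cases h'; rfl
  | succ _ ih =>
    cases h' with
    | succ h' => rw [ih h']

variable {n : ℕ}

/-- Relaxed typing for the tiered system with rule relation `R`: the variable rule and the axiom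
have no premises on the context, and there is no weakening rule (it is admissible). -/
inductive Ty (R : Fin n → Fin n → Prop) : List (Tm (Fin n)) → Tm (Fin n) → Tm (Fin n) → Prop
  | ax {Γ : List (Tm (Fin n))} {a b : Fin n} : b.val = a.val + 1 → Ty R Γ (sort a) (sort b)
  | var {Γ : List (Tm (Fin n))} {i : ℕ} {A : Tm (Fin n)} : Lk Γ i A → Ty R Γ (var i) A
  | pi {Γ : List (Tm (Fin n))} {A B : Tm (Fin n)} {a b : Fin n} :
      Ty R Γ A (sort a) → Ty R (A :: Γ) B (sort b) → R a b → Ty R Γ (pi A B) (sort b)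
  | lam {Γ : List (Tm (Fin n))} {A M B : Tm (Fin n)} {s : Fin n} :
      Ty R (A :: Γ) M B → Ty R Γ (pi A B) (sort s) → Ty R Γ (lam A M) (pi A B)
  | app {Γ : List (Tm (Fin n))} {M N A B : Tm (Fin n)} :
      Ty R Γ M (pi A B) → Ty R Γ N A → Ty R Γ (app M N) (open_ B N)
  | conv {Γ : List (Tm (Fin n))} {M A B : Tm (Fin n)} {s : Fin n} :
      Ty R Γ M A → Ty R Γ B (sort s) → Conv A B → Ty R Γ M B

variable {R : Fin n → Fin n → Prop}

/-- Well-formed contexts. -/
inductive Wf (R : Fin n → Fin n → Prop) : List (Tm (Fin n)) → Prop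
  | nil : Wf R []
  | cons {Γ : List (Tm (Fin n))} {A : Tm (Fin n)} {s : Fin n} :
      Wf R Γ → Ty R Γ A (sort s) → Wf R (A :: Γ)

/-! ### Renaming -/

/-- A renaming respecting contexts. -/
def RenOK {S : Type} (ξ : ℕ → ℕ) (Γ Δ : List (Tm S)) : Prop :=
  ∀ i A, Lk Γ i A → Lk Δ (ξ i) (rename ξ A)

theorem RenOK.up {S : Type} {ξ : ℕ → ℕ} {Γ Δ : List (Tm S)} (h : RenOK ξ Γ Δ) (A : Tm S) :
    RenOK (upr ξ) (A :: Γ) (rename ξ A :: Δ) := by
  intro i B hB
  cases hB with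
  | zero => rw [rename_shift]; exact Lk.zero
  | succ hB => rw [rename_shift]; exact Lk.succ (h _ _ hB)

theorem RenOK.succ {S : Type} (Γ : List (Tm S)) (A : Tm S) : RenOK Nat.succ Γ (A :: Γ) :=
  fun _ _ h => Lk.succ h

theorem Ty.rename {Γ : List (Tm (Fin n))} {t T : Tm (Fin n)} (h : Ty R Γ t T) :
    ∀ {ξ : ℕ → ℕ} {Δ : List (Tm (Fin n))}, RenOK ξ Γ Δ → Ty R Δ (rename ξ t) (rename ξ T) := by
  induction h with
  | ax h => intro ξ Δ _; exact Ty.ax h
  | var h => intro ξ Δ hξ; exact Ty.var (hξ _ _ h)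
  | pi _ _ hR ihA ihB =>
    intro ξ Δ hξ
    exact Ty.pi (ihA hξ) (ihB (hξ.up _)) hR
  | lam _ _ ihM ihP =>
    intro ξ Δ hξ
    exact Ty.lam (ihM (hξ.up _)) (ihP hξ)
  | app _ _ ihM ihN =>
    intro ξ Δ hξ
    rw [rename_open]
    exact Ty.app (ihM hξ) (ihN hξ)
  | conv _ _ hc ihM ihB =>
    intro ξ Δ hξ
    exact Ty.conv (ihM hξ) (ihB hξ) (Conv.rename ξ hc)

theorem Ty.shift {Γ : List (Tm (Fin n))} {t T : Tm (Fin n)} (h : Ty R Γ t T) (A : Tm (Fin n)) :
    Ty R (A :: Γ) (shift t) (shift T) := h.rename (RenOK.succ Γ A)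

/-! ### Substitution -/

/-- A substitution respecting contexts. -/
def SubOK (R : Fin n → Fin n → Prop) (σ : ℕ → Tm (Fin n)) (Γ Δ : List (Tm (Fin n))) : Prop :=
  ∀ i A, Lk Γ i A → Ty R Δ (σ i) (subst σ A)

theorem SubOK.up {σ : ℕ → Tm (Fin n)} {Γ Δ : List (Tm (Fin n))} (h : SubOK R σ Γ Δ)
    (A : Tm (Fin n)) : SubOK R (ups σ) (A :: Γ) (subst σ A :: Δ) := by
  intro i B hB
  cases hB with
  | zero => rw [subst_shift]; exact Ty.var Lk.zero
  | succ hB => rw [subst_shift]; exact (h _ _ hB).shift _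

theorem Ty.subst {Γ : List (Tm (Fin n))} {t T : Tm (Fin n)} (h : Ty R Γ t T) :
    ∀ {σ : ℕ → Tm (Fin n)} {Δ : List (Tm (Fin n))}, SubOK R σ Γ Δ →
      Ty R Δ (subst σ t) (subst σ T) := by
  induction h with
  | ax h => intro σ Δ _; exact Ty.ax h
  | var h => intro σ Δ hσ; exact hσ _ _ h
  | pi _ _ hR ihA ihB =>
    intro σ Δ hσ
    exact Ty.pi (ihA hσ) (ihB (hσ.up _)) hR
  | lam _ _ ihM ihP =>
    intro σ Δ hσ
    exact Ty.lam (ihM (hσ.up _)) (ihP hσ)
  | app _ _ ihM ihN =>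
    intro σ Δ hσ
    rw [subst_open]
    exact Ty.app (ihM hσ) (ihN hσ)
  | conv _ _ hc ihM ihB =>
    intro σ Δ hσ
    exact Ty.conv (ihM hσ) (ihB hσ) (Conv.subst σ hc)

theorem instOK {Γ : List (Tm (Fin n))} {N A : Tm (Fin n)} (h : Ty R Γ N A) :
    SubOK R (inst N) (A :: Γ) Γ := by
  intro i B hB
  cases hB with
  | zero => simpa using h
  | succ hB => simpa using Ty.var hB

theorem Ty.open_ {Γ : List (Tm (Fin n))} {b T N A : Tm (Fin n)} (h : Ty R (A :: Γ) b T)
    (hN : Ty R Γ N A) : Ty R Γ (open_ b N) (open_ T N) := h.subst (instOK hN)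

/-! ### Generation -/

theorem gen_sort {Γ : List (Tm (Fin n))} {a : Fin n} {T : Tm (Fin n)}
    (h : Ty R Γ (sort a) T) : ∃ b : Fin n, b.val = a.val + 1 ∧ Conv (sort b) T := by
  generalize ht : sort a = t at h
  induction h with
  | ax h => cases ht; exact ⟨_, h, Conv.refl' _⟩
  | var _ => cases ht
  | pi _ _ _ _ _ => cases ht
  | lam _ _ _ _ => cases ht
  | app _ _ _ _ => cases ht
  | conv _ _ hc ih _ =>
    obtain ⟨b, h1, h2⟩ := ih ht
    exact ⟨b, h1, Conv.trans' h2 hc⟩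

theorem gen_var {Γ : List (Tm (Fin n))} {i : ℕ} {T : Tm (Fin n)}
    (h : Ty R Γ (var i) T) : ∃ A, Lk Γ i A ∧ Conv A T := by
  generalize ht : (var i : Tm (Fin n)) = t at h
  induction h with
  | ax h => cases ht
  | var h => cases ht; exact ⟨_, h, Conv.refl' _⟩
  | pi _ _ _ _ _ => cases ht
  | lam _ _ _ _ => cases ht
  | app _ _ _ _ => cases ht
  | conv _ _ hc ih _ =>
    obtain ⟨b, h1, h2⟩ := ih ht
    exact ⟨b, h1, Conv.trans' h2 hc⟩

theorem gen_pi {Γ : List (Tm (Fin n))} {A B T : Tm (Fin n)}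
    (h : Ty R Γ (pi A B) T) : ∃ a b : Fin n, Ty R Γ A (sort a) ∧ Ty R (A :: Γ) B (sort b) ∧
      R a b ∧ Conv (sort b) T := by
  generalize ht : pi A B = t at h
  induction h with
  | ax h => cases ht
  | var h => cases ht
  | pi hA hB hR _ _ => cases ht; exact ⟨_, _, hA, hB, hR, Conv.refl' _⟩
  | lam _ _ _ _ => cases ht
  | app _ _ _ _ => cases ht
  | conv _ _ hc ih _ =>
    obtain ⟨a, b, h1, h2, h3, h4⟩ := ih ht
    exact ⟨a, b, h1, h2, h3, Conv.trans' h4 hc⟩

theorem gen_lam {Γ : List (Tm (Fin n))} {A M T : Tm (Fin n)}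
    (h : Ty R Γ (lam A M) T) : ∃ (B : Tm (Fin n)) (s : Fin n), Ty R (A :: Γ) M B ∧
      Ty R Γ (pi A B) (sort s) ∧ Conv (pi A B) T := by
  generalize ht : lam A M = t at h
  induction h with
  | ax h => cases ht
  | var h => cases ht
  | pi _ _ _ _ _ => cases ht
  | lam hM hP _ _ => cases ht; exact ⟨_, _, hM, hP, Conv.refl' _⟩
  | app _ _ _ _ => cases ht
  | conv _ _ hc ih _ =>
    obtain ⟨a, b, h1, h2, h3⟩ := ih ht
    exact ⟨a, b, h1, h2, Conv.trans' h3 hc⟩

theorem gen_app {Γ : List (Tm (Fin n))} {M N T : Tm (Fin n)}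
    (h : Ty R Γ (app M N) T) : ∃ A B, Ty R Γ M (pi A B) ∧ Ty R Γ N A ∧ Conv (open_ B N) T := by
  generalize ht : app M N = t at h
  induction h with
  | ax h => cases ht
  | var h => cases ht
  | pi _ _ _ _ _ => cases ht
  | lam _ _ _ _ => cases ht
  | app hM hN _ _ => cases ht; exact ⟨_, _, hM, hN, Conv.refl' _⟩
  | conv _ _ hc ih _ =>
    obtain ⟨a, b, h1, h2, h3⟩ := ih ht
    exact ⟨a, b, h1, h2, Conv.trans' h3 hc⟩

/-! ### Well-formed contexts, correctness of types -/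

theorem Lk.wf {Γ : List (Tm (Fin n))} {i : ℕ} {A : Tm (Fin n)} (h : Lk Γ i A) (hw : Wf R Γ) :
    ∃ s : Fin n, Ty R Γ A (sort s) := by
  induction h with
  | zero =>
    cases hw with
    | cons _ h => exact ⟨_, h.shift _⟩
  | succ _ ih =>
    cases hw with
    | cons hw h =>
      obtain ⟨s, hs⟩ := ih hw
      exact ⟨s, hs.shift _⟩

/-- Correctness of types. -/
theorem Ty.correct {Γ : List (Tm (Fin n))} {t T : Tm (Fin n)} (h : Ty R Γ t T) (hw : Wf R Γ) :
    (∃ s : Fin n, T = sort s) ∨ ∃ s : Fin n, Ty R Γ T (sort s) := by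
  induction h with
  | ax _ => exact Or.inl ⟨_, rfl⟩
  | var h => exact Or.inr (h.wf hw)
  | pi _ _ _ _ _ => exact Or.inl ⟨_, rfl⟩
  | lam _ hP _ _ => exact Or.inr ⟨_, hP⟩
  | app _ hN ihM _ =>
    rcases ihM hw with ⟨s, hs⟩ | ⟨s, hs⟩
    · cases hs
    · obtain ⟨a, b, _, h2, _, _⟩ := gen_pi hs
      exact Or.inr ⟨b, h2.open_ hN⟩
  | conv _ hB _ _ _ => exact Or.inr ⟨_, hB⟩

/-- The type of a function is typed, with typed domain and codomain. -/
theorem Ty.pi_parts {Γ : List (Tm (Fin n))} {t A B : Tm (Fin n)} (h : Ty R Γ t (Tm.pi A B))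
    (hw : Wf R Γ) : ∃ a b : Fin n, Ty R Γ A (sort a) ∧ Ty R (A :: Γ) B (sort b) ∧ R a b ∧
      Ty R Γ (Tm.pi A B) (sort b) := by
  rcases h.correct hw with ⟨s, hs⟩ | ⟨s, hs⟩
  · cases hs
  · obtain ⟨a, b, h1, h2, h3, _⟩ := gen_pi hs
    exact ⟨a, b, h1, h2, h3, Ty.pi h1 h2 h3⟩

theorem Ty.ctx_conv {Γ : List (Tm (Fin n))} {A A' t T : Tm (Fin n)} {a a' : Fin n}
    (h : Ty R (A :: Γ) t T) (hA : Ty R Γ A (sort a)) (_hA' : Ty R Γ A' (sort a'))
    (hc : Conv A A') : Ty R (A' :: Γ) t T := by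
  have H : SubOK R Tm.var (A :: Γ) (A' :: Γ) := by
    intro i B hB
    rw [subst_var]
    cases hB with
    | zero =>
      exact Ty.conv (Ty.var Lk.zero) (hA.shift A') (Conv.shift (Conv.symm' hc))
    | succ hB => exact Ty.var (Lk.succ hB)
  have := h.subst H
  rwa [subst_var, subst_var] at this

/-- Subject reduction. -/
theorem Ty.step {Γ : List (Tm (Fin n))} {t T : Tm (Fin n)} (h : Ty R Γ t T) (hw : Wf R Γ) :
    ∀ {t' : Tm (Fin n)}, Step t t' → Ty R Γ t' T := by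
  induction h with
  | ax _ => intro t' hs; cases hs
  | var _ => intro t' hs; cases hs
  | pi hA hB hR ihA ihB =>
    intro t' hs
    cases hs with
    | piA _ s =>
      have hA' := ihA hw s
      exact Ty.pi hA' (hB.ctx_conv hA hA' (Conv.of_step s)) hR
    | piB _ s => exact Ty.pi hA (ihB (Wf.cons hw hA) s) hR
  | lam hM hP ihM ihP =>
    intro t' hs
    obtain ⟨a, b, hA, hB, hR, _⟩ := gen_pi hP
    cases hs with
    | lamA _ s =>
      have hP' := ihP hw (Step.piA _ s)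
      obtain ⟨a', b', hA', _, _, _⟩ := gen_pi hP'
      exact Ty.conv (Ty.lam (hM.ctx_conv hA hA' (Conv.of_step s)) hP') hP
        (Conv.symm' (Conv.of_step (Step.piA _ s)))
    | lamB _ s => exact Ty.lam (ihM (Wf.cons hw hA) s) hP
  | app hM hN ihM ihN =>
    intro t' hs
    obtain ⟨a, b, hA, hB, _, _⟩ := hM.pi_parts hw
    have hO := hB.open_ hN
    cases hs with
    | beta A₀ P N =>
      obtain ⟨B₀, s, hP, hQ, hc⟩ := gen_lam hM
      obtain ⟨hc1, hc2⟩ := Conv.pi_inj hc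
      obtain ⟨a₀, _, hA₀, _, _, _⟩ := gen_pi hQ
      exact Ty.conv (hP.open_ (Ty.conv hN hA₀ (Conv.symm' hc1))) hO (Conv.open_body _ hc2)
    | appL _ s => exact Ty.app (ihM hw s) hN
    | appR _ s =>
      exact Ty.conv (Ty.app hM (ihN hw s)) hO
        (Conv.symm' (Conv.of_steps (Steps.open_arg _ (Steps.of_step s))))
  | conv _ hB hc ih _ =>
    intro t' hs
    exact Ty.conv (ih hw hs) hB hc

theorem Ty.steps {Γ : List (Tm (Fin n))} {t t' T : Tm (Fin n)} (h : Ty R Γ t T) (hw : Wf R Γ)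
    (hs : Steps t t') : Ty R Γ t' T := by
  induction hs with
  | refl => exact h
  | tail _ hs ih => exact ih.step hw hs

/-- Uniqueness of types. -/
theorem Ty.uniq {Γ : List (Tm (Fin n))} {t T T' : Tm (Fin n)} (h : Ty R Γ t T)
    (h' : Ty R Γ t T') : Conv T T' := by
  induction h generalizing T' with
  | ax h =>
    obtain ⟨b, h1, h2⟩ := gen_sort h'
    have : b = _ := Fin.ext (h1.trans h.symm)
    rwa [this] at h2
  | var h =>
    obtain ⟨A, h1, h2⟩ := gen_var h'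
    rwa [Lk.det h h1]
  | pi _ _ _ _ ihB =>
    obtain ⟨a, b, _, h2, _, h4⟩ := gen_pi h'
    have := Conv.sort_inj (ihB h2)
    rwa [this]
  | lam _ _ ihM _ =>
    obtain ⟨B, s, h1, _, h3⟩ := gen_lam h'
    exact Conv.trans' (Conv.piB _ (ihM h1)) h3
  | app _ _ ihM _ =>
    obtain ⟨A, B, h1, _, h3⟩ := gen_app h'
    exact Conv.trans' (Conv.open_body _ (Conv.pi_inj (ihM h1)).2) h3
  | conv _ _ hc ih _ => exact Conv.trans' (Conv.symm' hc) (ih h')

/-- Convertible typed types live in the same sort. -/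
theorem Ty.sort_unique {Γ : List (Tm (Fin n))} {A B : Tm (Fin n)} {s s' : Fin n} (hw : Wf R Γ)
    (hA : Ty R Γ A (sort s)) (hB : Ty R Γ B (sort s')) (hc : Conv A B) : s = s' := by
  obtain ⟨C, h1, h2⟩ := hc.join
  exact Conv.sort_inj ((hA.steps hw h1).uniq (hB.steps hw h2))

theorem sort_typing {Γ : List (Tm (Fin n))} {a b : Fin n} (h : Ty R Γ (sort a) (sort b)) :
    b.val = a.val + 1 := by
  obtain ⟨c, h1, h2⟩ := gen_sort h
  rw [← Conv.sort_inj h2]
  exact h1

/-- A typed term converting to a sort is typed by the next sort. -/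
theorem conv_sort_typing {Γ : List (Tm (Fin n))} {T : Tm (Fin n)} {e k : Fin n} (hw : Wf R Γ)
    (hT : Ty R Γ T (sort e)) (hc : Conv T (sort k)) : e.val = k.val + 1 :=
  sort_typing (hT.steps hw hc.to_sort)

/-! ### The bridge to the official typing relation -/

theorem Der.toTy {Γ : List (Tm (tiered n R).S)} {t T : Tm (tiered n R).S}
    (h : Der (tiered n R) Γ t T) : Ty R Γ t T ∧ Wf R Γ := by
  induction h with
  | ax h => exact ⟨Ty.ax h, Wf.nil⟩
  | var _ ih => exact ⟨Ty.var Lk.zero, Wf.cons ih.2 ih.1⟩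
  | weak _ _ ih ih' => exact ⟨ih.1.shift _, Wf.cons ih'.2 ih'.1⟩
  | pi _ _ hR ihA ihB =>
    obtain ⟨hR, rfl⟩ := hR
    exact ⟨Ty.pi ihA.1 ihB.1 hR, ihA.2⟩
  | lam _ _ ihM ihP => exact ⟨Ty.lam ihM.1 ihP.1, ihP.2⟩
  | app _ _ ihM ihN => exact ⟨Ty.app ihM.1 ihN.1, ihM.2⟩
  | conv _ _ hc ihM ihB => exact ⟨Ty.conv ihM.1 ihB.1 hc, ihM.2⟩

/-- Official well-formedness of contexts. -/
def WfD (R : Fin n → Fin n → Prop) : List (Tm (Fin n)) → Prop
  | [] => True
  | A :: Γ => WfD R Γ ∧ ∃ s : Fin n, Der (tiered n R) Γ A (sort s)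

theorem der_pi_domain {P : Spec} {Γ : List (Tm P.S)} {A B T : Tm P.S}
    (h : Der P Γ (pi A B) T) : ∃ s : P.S, Der P Γ A (sort s) := by
  generalize ht : pi A B = t at h
  induction h generalizing A B with
  | ax _ => cases ht
  | var _ _ => cases ht
  | @weak _ M _ _ _ hM hC ih _ =>
    cases M with
    | var i => cases ht
    | sort s => cases ht
    | app a b => cases ht
    | lam a b => cases ht
    | pi a b =>
      simp only [shift, rename_pi] at ht
      injection ht with h1 h2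
      subst h1
      obtain ⟨s, hs⟩ := ih rfl
      exact ⟨s, Der.weak hs hC⟩
  | pi hA _ _ _ _ =>
    cases ht
    exact ⟨_, hA⟩
  | lam _ _ _ _ => cases ht
  | app _ _ _ _ => cases ht
  | conv _ _ _ ih _ => exact ih ht

theorem der_ax_wfd {Γ : List (Tm (Fin n))} {a b : Fin n} (h : b.val = a.val + 1)
    (hw : WfD R Γ) : Der (tiered n R) Γ (sort a) (sort b) := by
  induction Γ with
  | nil => exact Der.ax (P := tiered n R) h
  | cons A Γ ih =>
    obtain ⟨h1, s, h2⟩ := hw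
    exact Der.weak (ih h1) h2

theorem der_var_wfd {Γ : List (Tm (Fin n))} {i : ℕ} {A : Tm (Fin n)} (h : Lk Γ i A)
    (hw : WfD R Γ) : Der (tiered n R) Γ (var i) A := by
  induction h with
  | zero =>
    obtain ⟨_, s, h2⟩ := hw
    exact Der.var h2
  | succ _ ih =>
    obtain ⟨h1, s, h2⟩ := hw
    exact Der.weak (ih h1) h2

theorem Ty.toDer {Γ : List (Tm (Fin n))} {t T : Tm (Fin n)} (h : Ty R Γ t T) (hw : WfD R Γ) :
    Der (tiered n R) Γ t T := by
  induction h with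
  | ax h => exact der_ax_wfd h hw
  | var h => exact der_var_wfd h hw
  | pi _ _ hR ihA ihB =>
    have h1 := ihA hw
    exact Der.pi (P := tiered n R) h1 (ihB ⟨hw, _, h1⟩) ⟨hR, rfl⟩
  | lam _ _ ihM ihP =>
    have h1 := ihP hw
    obtain ⟨s, hs⟩ := der_pi_domain h1
    exact Der.lam (ihM ⟨hw, s, hs⟩) h1
  | app _ _ ihM ihN => exact Der.app (ihM hw) (ihN hw)
  | conv _ _ hc ihM ihB => exact Der.conv (ihM hw) (ihB hw) hc

theorem Wf.toD {Γ : List (Tm (Fin n))} (h : Wf R Γ) : WfD R Γ := by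
  induction h with
  | nil => trivial
  | cons _ hA ih => exact ⟨ih, _, hA.toDer ih⟩

/-- A term typed in a well-formed context is legal. -/
theorem legal_of_ty {Γ : List (Tm (Fin n))} {t T : Tm (Fin n)} (h : Ty R Γ t T) (hw : Wf R Γ) :
    Legal (tiered n R) t := ⟨Γ, T, Or.inl (h.toDer hw.toD)⟩

end Vale.Agent.Lib.P340
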